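import Vale.Agent.P098.Boch

/-! The refined Kato inequality. -/

open MeasureTheory Set Filter Topology Metric
open scoped ContDiff RealInnerProductSpace

noncomputable section

namespace Vale.Agent.P098

variable {d : ℕ} {S : Set (V d)} {U f g h k m F θ φ : V d → ℝ} {x : V d} {a b : ℝ}
  {z χ : ℝ → ℝ}

theorem alg_sq {A : Fin d → Fin d → ℝ} {v y c : Fin d → ℝ} {w s : ℝ} (hw : w ≠ 0) (hs : s ≠ 0)
    (e1 : ∀ i, ∑ j, A i j * y j = -v i) (e2 : ∑ i, y i * v i = 0) (e3 : ∑ i, v i * v i = w)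
    (e4 : ∑ i, y i ^ 2 = s) (e5 : ∀ i, ∑ j, A i j * v j = c i) :
    ∑ i, ∑ j, (A i j - c i * v j / w + v i * y j / s) ^ 2 =
      ∑ i, ∑ j, A i j ^ 2 - (∑ i, c i ^ 2) / w - w / s := by
  have k : ∀ i, ∑ j, (A i j - c i * v j / w + v i * y j / s) ^ 2 =
      ∑ j, A i j ^ 2 - c i ^ 2 / w - v i * v i / s := fun i => by
    have e : ∀ j, (A i j - c i * v j / w + v i * y j / s) ^ 2 = A i j ^ 2 +
        (c i / w) ^ 2 * (v j * v j) + (v i / s) ^ 2 * y j ^ 2 - 2 * (c i / w) * (A i j * v j) +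
          2 * (v i / s) * (A i j * y j) - 2 * (c i / w) * (v i / s) * (y j * v j) :=
      fun j => by ring
    simp only [e, Finset.sum_add_distrib, Finset.sum_sub_distrib, ← Finset.mul_sum, e1, e2, e3, e4,
      e5]
    field_simp
    ring
  simp only [k, Finset.sum_sub_distrib, ← Finset.sum_div, e3]

theorem alg_eq {A : Fin d → Fin d → ℝ} {v y c : Fin d → ℝ} {w s : ℝ} (hw : w ≠ 0)
    (sy : ∀ i j, A i j = A j i) (tr : ∑ i, A i i = 0) (e2 : ∑ i, y i * v i = 0)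
    (e3 : ∑ i, v i * v i = w) (e5 : ∀ i, ∑ j, A i j * v j = c i)
    (h0 : ∑ i, ∑ j, (A i j - c i * v j / w + v i * y j / s) ^ 2 = 0) (j : Fin d) :
    c j = -(w / s) * y j := by
  have k : ∀ i j, A i j = c i * v j / w - v i * y j / s := fun i j => by
    have k1 := (Finset.sum_eq_zero_iff_of_nonneg fun i _ =>
      Finset.sum_nonneg fun j _ => sq_nonneg _).1 h0 i (Finset.mem_univ i)
    have k2 := (Finset.sum_eq_zero_iff_of_nonneg fun j _ => sq_nonneg _).1 k1 j (Finset.mem_univ j)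
    linarith [pow_eq_zero_iff two_ne_zero |>.1 k2]
  have k1 : ∑ i, c i * v i = 0 := by
    have e : ∀ i, A i i = (c i * v i) / w - (y i * v i) / s := fun i => by rw [k]; ring
    simp only [e, Finset.sum_sub_distrib, ← Finset.sum_div, e2, zero_div, sub_zero] at tr
    exact (div_eq_zero_iff.1 tr).resolve_right hw
  have e : ∀ i, A j i * v i = (c i * v i) * (v j / w) - (v i * v i) * (y j / s) := fun i => by
    rw [sy, k]
    ring
  rw [← e5 j]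
  simp only [e, Finset.sum_sub_distrib, ← Finset.sum_mul, k1, e3]
  ring

theorem alg_facts (hU : Cone U) (hh : Hr U h) (hx : x ∈ Om U) :
    (∀ i, ∑ j, D i (D j h) x * x j = -D i h x) ∧ ∑ i, x i * D i h x = 0 ∧
      ∀ i, D i (dot h h) x = 2 * ∑ j, D i (D j h) x * D j h x := by
  refine ⟨fun i => ?_, ?_, fun i => ?_⟩
  · have k := (hh.hom.der hU.cn hh.sm i).euler hU.cn (D_sm hU.op hh.sm i) hx
    simp only [rad, D_symm hU.op hh.sm hx _ i, mul_comm (x _)] at k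
    rw [k]
    simp
  · simpa [rad] using hh.hom.euler hU.cn hh.sm hx
  · rw [D_dot hU.op hh.sm hh.sm hx, Finset.sum_add_distrib, two_mul]

theorem alg_kd (hU : Cone U) (hh : Hr U h) (hx : x ∈ Om U) (hw : dot h h x ≠ 0) :
    kd h x = ∑ i, ∑ j, (D i (D j h) x - (∑ l, D i (D l h) x * D l h x) * D j h x / dot h h x +
      D i h x * x j / ‖x‖ ^ 2) ^ 2 := by
  obtain ⟨e1, e2, e3⟩ := alg_facts hU hh hx
  rw [alg_sq hw (pow_ne_zero 2 (norm_ne_zero_iff.2 hx.1)) e1 e2 rfl (nsq_eq x).symm fun _ => rfl]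
  have e : dot (dot h h) (dot h h) x = 4 * ∑ i, (∑ l, D i (D l h) x * D l h x) ^ 2 := by
    rw [Finset.mul_sum]
    exact Finset.sum_congr rfl fun i _ => by rw [e3]; ring
  rw [kd, e, mul_div_mul_left _ _ four_ne_zero]
  rfl

theorem kd_nonneg (hU : Cone U) (hh : Hr U h) (hx : x ∈ Om U) : 0 ≤ kd h x := by
  by_cases hw : dot h h x = 0
  · rw [kd, hw, mul_zero, div_zero, zero_div, sub_zero, sub_zero]
    exact hsq_nonneg h x
  · rw [alg_kd hU hh hx hw]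
    exact Finset.sum_nonneg fun i _ => Finset.sum_nonneg fun j _ => sq_nonneg _

theorem alg_zero (hU : Cone U) (hh : Hr U h) (hx : x ∈ Om U) (hw : dot h h x ≠ 0)
    (h0 : kd h x = 0) : (∀ j, D j (dot h h) x = -(2 * dot h h x / ‖x‖ ^ 2) * x j) ∧
      hsq h x = 2 * dot h h x / ‖x‖ ^ 2 := by
  obtain ⟨-, e2, e3⟩ := alg_facts hU hh hx
  have hs : ‖x‖ ^ 2 ≠ 0 := pow_ne_zero 2 (norm_ne_zero_iff.2 hx.1)
  have k : ∀ j, D j (dot h h) x = -(2 * dot h h x / ‖x‖ ^ 2) * x j := fun j => by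
    rw [e3, alg_eq hw (D_symm hU.op hh.sm hx) (hh.har x hx) e2 rfl (fun _ => rfl)
      ((alg_kd hU hh hx hw).symm.trans h0) j]
    ring
  refine ⟨k, ?_⟩
  have e : dot (dot h h) (dot h h) x = (2 * dot h h x / ‖x‖ ^ 2) ^ 2 * ‖x‖ ^ 2 := by
    rw [nsq_eq x, Finset.mul_sum, ← nsq_eq x]
    exact Finset.sum_congr rfl fun i _ => by rw [k]; ring
  rw [kd, e] at h0
  have e' : (2 * dot h h x / ‖x‖ ^ 2) ^ 2 * ‖x‖ ^ 2 / (4 * dot h h x) = dot h h x / ‖x‖ ^ 2 := by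
    field_simp
    ring
  rw [e'] at h0
  rw [mul_div_assoc]
  linarith

theorem alg_lap (x : V d) : lap (fun y : V d => ‖y‖ ^ 2) x = 2 * d := by
  have e : ∀ i, D i (D i fun y : V d => ‖y‖ ^ 2) x = 2 := fun i => by
    rw [show (D i fun y : V d => ‖y‖ ^ 2) = fun y => 2 * y i from funext (D_nsq i), D_cmul,
      D_coord, if_pos rfl, mul_one]
  simp [lap, e, mul_comm]

theorem kd_pos (hd : 3 ≤ d) (hU : Cone U) (hh : Hr U h) (h0 : ∃ x ∈ Om U, dot h h x ≠ 0) :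
    ∃ x ∈ Om U, dot h h x ≠ 0 ∧ 0 < kd h x := by
  by_contra hc
  have z : ∀ y ∈ Om U, dot h h y ≠ 0 → kd h y = 0 := fun y hy hw =>
    le_antisymm (not_lt.1 fun k => hc ⟨y, hy, hw, k⟩) (kd_nonneg hU hh hy)
  obtain ⟨x, hx, hw⟩ := h0
  have ws := dot_sm hU.op hh.sm hh.sm
  have ns : ContDiffOn ℝ ∞ (fun y : V d => ‖y‖ ^ 2) (Om U) := (contDiff_norm_sq ℝ).contDiffOn
  have hO : ∀ᶠ y in 𝓝 x, y ∈ Om U ∧ dot h h y ≠ 0 :=
    (eventually_of_mem (hU.op.mem_nhds hx) fun _ hy => hy).and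
      ((cd_at hU.op ws hx).continuousAt.eventually_ne hw)
  have k1 : lap (fun y => dot h h y * ‖y‖ ^ 2) x = 0 := by
    refine Finset.sum_eq_zero fun i _ => (D_congr (g := fun _ => 0) (hO.mono fun y hy => ?_) i).trans
      (D_const 0 i x)
    have hs : ‖y‖ ≠ 0 := norm_ne_zero_iff.2 hy.1.1
    show D i (fun y => dot h h y * ‖y‖ ^ 2) y = 0
    rw [D_mul (cd_at hU.op ws hy.1) (cd_at hU.op ns hy.1), D_nsq,
      (alg_zero hU hh hy.1 hy.2 (z y hy.1 hy.2)).1]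
    field_simp
    ring
  obtain ⟨k2, k3⟩ := alg_zero hU hh hx hw (z x hx hw)
  have hs : ‖x‖ ≠ 0 := norm_ne_zero_iff.2 hx.1
  have k4 : dot (dot h h) (fun y : V d => ‖y‖ ^ 2) x = -(4 * dot h h x) := by
    have e : -(4 * dot h h x) = -(4 * dot h h x / ‖x‖ ^ 2) * ∑ i, x i ^ 2 := by
      rw [← nsq_eq x]
      field_simp
    rw [e, Finset.mul_sum]
    exact Finset.sum_congr rfl fun i _ => by rw [k2, D_nsq]; ring
  rw [lap_mul hU.op ws ns hx, alg_lap, k4, lap_dot hU.op hh.sm hh.har hx, k3] at k1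
  have k5 : ‖x‖ ^ 2 * (2 * (2 * dot h h x / ‖x‖ ^ 2)) = 4 * dot h h x := by
    field_simp
    ring
  have k6 : (3 : ℝ) ≤ d := by exact_mod_cast hd
  have k7 := lt_of_le_of_ne (dot_nonneg h x) hw.symm
  rw [k5] at k1
  nlinarith

theorem kd_hom (hU : Cone U) (hh : Hr U h) : Hom (Om U) (-4) (kd h) := by
  intro t ht x hx
  have ws := dot_sm hU.op hh.sm hh.sm
  have h1 := hh.hom.dotH hU.cn hh.sm hh.sm hh.hom
  have h2 := h1.dotH hU.cn ws ws h1 t ht x hx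
  have h3 := hh.hom.hsqH hU.cn hh.sm t ht x hx
  have e1 : t ^ ((0 : ℤ) + 0 - 2) = t ^ (-4 : ℤ) * t ^ 2 := by
    rw [← zpow_natCast, ← zpow_add₀ ht.ne']
    norm_num
  have e2 : t ^ ((0 : ℤ) + 0 - 2 + (0 + 0 - 2) - 2) = t ^ (-4 : ℤ) * (t ^ (-4 : ℤ) * t ^ 2) := by
    rw [← e1, ← zpow_add₀ ht.ne']
    norm_num
  have e3 : t ^ (2 * (0 : ℤ) - 4) = t ^ (-4 : ℤ) := by norm_num
  have p : t ^ (-4 : ℤ) * t ^ 2 ≠ 0 := by positivity
  have q : t ^ 2 ≠ 0 := by positivity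
  rw [kd, kd, h2, h3, h1 t ht x hx, e1, e2, e3, norm_smul, mul_pow, Real.norm_of_nonneg ht.le,
    mul_left_comm 4, mul_assoc (t ^ (-4 : ℤ)), mul_div_assoc (t ^ (-4 : ℤ)), mul_div_mul_left _ _ p,
    mul_assoc (t ^ (-4 : ℤ)), mul_div_assoc (t ^ (-4 : ℤ)), mul_div_mul_left _ _ q]
  ring

end Vale.Agent.P098
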