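import Vale.Agent.P098.Green

open MeasureTheory Set Filter Topology Metric
open scoped ContDiff RealInnerProductSpace

noncomputable section

namespace Vale.Agent.P098

variable {d : ℕ} {S : Set (V d)} {U f g h k m F θ φ : V d → ℝ} {x : V d} {a b : ℝ}
  {z χ : ℝ → ℝ}

theorem D_dot (hS : IsOpen S) (hf : ContDiffOn ℝ ∞ f S) (hg : ContDiffOn ℝ ∞ g S) (hx : x ∈ S)
    (i : Fin d) : D i (dot f g) x =
      ∑ j, (D i (D j f) x * D j g x + D i (D j g) x * D j f x) := by
  have h1 := D_sum (x := x) Finset.univ (G := fun j y => D j f y * D j g y)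
    (fun j _ => (cd_at hS (D_sm hS hf j) hx).mul (cd_at hS (D_sm hS hg j) hx)) i
  refine h1.trans (Finset.sum_congr rfl fun j _ => ?_)
  rw [D_mul (cd_at hS (D_sm hS hf j) hx) (cd_at hS (D_sm hS hg j) hx)]
  ring

theorem dot_dot (hS : IsOpen S) (hf : ContDiffOn ℝ ∞ f S) (hg : ContDiffOn ℝ ∞ g S) (hx : x ∈ S)
    (k : V d → ℝ) : dot (dot f g) k x = hes f k g x + hes g k f x := by
  unfold hes
  rw [dot, ← Finset.sum_add_distrib]
  refine Finset.sum_congr rfl fun i _ => ?_
  rw [D_dot hS hf hg hx, Finset.sum_mul, ← Finset.sum_add_distrib]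
  exact Finset.sum_congr rfl fun j _ => by ring

theorem boch_third (hS : IsOpen S) (hf : ContDiffOn ℝ ∞ f S) (h0 : ∀ y ∈ S, lap f y = 0)
    (hx : x ∈ S) (j : Fin d) : ∑ i, D i (D i (D j f)) x = 0 := by
  have h1 : ∀ i, D i (D i (D j f)) x = D j (D i (D i f)) x := fun i => by
    rw [D_congr_on hS (fun y hy => D_symm hS hf hy i j) hx i, D_symm hS (D_sm hS hf i) hx i j]
  have h2 := D_sum (x := x) Finset.univ (G := fun i => D i (D i f))
    (fun i _ => cd_at hS (D_sm hS (D_sm hS hf i) i) hx) j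
  rw [Finset.sum_congr rfl fun i _ => h1 i, ← h2]
  exact (D_congr_on (g := fun _ => 0) hS h0 hx j).trans (D_const 0 j x)

theorem lap_dot (hS : IsOpen S) (hf : ContDiffOn ℝ ∞ f S) (h0 : ∀ y ∈ S, lap f y = 0)
    (hx : x ∈ S) : lap (dot f f) x = 2 * hsq f x := by
  have h1 : ∀ i, D i (D i (dot f f)) x =
      ∑ j, (2 * D i (D j f) x ^ 2 + 2 * D j f x * D i (D i (D j f)) x) := fun i => by
    have h2 : ∀ j, DifferentiableAt ℝ (D i (D j f)) x := fun j =>
      cd_at hS (D_sm hS (D_sm hS hf j) i) hx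
    have h3 : ∀ j, DifferentiableAt ℝ (D j f) x := fun j => cd_at hS (D_sm hS hf j) hx
    rw [D_congr_on hS (fun y hy => D_dot hS hf hf hy i) hx i,
      D_sum Finset.univ (G := fun j y => D i (D j f) y * D j f y + D i (D j f) y * D j f y)
        (fun j _ => ((h2 j).mul (h3 j)).add ((h2 j).mul (h3 j))) i]
    refine Finset.sum_congr rfl fun j _ => ?_
    rw [D_add (f := fun y => D i (D j f) y * D j f y) (g := fun y => D i (D j f) y * D j f y)
      ((h2 j).mul (h3 j)) ((h2 j).mul (h3 j)), D_mul (h2 j) (h3 j)]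
    ring
  have h4 : ∑ i, ∑ j, 2 * D j f x * D i (D i (D j f)) x = 0 := by
    rw [Finset.sum_comm]
    refine Finset.sum_eq_zero fun j _ => ?_
    rw [← Finset.mul_sum, boch_third hS hf h0 hx, mul_zero]
  rw [lap, Finset.sum_congr rfl fun i _ => h1 i]
  simp only [Finset.sum_add_distrib]
  rw [h4, add_zero, hsq]
  simp only [Finset.mul_sum]

theorem dot_w_le (hS : IsOpen S) (hf : ContDiffOn ℝ ∞ f S) (hx : x ∈ S) :
    dot (dot f f) (dot f f) x ≤ 4 * hsq f x * dot f f x := by
  rw [hsq, Finset.mul_sum, Finset.sum_mul, dot]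
  refine Finset.sum_le_sum fun i _ => ?_
  have h1 := Finset.sum_mul_sq_le_sq_mul_sq Finset.univ (fun j => D i (D j f) x) fun j => D j f x
  have h2 : ∑ j, D j f x ^ 2 = dot f f x := Finset.sum_congr rfl fun j _ => sq _
  rw [D_dot hS hf hf hx, Finset.sum_add_distrib]
  rw [h2] at h1
  nlinarith

theorem boch_symm (hS : IsOpen S) (hf : ContDiffOn ℝ ∞ f S) (hx : x ∈ S) (g k : V d → ℝ) :
    hes f g k x = hes f k g x := by
  unfold hes
  rw [Finset.sum_comm]
  refine Finset.sum_congr rfl fun i _ => Finset.sum_congr rfl fun j _ => ?_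
  rw [D_symm hS hf hx j i]
  ring

theorem bochner (hS : IsOpen S) (hh : ContDiffOn ℝ ∞ h S) (h0 : ∀ y ∈ S, lap h y = 0)
    (hc : Cs S F) (hF : ContDiffOn ℝ ∞ F S) :
    ∫ x in S, F x * hsq h x = ∫ x in S, (dot h h x * lap F x - hes F h h x) := by
  have hm := hS.measurableSet
  have hw := dot_sm hS hh hh
  have e1 : ∫ x in S, dot F (dot h h) x = -(2 * ∫ x in S, F x * hsq h x) := by
    rw [green hS hc hF hw, ← integral_const_mul]
    congr 1
    refine setIntegral_congr_fun hm fun y hy => ?_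
    rw [lap_dot hS hh h0 hy]
    ring
  have e2 : ∫ x in S, dot F (dot h h) x = -∫ x in S, dot h h x * lap F x := by
    rw [← green' hS hc hw hF]
    exact setIntegral_congr_fun hm fun y _ => dot_comm _ _ _
  have i1 : IntegrableOn (hes F h h) S :=
    (hc.hesC hS h h).int hS (hes_sm hS hF hh hh).continuousOn
  have i2 : IntegrableOn (dot F (dot h h)) S :=
    (hc.dotC hS _).int hS (dot_sm hS hF hw).continuousOn
  have i3 : IntegrableOn (fun x => dot h h x * lap F x) S :=
    ((hc.lapC hS).mul' _).int hS (hw.mul (lap_sm hS hF)).continuousOn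
  have e3 : (∫ x in S, hes F h h x) + 1 / 2 * ∫ x in S, dot F (dot h h) x = 0 := by
    have h1 := green hS (hc.dotC hS h) (dot_sm hS hF hh) hh
    have h2 : ∫ x in S, dot F h x * lap h x = 0 := by
      refine (setIntegral_congr_fun (g := fun _ => 0) hm fun y hy => ?_).trans (by simp)
      simp only
      rw [h0 y hy, mul_zero]
    rw [h2, neg_zero] at h1
    rw [← integral_const_mul, ← integral_add i1 (i2.const_mul _), ← h1]
    refine setIntegral_congr_fun hm fun y hy => ?_
    rw [dot_dot hS hF hh hy, dot_comm F, dot_dot hS hh hh hy, boch_symm hS hh hy h F]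
    ring
  rw [integral_sub i3 i1]
  linarith

theorem boch_mul (hS : IsOpen S) (hf : ContDiffOn ℝ ∞ f S) (hg : ContDiffOn ℝ ∞ g S) (hx : x ∈ S)
    (k : V d → ℝ) : hes (fun y => f y * g y) k k x =
      f x * hes g k k x + 2 * (dot f k x * dot g k x) + g x * hes f k k x := by
  have h1 : ∀ i j, D i (D j fun y => f y * g y) x = f x * D i (D j g) x + D j g x * D i f x +
      (g x * D i (D j f) x + D j f x * D i g x) := fun i j => by
    have a1 := cd_at hS hf hx
    have a2 := cd_at hS hg hx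
    have a3 := cd_at hS (D_sm hS hf j) hx
    have a4 := cd_at hS (D_sm hS hg j) hx
    rw [D_congr_on hS (fun y hy => D_mul (cd_at hS hf hy) (cd_at hS hg hy) j) hx i,
      D_add (f := fun y => f y * D j g y) (g := fun y => g y * D j f y) (a1.mul a4) (a2.mul a3),
      D_mul a1 a4, D_mul a2 a3]
  have h2 : dot f k x * dot g k x = ∑ i, ∑ j, D i f x * D i k x * (D j g x * D j k x) := by
    rw [dot, dot, Finset.sum_mul_sum]
  have h3 : dot f k x * dot g k x = ∑ i, ∑ j, D i g x * D i k x * (D j f x * D j k x) := by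
    rw [mul_comm, dot, dot, Finset.sum_mul_sum]
  rw [two_mul]
  nth_rewrite 1 [h2]
  rw [h3]
  simp only [hes, Finset.mul_sum, ← Finset.sum_add_distrib, h1]
  exact Finset.sum_congr rfl fun i _ => Finset.sum_congr rfl fun j _ => by ring

theorem boch_DD (hχ : ContDiff ℝ ∞ χ) (hS : IsOpen S) (hf : ContDiffOn ℝ ∞ f S) (hx : x ∈ S)
    (i j : Fin d) : D i (D j fun y => χ (f y)) x =
      deriv χ (f x) * D i (D j f) x + D j f x * (deriv (deriv χ) (f x) * D i f x) := by
  have h1 : Differentiable ℝ χ := hχ.differentiable (by simp)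
  have h2 : Differentiable ℝ (deriv χ) :=
    (contDiff_infty_iff_deriv.1 hχ).2.differentiable (by simp)
  have a1 := cd_at hS hf hx
  rw [D_congr_on hS (fun y hy => D_comp (h1 _) (cd_at hS hf hy) j) hx i,
    D_mul (f := fun y => deriv χ (f y)) ((h2 _).comp x a1) (cd_at hS (D_sm hS hf j) hx),
    D_comp (h2 _) a1]

theorem boch_comp (hχ : ContDiff ℝ ∞ χ) (hS : IsOpen S) (hf : ContDiffOn ℝ ∞ f S) (hx : x ∈ S)
    (k : V d → ℝ) : hes (fun y => χ (f y)) k k x =
      deriv (deriv χ) (f x) * dot f k x ^ 2 + deriv χ (f x) * hes f k k x := by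
  rw [sq, dot, Finset.sum_mul_sum]
  simp only [hes, Finset.mul_sum, ← Finset.sum_add_distrib, boch_DD hχ hS hf hx]
  exact Finset.sum_congr rfl fun i _ => Finset.sum_congr rfl fun j _ => by ring

theorem boch_nsq (k : V d → ℝ) (x : V d) : hes (fun y => ‖y‖ ^ 2) k k x = 2 * dot k k x := by
  have h1 : ∀ i j, D i (D j fun y : V d => ‖y‖ ^ 2) x = if i = j then 2 else 0 := fun i j => by
    rw [show (D j fun y : V d => ‖y‖ ^ 2) = fun y => 2 * y j from funext fun y => D_nsq j y,
      D_cmul, D_coord]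
    split_ifs <;> simp
  simp only [hes, h1, dot, Finset.mul_sum]
  refine Finset.sum_congr rfl fun i _ => ?_
  simp [mul_assoc]

theorem boch_rz (hz : ContDiff ℝ ∞ z) (k : V d → ℝ) (x : V d) (hk : rad k x = 0) :
    hes (rz z) k k x = 2 * deriv z (‖x‖ ^ 2) * dot k k x := by
  have h1 := boch_comp (f := fun y : V d => ‖y‖ ^ 2) hz isOpen_univ
    (contDiff_norm_sq ℝ).contDiffOn (mem_univ x) k
  have h2 : dot (fun y : V d => ‖y‖ ^ 2) k x = 2 * rad k x := by
    simp only [dot, rad, D_nsq, Finset.mul_sum, mul_assoc]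
  rw [h2, hk, boch_nsq] at h1
  refine h1.trans ?_
  ring

theorem expand (hU : Cone U) (hh : Hr U h) (hχ : ContDiff ℝ ∞ χ) (hz : ContDiff ℝ ∞ z)
    (hx : x ∈ Om U) :
    dot h h x * lap (fun y => χ (U y) * rz z y) x - hes (fun y => χ (U y) * rz z y) h h x =
      deriv (deriv χ) (U x) * z (‖x‖ ^ 2) * (dot h h x * dot U U x - dot h U x ^ 2) -
        deriv χ (U x) * z (‖x‖ ^ 2) * hes U h h x +
        4 * deriv χ (U x) * deriv z (‖x‖ ^ 2) * (U x * dot h h x) +
        χ (U x) * (dot h h x * (4 * ‖x‖ ^ 2 * deriv (deriv z) (‖x‖ ^ 2) +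
          (2 * d - 2) * deriv z (‖x‖ ^ 2))) := by
  have hS := hU.op
  have hs := hU.smO
  have hA : ContDiffOn ℝ ∞ (fun y => χ (U y)) (Om U) := hχ.comp_contDiffOn hs
  have hB : ContDiffOn ℝ ∞ (rz z : V d → ℝ) (Om U) := (rz_sm hz).contDiffOn
  have h1 : Differentiable ℝ χ := hχ.differentiable (by simp)
  have h2 : Differentiable ℝ z := hz.differentiable (by simp)
  have hr : rad h x = 0 := by
    rw [Hom.euler hU.cn hh.sm hh.hom hx]
    simp
  rw [lap_mul hS hA hB hx, boch_mul hS hA hB hx, boch_comp hχ hS hs hx, boch_rz hz h x hr,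
    lap_comp isOpen_univ hχ.contDiffOn hS hs hx (mem_univ _), lap_rz hz.contDiffOn hx.1,
    dot_rz (h2 _) h, hr, dot_comp (h1 _) (cd_at hS hs hx) (rz z), dot_comm U (rz z),
    dot_rz (h2 _) U, hU.radU hx, hU.har x hx, dot_comm U h]
  simp only [rz]
  ring

end Vale.Agent.P098
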