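import Vale.Agent.P098.Defs

open MeasureTheory Set Filter Topology Metric
open scoped ContDiff RealInnerProductSpace

noncomputable section

namespace Vale.Agent.P098

variable {d : ℕ} {S : Set (V d)} {U f g h k m F θ φ : V d → ℝ} {x : V d} {a b : ℝ}
  {z χ : ℝ → ℝ}

theorem inner_ee (v : V d) (i : Fin d) : ⟪v, ee i⟫ = v i := by
  rw [ee, EuclideanSpace.inner_single_right]
  simp

theorem cd_at (hS : IsOpen S) (hf : ContDiffOn ℝ ∞ f S) (hx : x ∈ S) : DifferentiableAt ℝ f x :=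
  (hf.contDiffAt (hS.mem_nhds hx)).differentiableAt (by simp)

theorem cd_at' (hS : IsOpen S) (hf : ContDiffOn ℝ ∞ f S) (hx : x ∈ S) :
    DifferentiableAt ℝ (fderiv ℝ f) x :=
  ((hf.fderiv_of_isOpen (m := ∞) hS (by simp)).contDiffAt (hS.mem_nhds hx)).differentiableAt
    (by simp)

theorem D_congr (e : f =ᶠ[𝓝 x] g) (i : Fin d) : D i f x = D i g x := by
  unfold D
  rw [e.fderiv_eq]

theorem D_ev (e : f =ᶠ[𝓝 x] g) (i : Fin d) : D i f =ᶠ[𝓝 x] D i g :=
  e.eventuallyEq_nhds.mono fun _ hy => D_congr hy i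

theorem D_congr_on (hS : IsOpen S) (e : ∀ y ∈ S, f y = g y) (hx : x ∈ S) (i : Fin d) :
    D i f x = D i g x :=
  D_congr (eventually_of_mem (hS.mem_nhds hx) e) i

theorem D_sm (hS : IsOpen S) (hf : ContDiffOn ℝ ∞ f S) (i : Fin d) : ContDiffOn ℝ ∞ (D i f) S :=
  (hf.fderiv_of_isOpen hS (by simp)).clm_apply contDiffOn_const

theorem D_const (c : ℝ) (i : Fin d) (x : V d) : D i (fun _ => c) x = 0 := by simp [D]

theorem D_add (hf : DifferentiableAt ℝ f x) (hg : DifferentiableAt ℝ g x) (i : Fin d) :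
    D i (fun y => f y + g y) x = D i f x + D i g x := by
  unfold D
  rw [fderiv_fun_add hf hg]
  rfl

theorem D_sub (hf : DifferentiableAt ℝ f x) (hg : DifferentiableAt ℝ g x) (i : Fin d) :
    D i (fun y => f y - g y) x = D i f x - D i g x := by
  unfold D
  rw [fderiv_fun_sub hf hg]
  rfl

theorem D_mul (hf : DifferentiableAt ℝ f x) (hg : DifferentiableAt ℝ g x) (i : Fin d) :
    D i (fun y => f y * g y) x = f x * D i g x + g x * D i f x := by
  unfold D
  rw [fderiv_fun_mul hf hg]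
  simp

theorem D_cmul (c : ℝ) (f : V d → ℝ) (i : Fin d) (x : V d) :
    D i (fun y => c * f y) x = c * D i f x := by
  unfold D
  have := fderiv_const_smul_field (𝕜 := ℝ) (f := f) c
  have e : (fun y => c * f y) = c • f := rfl
  rw [e, this]
  rfl

theorem D_div (hf : DifferentiableAt ℝ f x) (hg : DifferentiableAt ℝ g x) (h0 : g x ≠ 0)
    (i : Fin d) : D i (fun y => f y / g y) x = (g x * D i f x - f x * D i g x) / g x ^ 2 := by
  have h1 : HasFDerivAt (fun y => (g y)⁻¹) ((-(g x ^ 2)⁻¹) • fderiv ℝ g x) x :=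
    (hasDerivAt_inv h0).comp_hasFDerivAt x hg.hasFDerivAt
  simp only [div_eq_mul_inv]
  rw [D_mul hf h1.differentiableAt]
  unfold D
  rw [h1.fderiv]
  simp only [smul_apply, smul_eq_mul]
  field_simp
  ring

theorem D_sum {ι : Type} (s : Finset ι) {G : ι → V d → ℝ}
    (hG : ∀ j ∈ s, DifferentiableAt ℝ (G j) x) (i : Fin d) :
    D i (fun y => ∑ j ∈ s, G j y) x = ∑ j ∈ s, D i (G j) x := by
  unfold D
  rw [fderiv_fun_sum hG]
  simp

theorem D_comp (hχ : DifferentiableAt ℝ χ (f x)) (hf : DifferentiableAt ℝ f x) (i : Fin d) :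
    D i (fun y => χ (f y)) x = deriv χ (f x) * D i f x := by
  unfold D
  have := (hχ.hasDerivAt.comp_hasFDerivAt x hf.hasFDerivAt).fderiv
  rw [show (fun y => χ (f y)) = χ ∘ f from rfl, this]
  rfl

theorem D_coord (i j : Fin d) (x : V d) : D i (fun y => y j) x = if i = j then 1 else 0 := by
  unfold D
  have : fderiv ℝ (fun y : V d => y j) x = EuclideanSpace.proj j :=
    (EuclideanSpace.proj j : V d →L[ℝ] ℝ).fderiv
  rw [this]
  simp [ee, eq_comm]

theorem D_inner (e : V d) (i : Fin d) (x : V d) : D i (fun y => ⟪y, e⟫) x = e i := by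
  unfold D
  have e1 : (fun y : V d => ⟪y, e⟫) = innerSL ℝ e := by
    funext y
    simp [real_inner_comm]
  rw [e1, (innerSL ℝ e).fderiv]
  simp [inner_ee]

theorem D_nsq (i : Fin d) (x : V d) : D i (fun y => ‖y‖ ^ 2) x = 2 * x i := by
  unfold D
  rw [(hasStrictFDerivAt_norm_sq x).hasFDerivAt.fderiv]
  simp [inner_ee]

theorem D_rz (hz : DifferentiableAt ℝ z (‖x‖ ^ 2)) (i : Fin d) :
    D i (rz z) x = 2 * x i * deriv z (‖x‖ ^ 2) := by
  have h1 : DifferentiableAt ℝ (fun y : V d => ‖y‖ ^ 2) x :=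
    (hasStrictFDerivAt_norm_sq x).hasFDerivAt.differentiableAt
  have := D_comp (f := fun y : V d => ‖y‖ ^ 2) hz h1 i
  rw [D_nsq] at this
  rw [mul_comm, ← this]
  rfl

theorem D_symm (hS : IsOpen S) (hf : ContDiffOn ℝ ∞ f S) (hx : x ∈ S) (i j : Fin d) :
    D i (D j f) x = D j (D i f) x := by
  have h1 : ContDiffAt ℝ ∞ f x := hf.contDiffAt (hS.mem_nhds hx)
  have h2 : DifferentiableAt ℝ (fderiv ℝ f) x :=
    cd_at' hS hf hx
  have h3 := (h1.isSymmSndFDerivAt (by
    simpa using WithTop.coe_le_coe.2 (le_top : (2 : ℕ∞) ≤ ⊤))).eq (ee i) (ee j)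
  have h4 : ∀ p q : Fin d, D p (D q f) x = fderiv ℝ (fderiv ℝ f) x (ee p) (ee q) := fun p q => by
    unfold D
    rw [fderiv_clm_apply h2 (differentiableAt_const _)]
    simp
  rw [h4, h4, h3]

theorem nsq_eq (x : V d) : ‖x‖ ^ 2 = ∑ i, x i ^ 2 := by
  rw [EuclideanSpace.real_norm_sq_eq]

theorem fderiv_eq_sum (f : V d → ℝ) (x v : V d) : fderiv ℝ f x v = ∑ i, v i * D i f x := by
  have e : v = ∑ i, v i • ee i := by
    ext j
    simp [ee, Pi.single_apply]
  conv_lhs => rw [e]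
  simp [D]

theorem grad_apply (f : V d → ℝ) (x : V d) (i : Fin d) : gradient f x i = D i f x := by
  have : ⟪gradient f x, ee i⟫ = fderiv ℝ f x (ee i) := by
    unfold gradient
    exact InnerProductSpace.toDual_symm_apply
  rw [D, ← this, inner_ee]

theorem dot_eq_inner (f g : V d → ℝ) (x : V d) : dot f g x = ⟪gradient f x, gradient g x⟫ := by
  simp only [dot, PiLp.inner_apply, grad_apply]
  refine Finset.sum_congr rfl fun i _ => ?_
  simp [mul_comm]

theorem dot_self (f : V d → ℝ) (x : V d) : dot f f x = ‖gradient f x‖ ^ 2 := by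
  rw [dot_eq_inner, real_inner_self_eq_norm_sq]

theorem dot_comm (f g : V d → ℝ) (x : V d) : dot f g x = dot g f x :=
  Finset.sum_congr rfl fun _ _ => mul_comm _ _

theorem dot_nonneg (f : V d → ℝ) (x : V d) : 0 ≤ dot f f x :=
  Finset.sum_nonneg fun _ _ => mul_self_nonneg _

theorem dot_sq_le (f g : V d → ℝ) (x : V d) : dot f g x ^ 2 ≤ dot f f x * dot g g x := by
  simpa only [dot, sq] using
    Finset.sum_mul_sq_le_sq_mul_sq Finset.univ (fun i => D i f x) fun i => D i g x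

theorem abs_dot_le (f g : V d → ℝ) (x : V d) : 2 * |dot f g x| ≤ dot f f x + dot g g x := by
  have h1 := dot_sq_le f g x
  have h2 := dot_nonneg f x
  have h3 := dot_nonneg g x
  refine abs_le_of_sq_le_sq' ?_ (by positivity) |>.2
  rw [mul_pow, sq_abs]
  nlinarith [sq_nonneg (dot f f x - dot g g x)]

theorem D_sq_le (f : V d → ℝ) (x : V d) (i : Fin d) : D i f x ^ 2 ≤ dot f f x := by
  rw [sq]
  exact Finset.single_le_sum (f := fun j => D j f x * D j f x) (fun _ _ => mul_self_nonneg _)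
    (Finset.mem_univ i)

theorem hsq_nonneg (f : V d → ℝ) (x : V d) : 0 ≤ hsq f x :=
  Finset.sum_nonneg fun _ _ => Finset.sum_nonneg fun _ _ => sq_nonneg _

theorem hes_sq_le (f g k : V d → ℝ) (x : V d) :
    hes f g k x ^ 2 ≤ hsq f x * dot g g x * dot k k x := by
  have h := Finset.sum_mul_sq_le_sq_mul_sq (Finset.univ : Finset (Fin d × Fin d))
    (fun p => D p.1 (D p.2 f) x) fun p => D p.1 g x * D p.2 k x
  simp only [Fintype.sum_prod_type] at h
  have e : ∑ i, ∑ j, (D i g x * D j k x) ^ 2 = dot g g x * dot k k x := by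
    unfold dot
    rw [Finset.sum_mul_sum]
    refine Finset.sum_congr rfl fun i _ => Finset.sum_congr rfl fun j _ => by ring
  rw [e] at h
  simpa only [hes, hsq, mul_assoc] using h

theorem rz_sm (hz : ContDiff ℝ ∞ z) : ContDiff ℝ ∞ (rz z : V d → ℝ) :=
  hz.comp (contDiff_norm_sq ℝ)

theorem rz_smOn (hz : ContDiffOn ℝ ∞ z (Ioi 0)) : ContDiffOn ℝ ∞ (rz z : V d → ℝ) {0}ᶜ :=
  hz.comp (contDiff_norm_sq ℝ).contDiffOn fun _ hy =>
    mem_Ioi.2 (pow_pos (norm_pos_iff.2 hy) 2)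

end Vale.Agent.P098
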