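import Vale.Agent.P098.Calc

/-! Second order rules. -/

open MeasureTheory Set Filter Topology Metric
open scoped ContDiff RealInnerProductSpace

noncomputable section

namespace Vale.Agent.P098

variable {d : ℕ} {S : Set (V d)} {U f g h k m F θ φ : V d → ℝ} {x : V d} {a b : ℝ}
  {z χ : ℝ → ℝ}

theorem dot_sm (hS : IsOpen S) (hf : ContDiffOn ℝ ∞ f S) (hg : ContDiffOn ℝ ∞ g S) :
    ContDiffOn ℝ ∞ (dot f g) S := by
  exact ContDiffOn.sum fun i _ => (D_sm hS hf i).mul (D_sm hS hg i)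

theorem lap_sm (hS : IsOpen S) (hf : ContDiffOn ℝ ∞ f S) : ContDiffOn ℝ ∞ (lap f) S := by
  exact ContDiffOn.sum fun i _ => D_sm hS (D_sm hS hf i) i

theorem hsq_sm (hS : IsOpen S) (hf : ContDiffOn ℝ ∞ f S) : ContDiffOn ℝ ∞ (hsq f) S := by
  exact ContDiffOn.sum fun i _ => ContDiffOn.sum fun j _ => (D_sm hS (D_sm hS hf j) i).pow 2

theorem hes_sm (hS : IsOpen S) (hf : ContDiffOn ℝ ∞ f S) (hg : ContDiffOn ℝ ∞ g S)
    (hk : ContDiffOn ℝ ∞ k S) : ContDiffOn ℝ ∞ (hes f g k) S := by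
  exact ContDiffOn.sum fun i _ => ContDiffOn.sum fun j _ =>
    ((D_sm hS (D_sm hS hf j) i).mul (D_sm hS hg i)).mul (D_sm hS hk j)

theorem dot_congr (e : f =ᶠ[𝓝 x] g) (k : V d → ℝ) : dot f k x = dot g k x := by
  simp only [dot, D_congr e]

theorem lap_congr (e : f =ᶠ[𝓝 x] g) : lap f x = lap g x := by
  exact Finset.sum_congr rfl fun i _ => D_congr (D_ev e i) i

theorem lap_const (c : ℝ) (x : V d) : lap (fun _ => c) x = 0 := by
  simp only [lap, funext (D_const c _), D_const, Finset.sum_const_zero]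

theorem lap_inner (e x : V d) : lap (fun y => ⟪y, e⟫) x = 0 := by
  simp only [lap, funext (D_inner e _), D_const, Finset.sum_const_zero]

theorem dot_add (hf : DifferentiableAt ℝ f x) (hg : DifferentiableAt ℝ g x) (k : V d → ℝ) :
    dot (fun y => f y + g y) k x = dot f k x + dot g k x := by
  simp only [dot, D_add hf hg, add_mul, Finset.sum_add_distrib]

theorem dot_sub (hf : DifferentiableAt ℝ f x) (hg : DifferentiableAt ℝ g x) (k : V d → ℝ) :
    dot (fun y => f y - g y) k x = dot f k x - dot g k x := by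
  simp only [dot, D_sub hf hg, sub_mul, Finset.sum_sub_distrib]

theorem dot_cmul (c : ℝ) (f k : V d → ℝ) (x : V d) :
    dot (fun y => c * f y) k x = c * dot f k x := by
  simp only [dot, D_cmul, mul_assoc, Finset.mul_sum]

theorem dot_mul (hf : DifferentiableAt ℝ f x) (hg : DifferentiableAt ℝ g x) (k : V d → ℝ) :
    dot (fun y => f y * g y) k x = f x * dot g k x + g x * dot f k x := by
  simp only [dot, D_mul hf hg, add_mul, Finset.sum_add_distrib, mul_assoc, Finset.mul_sum]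

theorem dot_comp (hχ : DifferentiableAt ℝ χ (f x)) (hf : DifferentiableAt ℝ f x) (k : V d → ℝ) :
    dot (fun y => χ (f y)) k x = deriv χ (f x) * dot f k x := by
  simp only [dot, D_comp hχ hf, mul_assoc, Finset.mul_sum]

theorem dot_rz (hz : DifferentiableAt ℝ z (‖x‖ ^ 2)) (k : V d → ℝ) :
    dot (rz z) k x = 2 * deriv z (‖x‖ ^ 2) * rad k x := by
  simp only [dot, rad, D_rz hz, Finset.mul_sum]
  exact Finset.sum_congr rfl fun i _ => by ring

theorem rad_rz (hz : DifferentiableAt ℝ z (‖x‖ ^ 2)) :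
    rad (rz z) x = 2 * ‖x‖ ^ 2 * deriv z (‖x‖ ^ 2) := by
  simp only [rad, D_rz hz]
  rw [mul_right_comm, nsq_eq x, Finset.mul_sum]
  exact Finset.sum_congr rfl fun i _ => by ring

theorem lap_add (hS : IsOpen S) (hf : ContDiffOn ℝ ∞ f S) (hg : ContDiffOn ℝ ∞ g S) (hx : x ∈ S) :
    lap (fun y => f y + g y) x = lap f x + lap g x := by
  rw [lap, lap, lap, ← Finset.sum_add_distrib]
  refine Finset.sum_congr rfl fun i _ => ?_
  rw [D_congr_on hS (fun y hy => D_add (cd_at hS hf hy) (cd_at hS hg hy) i) hx,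
    D_add (cd_at hS (D_sm hS hf i) hx) (cd_at hS (D_sm hS hg i) hx)]

theorem lap_sub (hS : IsOpen S) (hf : ContDiffOn ℝ ∞ f S) (hg : ContDiffOn ℝ ∞ g S) (hx : x ∈ S) :
    lap (fun y => f y - g y) x = lap f x - lap g x := by
  rw [lap, lap, lap, ← Finset.sum_sub_distrib]
  refine Finset.sum_congr rfl fun i _ => ?_
  rw [D_congr_on hS (fun y hy => D_sub (cd_at hS hf hy) (cd_at hS hg hy) i) hx,
    D_sub (cd_at hS (D_sm hS hf i) hx) (cd_at hS (D_sm hS hg i) hx)]

theorem lap_cmul (c : ℝ) (f : V d → ℝ) (x : V d) : lap (fun y => c * f y) x = c * lap f x := by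
  simp only [lap, funext (D_cmul c f _), D_cmul, Finset.mul_sum]

theorem lap_mul (hS : IsOpen S) (hf : ContDiffOn ℝ ∞ f S) (hg : ContDiffOn ℝ ∞ g S) (hx : x ∈ S) :
    lap (fun y => f y * g y) x = f x * lap g x + 2 * dot f g x + g x * lap f x := by
  simp only [lap, dot, Finset.mul_sum, ← Finset.sum_add_distrib]
  refine Finset.sum_congr rfl fun i _ => ?_
  have h1 := cd_at hS hf hx
  have h2 := cd_at hS hg hx
  have h3 := cd_at hS (D_sm hS hf i) hx
  have h4 := cd_at hS (D_sm hS hg i) hx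
  rw [D_congr_on hS (fun y hy => D_mul (cd_at hS hf hy) (cd_at hS hg hy) i) hx,
    D_add (h1.fun_mul h4) (h2.fun_mul h3), D_mul h1 h4, D_mul h2 h3]
  ring

theorem lap_comp {T : Set ℝ} (hT : IsOpen T) (hχ : ContDiffOn ℝ ∞ χ T) (hS : IsOpen S)
    (hf : ContDiffOn ℝ ∞ f S) (hx : x ∈ S) (hfx : f x ∈ T) : lap (fun y => χ (f y)) x =
      deriv (deriv χ) (f x) * dot f f x + deriv χ (f x) * lap f x := by
  simp only [lap, dot, Finset.mul_sum, ← Finset.sum_add_distrib]
  refine Finset.sum_congr rfl fun i _ => ?_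
  have h1 := cd_at hS hf hx
  have h2 : DifferentiableAt ℝ (deriv χ) (f x) :=
    ((hχ.deriv_of_isOpen (m := ∞) hT (by simp)).contDiffAt (hT.mem_nhds hfx)).differentiableAt
      (by simp)
  have e : D i (fun y => χ (f y)) =ᶠ[𝓝 x] fun y => deriv χ (f y) * D i f y := by
    filter_upwards [hS.mem_nhds hx, h1.continuousAt.preimage_mem_nhds (hT.mem_nhds hfx)] with y hy h
    exact D_comp ((hχ.contDiffAt (hT.mem_nhds h)).differentiableAt (by simp)) (cd_at hS hf hy) i
  rw [D_congr e, D_mul (f := fun y => deriv χ (f y)) (h2.comp x h1) (cd_at hS (D_sm hS hf i) hx),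
    D_comp h2 h1]
  ring

theorem lap_rz (hz : ContDiffOn ℝ ∞ z (Ioi 0)) (hx : x ≠ 0) : lap (rz z) x =
    4 * ‖x‖ ^ 2 * deriv (deriv z) (‖x‖ ^ 2) + 2 * d * deriv z (‖x‖ ^ 2) := by
  have h1 := lap_comp (f := fun y : V d => ‖y‖ ^ 2) isOpen_Ioi hz isOpen_univ
    (contDiff_norm_sq ℝ).contDiffOn (mem_univ x) (pow_pos (norm_pos_iff.2 hx) 2)
  have h2 : lap (fun y : V d => ‖y‖ ^ 2) x = 2 * d := by
    simp [lap, funext (D_nsq _), D_cmul, D_coord, mul_comm]
  have h3 : dot (fun y : V d => ‖y‖ ^ 2) (fun y : V d => ‖y‖ ^ 2) x = 4 * ‖x‖ ^ 2 := by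
    simp only [dot, D_nsq]
    rw [nsq_eq x, Finset.mul_sum]
    exact Finset.sum_congr rfl fun i _ => by ring
  rw [h2, h3] at h1
  exact h1.trans (by ring)

end Vale.Agent.P098
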