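import Vale.Agent.P098.Defs

/-! Cut-offs in one variable. -/

open MeasureTheory Set Filter Topology Metric
open scoped ContDiff RealInnerProductSpace

noncomputable section

namespace Vale.Agent.P098

variable {d : ℕ} {S : Set (V d)} {U f g h k m F θ φ : V d → ℝ} {x : V d} {a b : ℝ}
  {z χ : ℝ → ℝ}

theorem bt_sm : ContDiff ℝ ∞ bt := by
  exact Real.smoothTransition.contDiff.comp (contDiff_id.sub contDiff_const)

theorem bt_zero {s : ℝ} (hs : s ≤ 1) : bt s = 0 := by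
  exact Real.smoothTransition.zero_of_nonpos (by linarith)

theorem bt_one {s : ℝ} (hs : 2 ≤ s) : bt s = 1 := by
  exact Real.smoothTransition.one_of_one_le (by linarith)

theorem bt_nn (s : ℝ) : 0 ≤ bt s := by
  exact Real.smoothTransition.nonneg _

theorem bt_le (s : ℝ) : bt s ≤ 1 := by
  exact Real.smoothTransition.le_one _

theorem bt_d_nn (s : ℝ) : 0 ≤ deriv bt s := by
  exact Monotone.deriv_nonneg fun s t h => Real.smoothTransition.monotone (by linarith)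

theorem chi_loc {f : ℝ → ℝ} {s c : ℝ} (h : f =ᶠ[𝓝 s] fun _ => c) : deriv f =ᶠ[𝓝 s] fun _ => 0 :=
  h.deriv.mono fun t ht => by rw [ht, deriv_const]

theorem chi_bd {f : ℝ → ℝ} {p q : ℝ} (hf : Continuous f) (h : ∀ s, f s ≠ 0 → p ≤ s ∧ s ≤ q) :
    ∃ C : ℝ, 0 < C ∧ ∀ s, |f s| ≤ C := by
  obtain ⟨C, hC⟩ := hf.bounded_above_of_compact_support
    (HasCompactSupport.intro (isCompact_Icc (a := p) (b := q)) fun s hs =>
      by_contra fun h' => hs (h s h'))
  exact ⟨C + 1, by linarith [norm_nonneg (f 0), hC 0], fun s => (hC s).trans (by linarith)⟩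

theorem chi_sm : ContDiff ℝ ∞ (deriv bt) := (contDiff_infty_iff_deriv.1 bt_sm).2

theorem bt_dz {s : ℝ} (hs : s < 1 ∨ 2 < s) : deriv bt s = 0 ∧ deriv (deriv bt) s = 0 := by
  have h : ∃ c, bt =ᶠ[𝓝 s] fun _ => c := by
    rcases hs with hs | hs
    · exact ⟨0, (eventually_lt_nhds hs).mono fun t ht => bt_zero ht.le⟩
    · exact ⟨1, (eventually_gt_nhds hs).mono fun t ht => bt_one ht.le⟩
  obtain ⟨c, h⟩ := h
  exact ⟨(chi_loc h).eq_of_nhds, (chi_loc (chi_loc h)).eq_of_nhds⟩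

theorem bt_bd : ∃ C : ℝ, 0 < C ∧ ∀ s, |deriv bt s| ≤ C ∧ |deriv (deriv bt) s| ≤ C := by
  obtain ⟨C, h0, h1⟩ := chi_bd (p := 1) (q := 2) chi_sm.continuous fun s hs =>
    ⟨not_lt.1 fun h => hs (bt_dz (Or.inl h)).1, not_lt.1 fun h => hs (bt_dz (Or.inr h)).1⟩
  obtain ⟨C', h2, h3⟩ := chi_bd (p := 1) (q := 2)
    (contDiff_infty_iff_deriv.1 chi_sm).2.continuous fun s hs =>
    ⟨not_lt.1 fun h => hs (bt_dz (Or.inl h)).2, not_lt.1 fun h => hs (bt_dz (Or.inr h)).2⟩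
  exact ⟨C + C', by linarith, fun s => ⟨by linarith [h1 s], by linarith [h3 s]⟩⟩

theorem chi_ka : ∃ (κ : ℝ → ℝ) (c : ℝ), 0 ≤ c ∧ c ≤ 1 ∧
    (∀ s, HasDerivAt κ (c * (1 - bt s)) s) ∧ (∀ s, 0 ≤ s → 0 ≤ κ s ∧ κ s ≤ s) ∧ (∀ s, κ s ≤ 1) ∧
    ∀ s, 2 ≤ s → κ s = 1 := by
  have hc : Continuous fun t => 1 - bt t := continuous_const.sub bt_sm.continuous
  obtain ⟨I, hI⟩ : ∃ I : ℝ → ℝ, I = fun s => ∫ t in (0 : ℝ)..s, (1 - bt t) := ⟨_, rfl⟩
  have hd : ∀ s, HasDerivAt I (1 - bt s) s := fun s =>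
    hI ▸ (hc.integral_hasStrictDerivAt 0 s).hasDerivAt
  have hm : Monotone I := monotone_of_hasDerivAt_nonneg hd fun s => sub_nonneg.2 (bt_le s)
  have h0 : I 0 = 0 := by simp [hI]
  have h1 : I 1 = 1 := by
    simp only [hI]
    rw [intervalIntegral.integral_congr (g := fun _ => 1) fun t ht => by
      rw [uIcc_of_le zero_le_one] at ht
      simp only [bt_zero ht.2, sub_zero]]
    simp
  have h2 : ∀ s, 2 ≤ s → I s = I 2 := fun s hs => by
    simp only [hI]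
    rw [← intervalIntegral.integral_add_adjacent_intervals (hc.intervalIntegrable 0 2)
      (hc.intervalIntegrable 2 s), intervalIntegral.integral_congr (a := 2) (g := fun _ => 0)
        fun t ht => by
          rw [uIcc_of_le hs] at ht
          simp only [bt_one ht.1, sub_self]]
    simp
  have h3 : ∀ s, 0 ≤ s → I s ≤ s := fun s hs => by
    have := intervalIntegral.integral_mono_on hs (hc.intervalIntegrable (μ := volume) 0 s)
      (continuous_const.intervalIntegrable 0 s) (g := fun _ => (1 : ℝ))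
      fun t _ => sub_le_self _ (bt_nn t)
    simpa [hI] using this
  have h4 : 1 ≤ I 2 := h1.ge.trans (hm one_le_two)
  have h5 : (I 2)⁻¹ ≤ 1 := inv_le_one_of_one_le₀ h4
  have h6 : 0 ≤ (I 2)⁻¹ := by positivity
  have h7 : (I 2)⁻¹ * I 2 = 1 := inv_mul_cancel₀ (by linarith)
  refine ⟨fun s => (I 2)⁻¹ * I s, (I 2)⁻¹, h6, h5, fun s => (hd s).const_mul _, fun s hs => ?_,
    fun s => ?_, fun s hs => by simp only [h2 s hs, h7]⟩
  · have h8 : 0 ≤ I s := h0.ge.trans (hm hs)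
    exact ⟨mul_nonneg h6 h8, (mul_le_of_le_one_left h8 h5).trans (h3 s hs)⟩
  · exact (mul_le_mul_of_nonneg_left ((hm (le_max_left s 2)).trans_eq (h2 _ (le_max_right _ _)))
      h6).trans_eq h7

theorem chi_sc {f : ℝ → ℝ} {f' r s : ℝ} (h : HasDerivAt f f' (s / r)) :
    HasDerivAt (fun t => f (t / r)) (f' * (1 / r)) s :=
  h.comp s ((hasDerivAt_id s).div_const r)

theorem exists_chi : ∃ C : ℝ, 0 < C ∧ ∀ ε δ : ℝ, 0 < δ → δ ≤ ε → ∃ χ, Chi χ ε δ C := by
  obtain ⟨C, hC, hb⟩ := bt_bd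
  obtain ⟨κ, c, c0, c1, kd, k0, k1, k2⟩ := chi_ka
  have ks : ContDiff ℝ ∞ κ := contDiff_infty_iff_deriv.2 ⟨fun s => (kd s).differentiableAt, by
    rw [funext fun s => (kd s).deriv]
    exact contDiff_const.mul (contDiff_const.sub bt_sm)⟩
  have b1 : ∀ s, HasDerivAt bt (deriv bt s) s := fun s =>
    (bt_sm.differentiable (by simp) s).hasDerivAt
  have b2 : ∀ s, HasDerivAt (deriv bt) (deriv (deriv bt) s) s := fun s =>
    (chi_sm.differentiable (by simp) s).hasDerivAt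
  refine ⟨1 + 8 * C, by positivity, fun ε δ hδ hε => ?_⟩
  have he : 0 < ε := hδ.trans_le hε
  obtain ⟨χ, hχ⟩ : ∃ χ : ℝ → ℝ, χ = fun s => κ (s / ε) * bt (s / δ) := ⟨_, rfl⟩
  have D1 : deriv χ = fun s => c * (1 - bt (s / ε)) * (1 / ε) * bt (s / δ) +
      κ (s / ε) * (deriv bt (s / δ) * (1 / δ)) :=
    funext fun s => hχ ▸ ((chi_sc (kd _)).fun_mul (chi_sc (b1 _))).deriv
  have D2 : ∀ s, deriv (deriv χ) s = -(c * deriv bt (s / ε) * bt (s / δ) / ε ^ 2) +
      2 * (c * (1 - bt (s / ε))) * deriv bt (s / δ) / (ε * δ) +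
      κ (s / ε) * deriv (deriv bt) (s / δ) / δ ^ 2 := fun s => by
    rw [D1, ((((((chi_sc (b1 _)).const_sub 1).const_mul c).mul_const (1 / ε)).fun_mul
      (chi_sc (b1 _))).fun_add ((chi_sc (kd _)).fun_mul
        ((chi_sc (b2 _)).mul_const (1 / δ)))).deriv]
    ring
  have q0 : ∀ s, 0 ≤ c * (1 - bt s) := fun s => mul_nonneg c0 (sub_nonneg.2 (bt_le s))
  have q1 : ∀ s, c * (1 - bt s) ≤ 1 := fun s =>
    mul_le_one₀ c1 (sub_nonneg.2 (bt_le s)) (sub_le_self _ (bt_nn s))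
  have q2 : ∀ s, -(c * deriv bt (s / ε) * bt (s / δ) / ε ^ 2) ≤ 0 := fun s =>
    neg_nonpos.2 (div_nonneg (mul_nonneg (mul_nonneg c0 (bt_d_nn _)) (bt_nn _)) (sq_nonneg _))
  have z1 : ∀ s, 2 * δ < s → 2 < s / δ := fun s hs => (lt_div_iff₀ hδ).2 hs
  have z2 : ∀ s, 2 * ε < s → 2 < s / ε := fun s hs => (lt_div_iff₀ he).2 hs
  have z3 : ∀ s, s ≤ δ → bt (s / δ) = 0 := fun s hs => bt_zero ((div_le_one hδ).2 hs)
  have z4 : ∀ s, 0 ≤ s → s ≤ 2 * δ → 0 ≤ κ (s / ε) ∧ κ (s / ε) ≤ 2 * δ / ε := fun s h h' =>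
    ⟨(k0 _ (by positivity)).1, (k0 _ (by positivity)).2.trans (by gcongr)⟩
  have z5 : 0 ≤ C / ε := by positivity
  have z6 : 0 ≤ 1 / ε := by positivity
  have d2z : ∀ s, 2 * δ < s → deriv (deriv χ) s ≤ 0 := fun s hs => by
    rw [D2, (bt_dz (Or.inr (z1 s hs))).1, (bt_dz (Or.inr (z1 s hs))).2]
    simpa using q2 s
  refine ⟨χ, hχ ▸ (ks.comp (contDiff_id.div_const ε)).mul (bt_sm.comp (contDiff_id.div_const δ)),
    fun s hs => by simp only [hχ, z3 s hs, mul_zero], fun s hs => ?_, fun s => ?_, fun s => ?_,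
    fun s => ?_, fun s hs => ?_, fun s hs => ?_, d2z, fun s hs => ?_⟩
  · simp only [hχ]
    rw [k2 _ ((le_div_iff₀ he).2 hs), bt_one ((le_div_iff₀ hδ).2 (by linarith)), mul_one]
  · simp only [hχ]
    rcases le_total s δ with h | h
    · rw [z3 s h, mul_zero]
    · exact mul_nonneg (k0 _ (div_nonneg (by linarith) he.le)).1 (bt_nn _)
  · simp only [hχ]
    exact (mul_le_mul_of_nonneg_right (k1 _) (bt_nn _)).trans (by simpa using bt_le _)
  · have a1 : 0 ≤ c * (1 - bt (s / ε)) * (1 / ε) * bt (s / δ) :=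
      mul_nonneg (mul_nonneg (q0 _) z6) (bt_nn _)
    have a2 : c * (1 - bt (s / ε)) * (1 / ε) * bt (s / δ) ≤ 1 / ε :=
      (mul_le_of_le_one_right (mul_nonneg (q0 _) z6) (bt_le _)).trans
        (mul_le_of_le_one_left z6 (q1 _))
    have a3 : 0 ≤ κ (s / ε) * (deriv bt (s / δ) * (1 / δ)) ∧
        κ (s / ε) * (deriv bt (s / δ) * (1 / δ)) ≤ 2 * (C / ε) := by
      by_cases h : s / δ < 1 ∨ 2 < s / δ
      · rw [(bt_dz h).1, zero_mul, mul_zero]
        exact ⟨le_rfl, by positivity⟩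
      · push Not at h
        have := z4 s (by linarith [(one_le_div hδ).1 h.1]) ((div_le_iff₀ hδ).1 h.2)
        have h' : 0 ≤ deriv bt (s / δ) * (1 / δ) := mul_nonneg (bt_d_nn _) (by positivity)
        refine ⟨mul_nonneg this.1 h', (mul_le_mul this.2 (mul_le_mul_of_nonneg_right
          (le_of_abs_le (hb _).1) (by positivity)) h' (by positivity)).trans_eq ?_⟩
        field_simp
    rw [D1, abs_of_nonneg (add_nonneg a1 a3.1), add_div, mul_div_assoc]
    linarith [a3.2]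
  · simp only [D1, (bt_dz (Or.inr (z1 s (by linarith)))).1, bt_one (z2 s hs).le]
    simp
  · rw [add_div, mul_div_assoc]
    rcases lt_or_ge (2 * δ) s with h | h
    · linarith [mul_nonpos_of_nonneg_of_nonpos hs.le (d2z s h)]
    · have a0 := z4 s hs.le h
      have a1 := mul_nonpos_of_nonneg_of_nonpos hs.le (q2 s)
      have a2 : s * (2 * (c * (1 - bt (s / ε))) * deriv bt (s / δ) / (ε * δ)) ≤
          (2 * δ) * (2 * 1 * C / (ε * δ)) := by
        have := q0 (s / ε)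
        have := bt_d_nn (s / δ)
        gcongr
        exacts [q1 _, le_of_abs_le (hb _).1]
      have a3 : s * (κ (s / ε) * deriv (deriv bt) (s / δ) / δ ^ 2) ≤
          (2 * δ) * (2 * δ / ε * C / δ ^ 2) := by
        have := a0.1
        refine (mul_le_mul_of_nonneg_left (div_le_div_of_nonneg_right
          (mul_le_mul_of_nonneg_left (le_of_abs_le (hb _).2) a0.1) (sq_nonneg _)) hs.le).trans ?_
        gcongr
        exact a0.2
      have a4 : (2 * δ) * (2 * 1 * C / (ε * δ)) = 4 * (C / ε) := by field_simp; ring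
      have a5 : (2 * δ) * (2 * δ / ε * C / δ ^ 2) = 4 * (C / ε) := by field_simp; ring
      rw [D2, mul_add, mul_add]
      linarith
  · have h := bt_dz (Or.inr (z1 s (by linarith)))
    rw [D2, h.1, h.2, (bt_dz (Or.inr (z2 s hs))).1]
    simp

theorem exists_rc (ha : 0 < a) (hab : a ≤ b) : ∃ z, Rc z (a / 2) (2 * b) ∧ (∀ s, 0 ≤ z s) ∧
    (∀ s, z s ≤ 1) ∧ ∀ s, a ^ 2 ≤ s → s ≤ b ^ 2 → z s = 1 := by
  have hb : 0 < b := ha.trans_le hab
  have a2 : 0 < a ^ 2 := by positivity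
  have b2 : 0 < b ^ 2 := by positivity
  refine ⟨fun s => bt (2 * s / a ^ 2) * (1 - bt (s / b ^ 2)),
    ⟨(bt_sm.comp ((contDiff_const.mul contDiff_id).div_const _)).mul
      (contDiff_const.sub (bt_sm.comp (contDiff_id.div_const _))), by positivity, by linarith,
      fun s hs => ⟨not_lt.1 fun h => hs ?_, not_lt.1 fun h => hs ?_⟩⟩,
    fun s => mul_nonneg (bt_nn _) (sub_nonneg.2 (bt_le _)),
    fun s => mul_le_one₀ (bt_le _) (sub_nonneg.2 (bt_le _)) (sub_le_self _ (bt_nn _)),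
    fun s h h' => ?_⟩
  · rw [bt_zero ((div_le_one a2).2 (by linarith)), zero_mul]
  · rw [bt_one (s := s / b ^ 2) ((le_div_iff₀ b2).2 (by linarith)), sub_self, mul_zero]
  · simp only
    rw [bt_one ((le_div_iff₀ a2).2 (by linarith)), bt_zero ((div_le_one b2).2 h'), sub_zero, mul_one]

theorem Rc.der (hz : Rc z a b) : Rc (deriv z) a b := by
  refine ⟨(contDiff_infty_iff_deriv.1 hz.sm).2, hz.pos, hz.le, fun s hs =>
    ⟨not_lt.1 fun h => hs ?_, not_lt.1 fun h => hs ?_⟩⟩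
  · exact (chi_loc (c := 0) ((eventually_lt_nhds h).mono fun t ht =>
      by_contra fun h' => (hz.supp t h').1.not_gt ht)).eq_of_nhds
  · exact (chi_loc (c := 0) ((eventually_gt_nhds h).mono fun t ht =>
      by_contra fun h' => (hz.supp t h').2.not_gt ht)).eq_of_nhds

theorem Rc.sq (hz : Rc z a b) : Rc (fun s => z s ^ 2) a b := by
  exact ⟨hz.sm.pow 2, hz.pos, hz.le, fun s hs => hz.supp s fun h => hs (by simp [h])⟩

theorem Rc.bd (hz : Rc z a b) : ∃ C : ℝ, 0 < C ∧ ∀ s, |z s| ≤ C := by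
  exact chi_bd hz.sm.continuous hz.supp

theorem Rc.an (hz : Rc z a b) (h0 : z (‖x‖ ^ 2) ≠ 0) : a ≤ ‖x‖ ∧ ‖x‖ ≤ b := by
  exact ⟨(sq_le_sq₀ hz.pos.le (norm_nonneg _)).1 (hz.supp _ h0).1,
    (sq_le_sq₀ (norm_nonneg _) (hz.pos.le.trans hz.le)).1 (hz.supp _ h0).2⟩

end Vale.Agent.P098
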