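import Vale.Agent.P098.Green

/-! The cut function. -/

open MeasureTheory Set Filter Topology Metric
open scoped ContDiff RealInnerProductSpace

noncomputable section

namespace Vale.Agent.P098

variable {d : ℕ} {S : Set (V d)} {U f g h k m F θ φ : V d → ℝ} {x : V d} {a b : ℝ}
  {z χ : ℝ → ℝ}

theorem cut_norm (hx : x ≠ 0) : ‖‖x‖⁻¹ • x‖ = 1 := norm_smul_inv_norm hx

theorem cut_back (hx : x ≠ 0) : ‖x‖ • ‖x‖⁻¹ • x = x := by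
  rw [smul_smul, mul_inv_cancel₀ (norm_ne_zero_iff.2 hx), one_smul]

theorem cut_ne (hx : ‖x‖ = 1) : x ≠ 0 := norm_ne_zero_iff.1 (by rw [hx]; exact one_ne_zero)

theorem cut_sm (hx : x ≠ 0) : ContDiffAt ℝ ∞ (fun y : V d => ‖y‖⁻¹ • y) x :=
  ((contDiffAt_norm ℝ hx).inv (norm_ne_zero_iff.2 hx)).smul contDiffAt_id

theorem cut_ray (hU : Cone U) {A B : Set (V d)} (hA : IsOpen A) (hB : IsOpen B)
    (hc : Zp U ⊆ A ∪ B) (hd : ¬ (Zp U ∩ (A ∩ B)).Nonempty) (hx : x ∈ Zp U ∩ A) :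
    ∃ y, (‖y‖ = 1 ∧ U y ≤ 0) ∧ y ∉ B := by
  have h0 : 0 < ‖x‖⁻¹ := inv_pos.2 (norm_pos_iff.2 hx.1.1)
  refine ⟨‖x‖⁻¹ • x, ⟨cut_norm hx.1.1, (hU.zp hx.1 h0).2⟩, fun hb => hd ?_⟩
  have h1 : IsPreconnected ((fun t : ℝ => t • x) '' Ioi 0) :=
    isPreconnected_Ioi.image _ (continuous_id.smul continuous_const).continuousOn
  have h2 : (fun t : ℝ => t • x) '' Ioi 0 ⊆ Zp U := by
    rintro _ ⟨t, ht, rfl⟩
    exact hU.zp hx.1 ht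
  obtain ⟨y, h3, h4⟩ := h1 A B hA hB (h2.trans hc)
    ⟨x, ⟨1, mem_Ioi.2 one_pos, one_smul _ _⟩, hx.2⟩ ⟨_, ⟨_, mem_Ioi.2 h0, rfl⟩, hb⟩
  exact ⟨y, h2 h3, h4⟩

theorem exists_cut (hU : Cone U) (hn : ¬ IsPreconnected (Zp U)) : ∃ θ, Cut U θ := by
  obtain ⟨A, B, hA, hB, hc, ⟨x, hx⟩, ⟨x', hx'⟩, hd⟩ : ∃ A B : Set (V d), IsOpen A ∧ IsOpen B ∧
      Zp U ⊆ A ∪ B ∧ (Zp U ∩ A).Nonempty ∧ (Zp U ∩ B).Nonempty ∧
        ¬ (Zp U ∩ (A ∩ B)).Nonempty := by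
    by_contra hc
    exact hn fun A B h1 h2 h3 h4 h5 => not_not.1 fun h6 => hc ⟨A, B, h1, h2, h3, h4, h5, h6⟩
  have hs : ContinuousOn U (sphere 0 1) :=
    hU.sm.continuousOn.mono fun y hy => cut_ne (mem_sphere_zero_iff_norm.1 hy)
  have hZ : IsClosed {y : V d | ‖y‖ = 1 ∧ U y ≤ 0} := by
    have h1 := hs.preimage_isClosed_of_isClosed isClosed_sphere (isClosed_Iic (a := (0 : ℝ)))
    have e : {y : V d | ‖y‖ = 1 ∧ U y ≤ 0} = sphere 0 1 ∩ U ⁻¹' Iic 0 := by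
      ext y
      simp
    rwa [e]
  obtain ⟨θ₀, h0, h1, -⟩ := exists_contMDiffMap_zero_one_nhds_of_isClosed (n := ⊤)
    (modelWithCornersSelf ℝ (V d)) (hZ.sdiff hB) (hZ.sdiff hA) (disjoint_left.2 fun y h1 h2 =>
      (hc ⟨cut_ne h1.1.1, h1.1.2⟩).elim h2.2 h1.2)
  have hθ : ContDiff ℝ ∞ θ₀ := θ₀.contMDiff.contDiff
  obtain ⟨y, hy⟩ := cut_ray hU hA hB hc hd hx
  obtain ⟨y', hy'⟩ := cut_ray hU hB hA (by rwa [union_comm]) (by rwa [inter_comm B]) hx'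
  have hN : IsOpen ({w : V d | ∀ᶠ v in 𝓝 w, θ₀ v = 0} ∪ {w : V d | ∀ᶠ v in 𝓝 w, θ₀ v = 1}) :=
    isOpen_setOfPred_eventually_nhds.union isOpen_setOfPred_eventually_nhds
  obtain ⟨η, hη, hl⟩ := ((isCompact_sphere (0 : V d) 1).diff hN).exists_forall_le'
    (hs.mono sdiff_subset) (a := 0) fun w hw => not_le.1 fun hw0 => by
      have h2 : ‖w‖ = 1 ∧ U w ≤ 0 := ⟨mem_sphere_zero_iff_norm.1 hw.1, hw0⟩
      by_cases hb : w ∈ B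
      · exact hw.2 (Or.inr (eventually_nhdsSet_iff_forall.1 h1 w
          ⟨h2, fun ha => hd ⟨w, ⟨cut_ne h2.1, hw0⟩, ha, hb⟩⟩))
      · exact hw.2 (Or.inl (eventually_nhdsSet_iff_forall.1 h0 w ⟨h2, hb⟩))
  refine ⟨fun w => θ₀ (‖w‖⁻¹ • w), fun w hw =>
    (hθ.contDiffAt.comp w (cut_sm hw)).contDiffWithinAt, fun t ht w _ => ?_,
    ⟨η, hη, fun w hw hlt => ?_⟩, ⟨y, ⟨cut_ne hy.1.1, hy.1.2⟩, ?_⟩,
    ⟨y', ⟨cut_ne hy'.1.1, hy'.1.2⟩, ?_⟩⟩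
  · rw [zpow_zero, one_mul, norm_smul, Real.norm_of_nonneg ht.le, smul_smul, mul_inv_rev,
      mul_assoc, inv_mul_cancel₀ ht.ne', mul_one]
  · have hp : 0 < ‖w‖ := norm_pos_iff.2 hw
    have h2 : ‖w‖⁻¹ • w ∈ {w : V d | ∀ᶠ v in 𝓝 w, θ₀ v = 0} ∪
        {w : V d | ∀ᶠ v in 𝓝 w, θ₀ v = 1} := by
      by_contra h3
      have h4 := hl _ ⟨mem_sphere_zero_iff_norm.2 (cut_norm hw), h3⟩
      have h5 := hU.hom _ hp _ (cut_ne (cut_norm hw))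
      rw [cut_back hw, max_eq_left (hη.le.trans h4)] at h5
      have h6 : ‖w‖ * η ≤ max (U w) 0 := h5 ▸ mul_le_mul_of_nonneg_left h4 hp.le
      exact (max_lt (by rwa [mul_comm]) (mul_pos hp hη)).not_ge h6
    exact h2.imp (cut_sm hw).continuousAt.tendsto.eventually
      (cut_sm hw).continuousAt.tendsto.eventually
  · rw [hy.1.1, inv_one, one_smul]
    exact h0.self_of_nhdsSet y hy
  · rw [hy'.1.1, inv_one, one_smul]
    exact h1.self_of_nhdsSet y' hy'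

theorem Cut.dz (hθ : Cut U θ) : ∃ η : ℝ, 0 < η ∧ ∀ x, x ≠ 0 → U x < η * ‖x‖ →
    (∀ i, D i θ x = 0) ∧ lap θ x = 0 := by
  obtain ⟨η, hη, h⟩ := hθ.loc
  refine ⟨η, hη, fun x hx hl => ?_⟩
  rcases h x hx hl with e | e
  · exact ⟨fun i => (D_congr e i).trans (D_const _ i x), (lap_congr e).trans (lap_const _ x)⟩
  · exact ⟨fun i => (D_congr e i).trans (D_const _ i x), (lap_congr e).trans (lap_const _ x)⟩

theorem Cut.lap_le (hU : Cone U) (hθ : Cut U θ) :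
    ∃ C : ℝ, 0 < C ∧ ∀ x ∈ Om U, |lap θ x| ≤ C * (U x / ‖x‖ ^ 3) := by
  obtain ⟨η, hη, h⟩ := hθ.dz
  obtain ⟨C, hC, hb⟩ := bd_an (lap_sm cn_compl.op hθ.sm).continuousOn one_pos 1
  refine ⟨C / η, div_pos hC hη, fun x hx => ?_⟩
  have hp : 0 < ‖x‖ := norm_pos_iff.2 hx.1
  have hu := (hU.cn.smul 1 one_pos x hx).2
  rw [one_smul] at hu
  by_cases hl : U x < η * ‖x‖
  · rw [(h x hx.1 hl).2, abs_zero]
    positivity
  · have h1 := hθ.hom.lapH cn_compl hθ.sm _ hp _ (cut_ne (cut_norm hx.1))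
    rw [cut_back hx.1, zero_sub, zpow_neg, zpow_ofNat] at h1
    have h2 := hb _ (cut_norm hx.1).ge (cut_norm hx.1).le
    rw [h1, abs_mul, abs_of_pos (by positivity)]
    refine (mul_le_mul_of_nonneg_left h2 (by positivity)).trans ?_
    have e : (‖x‖ ^ 2)⁻¹ * C = C / η * (η * ‖x‖ / ‖x‖ ^ 3) := by field_simp
    rw [e]
    exact mul_le_mul_of_nonneg_left (div_le_div_of_nonneg_right (not_lt.1 hl) (by positivity))
      (by positivity)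

end Vale.Agent.P098
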