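import Vale.Agent.P098.Kato

/-! The maximum principle. -/

open MeasureTheory Set Filter Topology Metric
open scoped ContDiff RealInnerProductSpace

noncomputable section

namespace Vale.Agent.P098

variable {d : ℕ} {S : Set (V d)} {U f g h k m F θ φ : V d → ℝ} {x : V d} {a b : ℝ}
  {z χ : ℝ → ℝ}

theorem uniq_one {w : ℝ → ℝ} (hc : ContinuousAt w 0) (hm : IsLocalMax w 0) :
    deriv (deriv w) 0 ≤ 0 := by
  refine not_lt.1 fun h => ?_
  have h1 := isLocalMin_of_deriv_deriv_pos h hm.deriv_eq_zero hc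
  have h2 : w =ᶠ[𝓝 0] fun _ => w 0 := (h1.and hm).mono fun t k => le_antisymm k.2 k.1
  rw [h2.deriv.deriv_eq] at h
  simp at h

theorem uniq_line {i : Fin d} (hf : DifferentiableAt ℝ f (x + a • ee i)) :
    HasDerivAt (fun t : ℝ => f (x + t • ee i)) (D i f (x + a • ee i)) a := by
  have h := ((hasDerivAt_id a).smul_const (ee i)).const_add x
  rw [one_smul] at h
  exact hf.hasFDerivAt.comp_hasDerivAt a h

theorem lap_le_of_max (hS : IsOpen S) (hf : ContDiffOn ℝ ∞ f S) (hx : x ∈ S) (hm : IsLocalMax f x) :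
    lap f x ≤ 0 := by
  refine Finset.sum_nonpos fun i _ => ?_
  have e0 : x + (0 : ℝ) • ee i = x := by simp
  have hc : Continuous fun t : ℝ => x + t • ee i := by fun_prop
  have hx' : x + (0 : ℝ) • ee i ∈ S := by rwa [e0]
  have h1 := uniq_one (uniq_line (cd_at hS hf hx')).continuousAt
    (IsLocalMax.comp_continuous (g := fun t : ℝ => x + t • ee i) (by rwa [e0]) hc.continuousAt)
  have h2 : deriv (fun t : ℝ => f (x + t • ee i)) =ᶠ[𝓝 0] fun t => D i f (x + t • ee i) :=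
    (hc.continuousAt.eventually (hS.mem_nhds hx')).mono fun t ht => (uniq_line (cd_at hS hf ht)).deriv
  rwa [h2.deriv_eq, (uniq_line (cd_at hS (D_sm hS hf i) hx')).deriv, e0] at h1

theorem uniq_sm (hU : Cone U) (σ : ℝ) : ContDiffOn ℝ ∞ (fun y => U y * (‖y‖ ^ 2) ^ σ) (Om U) :=
  hU.smO.mul ((contDiff_norm_sq ℝ).contDiffOn.rpow_const_of_ne fun y hy =>
    pow_ne_zero 2 (norm_ne_zero_iff.2 hy.1))

theorem uniq_le (hd : 3 ≤ d) (hU : Cone U) {j : V d → ℝ} (hj : ContDiffOn ℝ ∞ j (Om U))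
    (h0 : ∀ x ∈ Om U, lap j x = 0) {C : ℝ} (hb : ∀ x ∈ Om U, j x ≤ C * (U x / ‖x‖))
    (hx : x ∈ Om U) : j x ≤ 0 := by
  refine not_lt.1 fun hp => ?_
  have n0 : ∀ y ∈ Om U, 0 < ‖y‖ := fun y hy => norm_pos_iff.2 hy.1
  have hC : 0 < C := (pos_iff_pos_of_mul_pos (hp.trans_le (hb x hx))).2 (div_pos hx.2 (n0 x hx))
  obtain ⟨W, hW⟩ : ∃ W : V d → ℝ, W = fun y =>
      U y * (‖y‖ ^ 2) ^ (-1 / 4 : ℝ) + U y * (‖y‖ ^ 2) ^ (-1 : ℝ) := ⟨_, rfl⟩
  have p0 : ∀ y ∈ Om U, ∀ σ : ℝ, 0 < U y * (‖y‖ ^ 2) ^ σ := fun y hy σ =>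
    mul_pos hy.2 (Real.rpow_pos_of_pos (pow_pos (n0 y hy) 2) σ)
  have W0 : 0 < W x := by
    rw [hW]
    exact add_pos (p0 x hx _) (p0 x hx _)
  have Ws : ContDiffOn ℝ ∞ W (Om U) := hW ▸ (uniq_sm hU _).add (uniq_sm hU _)
  have Wl : ∀ y ∈ Om U, lap W y < 0 := fun y hy => by
    have d3 : (3 : ℝ) ≤ d := by exact_mod_cast hd
    rw [hW, lap_add hU.op (uniq_sm hU _) (uniq_sm hU _) hy, lap_bar hU _ hy, lap_bar hU _ hy]
    exact add_neg (mul_neg_of_neg_of_pos (by nlinarith) (p0 y hy _))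
      (mul_neg_of_neg_of_pos (by nlinarith) (p0 y hy _))
  obtain ⟨ε, hε, hμ⟩ : ∃ ε : ℝ, 0 < ε ∧ 0 < j x - ε * W x :=
    ⟨j x / (2 * W x), by positivity, by
      rw [show j x / (2 * W x) * W x = j x / 2 by field_simp]
      linarith⟩
  have Fs : ContDiffOn ℝ ∞ (fun y => j y - ε * W y) (Om U) := hj.sub (contDiffOn_const.mul Ws)
  have a0 : 0 < ε / C := div_pos hε hC
  have δ0 : 0 < (j x - ε * W x) * (ε / C) / C := by positivity
  have hK : ∀ y ∈ Om U, j x - ε * W x ≤ j y - ε * W y →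
      (j x - ε * W x) * (ε / C) / C ≤ U y ∧ ε / C ≤ ‖y‖ ∧ ‖y‖ ≤ (C / ε) ^ 2 := fun y hy h => by
    have r0 := n0 y hy
    have u0 := hy.2
    have k1 := mul_pos hε (p0 y hy (-1 / 4))
    have k2 := mul_pos hε (p0 y hy (-1))
    have k3 := hb y hy
    have k4 : ε * W y = ε * (U y * (‖y‖ ^ 2) ^ (-1 / 4 : ℝ)) + ε * (U y * (‖y‖ ^ 2) ^ (-1 : ℝ)) := by
      rw [hW, mul_add]
    have k5 : ε / C ≤ ‖y‖ := by
      have k : ε * (U y * (‖y‖ ^ 2) ^ (-1 : ℝ)) ≤ C * (U y / ‖y‖) := by linarith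
      rw [Real.rpow_neg_one] at k
      rw [div_le_iff₀ hC]
      have k' := mul_le_mul_of_nonneg_right k (by positivity : 0 ≤ ‖y‖ ^ 2 / U y)
      refine le_of_eq_of_le ?_ (k'.trans_eq ?_) <;> field_simp
    refine ⟨?_, k5, ?_⟩
    · rw [div_le_iff₀ hC]
      have k : j x - ε * W x ≤ C * U y / ‖y‖ := by rw [mul_div_assoc]; linarith
      rw [le_div_iff₀ r0] at k
      nlinarith
    · have k : ε * (U y * (‖y‖ ^ 2) ^ (-1 / 4 : ℝ)) ≤ C * (U y / ‖y‖) := by linarith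
      have s0 : 0 < (‖y‖ ^ 2) ^ (-1 / 4 : ℝ) := Real.rpow_pos_of_pos (pow_pos r0 2) _
      have s1 : ((‖y‖ ^ 2) ^ (-1 / 4 : ℝ)) ^ 2 = ‖y‖⁻¹ := by
        rw [← Real.rpow_natCast, ← Real.rpow_natCast, ← Real.rpow_mul r0.le, ← Real.rpow_mul r0.le,
          ← Real.rpow_neg_one]
        norm_num
      generalize (‖y‖ ^ 2) ^ (-1 / 4 : ℝ) = s at k s0 s1
      have k' : s ≤ C / ε * ‖y‖⁻¹ := by
        have k'' := mul_le_mul_of_nonneg_right k (by positivity : 0 ≤ (ε * U y)⁻¹)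
        refine le_of_eq_of_le ?_ (k''.trans_eq ?_) <;> field_simp
      have k6 := mul_le_mul_of_nonneg_right (pow_le_pow_left₀ s0.le k' 2) (sq_nonneg ‖y‖)
      rw [s1] at k6
      refine le_of_eq_of_le ?_ (k6.trans_eq ?_) <;> field_simp
  have hs : {y | (j x - ε * W x) * (ε / C) / C ≤ U y ∧ ε / C ≤ ‖y‖ ∧ ‖y‖ ≤ (C / ε) ^ 2} ⊆ Om U :=
    fun y hy => ⟨norm_pos_iff.1 (a0.trans_le hy.2.1), δ0.trans_le hy.1⟩
  obtain ⟨y, hy, hm⟩ := (hU.cpt a0 _).exists_isMaxOn ⟨x, hK x hx le_rfl⟩ (Fs.continuousOn.mono hs)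
  have h1 : j x - ε * W x ≤ j y - ε * W y := hm (hK x hx le_rfl)
  have h2 : IsLocalMax (fun y => j y - ε * W y) y := by
    filter_upwards [hU.op.mem_nhds (hs hy)] with w hw
    exact (le_total _ _).elim (fun k => hm (hK w hw k)) fun k => k.trans h1
  have h3 := lap_le_of_max hU.op Fs (hs hy) h2
  rw [lap_sub hU.op hj (contDiffOn_const.mul Ws) (hs hy), lap_cmul, h0 y (hs hy)] at h3
  nlinarith [Wl y (hs hy)]

theorem uniq (hd : 3 ≤ d) (hU : Cone U) {j : V d → ℝ} (hj : ContDiffOn ℝ ∞ j (Om U))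
    (h0 : ∀ x ∈ Om U, lap j x = 0) {C : ℝ} (hb : ∀ x ∈ Om U, |j x| ≤ C * (U x / ‖x‖))
    (hx : x ∈ Om U) : j x = 0 := by
  have h1 := uniq_le hd hU hj h0 (fun y hy => (le_abs_self _).trans (hb y hy)) hx
  have h2 := uniq_le hd hU (j := fun y => -1 * j y) (C := C) (contDiffOn_const.mul hj)
    (fun y hy => by rw [lap_cmul, h0 y hy, mul_zero])
    (fun y hy => by linarith [neg_abs_le (j y), hb y hy]) hx
  linarith

end Vale.Agent.P098
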