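import Vale.Agent.P098.Green
import Vale.Agent.P292E.Reg
import Vale.Agent.P292E.Ell

/-! Weyl's lemma. -/

open MeasureTheory Set Filter Topology Metric
open scoped ContDiff RealInnerProductSpace

noncomputable section

namespace Vale.Agent.P098

variable {d : ℕ} {S : Set (V d)} {U f g h k m F θ φ : V d → ℝ} {x : V d} {a b : ℝ}
  {z χ : ℝ → ℝ}

theorem weyl_pd (L : ℂ →L[ℝ] ℝ) {ψ : V d → ℂ} (hψ : ContDiff ℝ ∞ ψ) (p : Fin d) :
    D p (fun x => L (ψ x)) = fun x => L (P292E.pd p ψ x) := by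
  funext x
  have h1 : HasFDerivAt (fun x => L (ψ x)) (L.comp (fderiv ℝ ψ x)) x :=
    L.hasFDerivAt.comp x (hψ.differentiable (by simp) x).hasFDerivAt
  unfold D
  rw [h1.fderiv]
  rfl

theorem weyl_sm {ψ : V d → ℂ} (hψ : ContDiff ℝ ∞ ψ) (p : Fin d) :
    ContDiff ℝ ∞ (P292E.pd p ψ) :=
  (hψ.fderiv_right (m := ∞) (by simp)).clm_apply contDiff_const

theorem weyl_lap (L : ℂ →L[ℝ] ℝ) {ψ : V d → ℂ} (hψ : ContDiff ℝ ∞ ψ) (x : V d) :
    lap (fun x => L (ψ x)) x = L (P292E.Qop (fun p q _ => if p = q then 1 else 0) 0 0 ψ x) := by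
  unfold lap P292E.Qop
  simp only [weyl_pd L hψ, weyl_pd L (weyl_sm hψ _)]
  simp

theorem weyl_tst (L : ℂ →L[ℝ] ℝ) {ψ : V d → ℂ} (hψ : P292E.Tst S ψ) :
    Tst S fun x => L (ψ x) :=
  ⟨L.contDiff.comp hψ.1, hψ.2.1.comp_left (g := L) (map_zero L),
    (tsupport_comp_subset (g := L) (map_zero L) ψ).trans hψ.2.2⟩

theorem weyl_int (hS : IsOpen S) {u ψ : V d → ℝ} (hu : LocallyIntegrableOn u S) (hψ : Tst S ψ) :
    IntegrableOn (fun x => u x * lap ψ x) S := by
  have h1 : IntegrableOn (fun x => u x * lap ψ x) (tsupport ψ) :=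
    (hu.integrableOn_compact_subset hψ.2.2 hψ.2.1).mul_continuousOn
      ((lap_sm hS hψ.1.contDiffOn).continuousOn.mono hψ.2.2) hψ.2.1
  refine h1.of_forall_sdiff_eq_zero hS.measurableSet fun x hx => ?_
  rw [lap_congr (g := fun _ => 0) (notMem_tsupport_iff_eventuallyEq.1 hx.2), lap_const, mul_zero]

theorem weyl (hS : IsOpen S) {u : V d → ℝ} (hu : LocallyIntegrableOn u S)
    (hw : ∀ ψ, Tst S ψ → ∫ x in S, u x * lap ψ x = 0) : ∃ h : V d → ℝ, ContDiffOn ℝ ∞ h S ∧
      (∀ x ∈ S, lap h x = 0) ∧ ∀ᵐ x, x ∈ S → u x = h x := by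
  have hW : P292E.Weak S (fun p q _ => if p = q then 1 else 0) 0 0
      (S.indicator fun x => (u x : ℂ)) 0 0 := by
    intro ψ hψ
    have h1 := weyl_tst Complex.reCLM hψ
    have h2 := weyl_tst Complex.imCLM hψ
    have e : ∀ x, S.indicator (fun x => (u x : ℂ)) x *
        P292E.Qop (fun p q _ => if p = q then 1 else 0) 0 0 ψ x =
        S.indicator (fun x => ((u x * lap (fun x => Complex.reCLM (ψ x)) x : ℝ) : ℂ) +
          ((u x * lap (fun x => Complex.imCLM (ψ x)) x : ℝ) : ℂ) * Complex.I) x := by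
      intro x
      by_cases hx : x ∈ S
      · rw [indicator_of_mem hx, indicator_of_mem hx, weyl_lap _ hψ.1, weyl_lap _ hψ.1]
        apply Complex.ext <;> simp
      · rw [indicator_of_notMem hx, indicator_of_notMem hx, zero_mul]
    simp only [e]
    rw [integral_indicator hS.measurableSet,
      integral_add (weyl_int hS hu h1).ofReal ((weyl_int hS hu h2).ofReal.mul_const _),
      integral_mul_const, integral_complex_ofReal, integral_complex_ofReal, hw _ h1, hw _ h2]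
    simp
  have hL : LocallyIntegrableOn (S.indicator fun x => (u x : ℂ)) S := by
    intro x hx
    obtain ⟨t, ht, hi⟩ := hu x hx
    exact ⟨t, ht, (Integrable.ofReal hi).indicator hS.measurableSet⟩
  obtain ⟨w, hw1, hw2⟩ := P292E.regS (P292E.ellS d) S _ 0 0 _ 0 hS
    (fun _ _ => contDiffOn_const) (fun _ => contDiffOn_const) contDiffOn_const contDiffOn_const
    (fun x _ => ⟨1, one_pos, fun ξ => by
      rw [one_mul, nsq_eq]
      simp [P292E.symb, sq]⟩) hL hW
  have hh : ContDiffOn ℝ ∞ (fun x => (w x).re) S := Complex.reCLM.contDiff.comp_contDiffOn hw1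
  have he : ∀ᵐ x, x ∈ S → u x = (w x).re := by
    filter_upwards [hw2] with x hx hxS
    rw [← hx hxS, indicator_of_mem hxS, Complex.ofReal_re]
  refine ⟨_, hh, fun x hx => zero_of_tst hS (lap_sm hS hh).continuousOn (fun ψ hψ => ?_) hx, he⟩
  rw [green2 hS hψ.cs hψ.1.contDiffOn hh, ← hw ψ hψ]
  refine setIntegral_congr_ae hS.measurableSet ?_
  filter_upwards [he] with y hy hyS
  rw [hy hyS]

end Vale.Agent.P098
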