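import Vale.Agent.P098.HB
import Vale.Agent.P098.Weyl
import Vale.Agent.P098.Uniq
import Vale.Agent.P098.Cut

open MeasureTheory Set Filter Topology Metric
open scoped ContDiff RealInnerProductSpace

noncomputable section

namespace Vale.Agent.P098

variable {d : ℕ} {S : Set (V d)} {U f g h k m F θ φ : V d → ℝ} {x : V d} {a b : ℝ}
  {z χ : ℝ → ℝ}

theorem ex_weight (d : ℕ) : ∃ q : V d → ℝ, Continuous q ∧ (∀ x, 0 < q x) ∧ MemLp q 2 volume := by
  have h0 : ∀ x : V d, 0 < (1 + ‖x‖) ^ (-((d : ℝ) + 1)) := fun x =>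
    Real.rpow_pos_of_pos (by positivity) _
  have hc : Continuous fun x : V d => √((1 + ‖x‖) ^ (-((d : ℝ) + 1))) :=
    ((continuous_const.add continuous_norm).rpow_const fun x =>
      Or.inl (add_pos_of_pos_of_nonneg one_pos (norm_nonneg x)).ne').sqrt
  refine ⟨_, hc, fun x => Real.sqrt_pos.2 (h0 x), ?_⟩
  rw [memLp_two_iff_integrable_sq hc.aestronglyMeasurable]
  simp only [Real.sq_sqrt (h0 _).le]
  exact integrable_one_add_norm (by simp)

/-- test functions -/
def exW (S : Set (V d)) : Submodule ℝ (V d → ℝ) where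
  carrier := {ψ | Tst S ψ}
  zero_mem' := ⟨contDiff_const, HasCompactSupport.zero, by
    rw [tsupport_eq_empty_iff.2 rfl]; exact empty_subset _⟩
  add_mem' := fun {f g} hf hg => ⟨hf.1.add hg.1, hf.2.1.add hg.2.1,
    (tsupport_add f g).trans (union_subset hf.2.2 hg.2.2)⟩
  smul_mem' := fun c f hf => ⟨hf.1.const_smul c, hf.2.1.smul_left (f := fun _ => c),
    (tsupport_smul_subset_right (fun _ => c) f).trans hf.2.2⟩

theorem ex_add (v w : exW S) (x : V d) : lap (↑(v + w) : V d → ℝ) x = lap v x + lap w x :=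
  lap_add isOpen_univ v.2.1.contDiffOn w.2.1.contDiffOn (mem_univ x)

theorem ex_smul (c : ℝ) (v : exW S) (x : V d) : lap (↑(c • v) : V d → ℝ) x = c * lap v x :=
  lap_cmul c v x

theorem ex_int (hS : IsOpen S) {ψ : V d → ℝ} (hψ : Tst S ψ) (hg : ContinuousOn g S) :
    IntegrableOn (fun x => g x * lap ψ x) S :=
  ((hψ.cs.lapC hS).mul' g).int hS (hg.mul (lap_sm hS hψ.1.contDiffOn).continuousOn)

theorem ex_B (hU : Cone U) : ContinuousOn (fun x => U x / ‖x‖) (Om U) :=
  hU.smO.continuousOn.div continuous_norm.continuousOn fun _ hx => norm_ne_zero_iff.2 hx.1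

theorem ex_weak (hd : 3 ≤ d) (hU : Cone U) (hθ : Cut U θ) : ∃ (v : V d → ℝ) (C : ℝ),
    AEStronglyMeasurable v (volume.restrict (Om U)) ∧
    (∀ᵐ x ∂volume.restrict (Om U), |v x| ≤ C * (U x / ‖x‖)) ∧
    ∀ ψ, Tst (Om U) ψ → ∫ x in Om U, (v x + θ x) * lap ψ x = 0 := by
  obtain ⟨q, hqc, hq0, hq⟩ := ex_weight d
  obtain ⟨C, hC, hθC⟩ := Cut.lap_le hU hθ
  have hS := hU.op
  have hθs : ContDiffOn ℝ ∞ θ (Om U) := hθ.sm.mono (om_sub U)
  have hB := ex_B hU
  have hB0 : ∀ x ∈ Om U, 0 ≤ U x / ‖x‖ := fun x hx => div_nonneg hx.2.le (norm_nonneg _)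
  have hBq : ContinuousOn (fun x => U x / ‖x‖ / q x) (Om U) :=
    hB.div hqc.continuousOn fun x _ => (hq0 x).ne'
  let L : exW (Om U) →ₗ[ℝ] V d → ℝ :=
    { toFun := fun w x => U x / ‖x‖ / q x * lap w x
      map_add' := fun v w => funext fun x => by
        rw [ex_add, mul_add]
        rfl
      map_smul' := fun c v => funext fun x => by
        rw [ex_smul, mul_left_comm]
        rfl }
  let Λ : exW (Om U) →ₗ[ℝ] ℝ :=
    { toFun := fun w => -∫ x in Om U, θ x * lap w x
      map_add' := fun v w => by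
        simp only [ex_add, mul_add]
        rw [integral_add (ex_int hS v.2 hθs.continuousOn) (ex_int hS w.2 hθs.continuousOn), neg_add]
      map_smul' := fun c v => by
        simp only [ex_smul, mul_left_comm _ c]
        rw [integral_const_mul, RingHom.id_apply, smul_eq_mul, mul_neg] }
  have hL : ∀ w, MemLp (L w) 2 (volume.restrict (Om U)) := by
    intro w
    have h1 : ContinuousOn (L w) (Om U) := hBq.mul (lap_sm hS w.2.1.contDiffOn).continuousOn
    rw [memLp_two_iff_integrable_sq (h1.aestronglyMeasurable hS.measurableSet)]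
    simp only [sq]
    exact ((((Tst.cs w.2).lapC hS).mul' _).mul (L w)).int hS (h1.mul h1)
  have hb' : ∀ w, |Λ w| ≤ C * ∫ x, |L w x| * q x ∂volume.restrict (Om U) := by
    intro w
    have hw : Tst (Om U) w := w.2
    have e1 : Λ w = -∫ x in Om U, (w : V d → ℝ) x * lap θ x := by
      rw [green2 hS hw.cs hw.1.contDiffOn hθs]
      rfl
    have e2 : ∫ x in Om U, |L w x| * q x = ∫ x in Om U, |lap w x| * (U x / ‖x‖) := by
      refine setIntegral_congr_fun hS.measurableSet fun x hx => ?_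
      have h1 := (hq0 x).ne'
      change |U x / ‖x‖ / q x * lap w x| * q x = _
      rw [abs_mul, abs_of_nonneg (div_nonneg (hB0 x hx) (hq0 x).le)]
      field_simp
    have hc3 : ContinuousOn (fun x => U x / ‖x‖ ^ 3) (Om U) :=
      hU.smO.continuousOn.div (continuous_norm.pow 3).continuousOn fun _ hx =>
        pow_ne_zero _ (norm_ne_zero_iff.2 hx.1)
    have hi : IntegrableOn (fun x => (w : V d → ℝ) x * (U x / ‖x‖ ^ 3)) (Om U) :=
      (hw.cs.mul _).int hS (hw.1.continuous.continuousOn.mul hc3)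
    have hi' : IntegrableOn (fun x => |(w : V d → ℝ) x| * (U x / ‖x‖ ^ 3)) (Om U) := by
      refine IntegrableOn.congr_fun hi.abs (fun x hx => ?_) hS.measurableSet
      have h1 : 0 ≤ U x / ‖x‖ ^ 3 := div_nonneg hx.2.le (by positivity)
      simp only [abs_mul, abs_of_nonneg h1]
    rw [e1, e2, abs_neg]
    refine le_trans ?_ (mul_le_mul_of_nonneg_left (kato (by omega) hU hw) hC.le)
    rw [← integral_const_mul, ← Real.norm_eq_abs]
    refine norm_integral_le_of_norm_le (hi'.const_mul C) ?_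
    filter_upwards [ae_restrict_mem hS.measurableSet] with x hx
    rw [norm_mul, Real.norm_eq_abs, Real.norm_eq_abs, mul_left_comm]
    exact mul_le_mul_of_nonneg_left (hθC x hx) (abs_nonneg _)
  obtain ⟨κ, hκm, hκ, hΛ⟩ := hb L Λ (hq.restrict _) hq0 hL hC.le hb'
  have hκ2 : MemLp κ 2 (volume.restrict (Om U)) := by
    refine (hq.restrict _).of_le_mul (c := C) hκm ?_
    filter_upwards [hκ] with x hx
    rwa [Real.norm_eq_abs, Real.norm_of_nonneg (hq0 x).le]
  refine ⟨fun x => κ x * (U x / ‖x‖ / q x), C,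
    hκm.mul (hBq.aestronglyMeasurable hS.measurableSet), ?_, fun ψ hψ => ?_⟩
  · filter_upwards [hκ, ae_restrict_mem hS.measurableSet] with x hx hxS
    have h1 := div_nonneg (hB0 x hxS) (hq0 x).le
    have h2 := (hq0 x).ne'
    rw [abs_mul, abs_of_nonneg h1]
    refine (mul_le_mul_of_nonneg_right hx h1).trans_eq ?_
    field_simp
  · have h1 := hΛ ⟨ψ, hψ⟩
    have h2 : Integrable (fun x => κ x * L ⟨ψ, hψ⟩ x) (volume.restrict (Om U)) :=
      hκ2.integrable_mul (hL ⟨ψ, hψ⟩)
    have h3 : ∀ x, (κ x * (U x / ‖x‖ / q x) + θ x) * lap ψ x =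
        κ x * L ⟨ψ, hψ⟩ x + θ x * lap ψ x := fun x => by
      rw [add_mul, mul_assoc]
      rfl
    simp only [h3]
    rw [integral_add h2 (ex_int hS hψ hθs.continuousOn), ← h1]
    exact neg_add_cancel _

theorem exists_hr (hd : 3 ≤ d) (hU : Cone U) (hθ : Cut U θ) : ∃ h, Hr U h ∧
    ∃ C : ℝ, ∀ x ∈ Om U, |h x - θ x| ≤ C * (U x / ‖x‖) := by
  obtain ⟨v, C, hvm, hv, hw⟩ := ex_weak hd hU hθ
  have hS := hU.op
  have hθs : ContDiffOn ℝ ∞ θ (Om U) := hθ.sm.mono (om_sub U)
  have hB := ex_B hU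
  have hli : LocallyIntegrableOn (fun x => v x + θ x) (Om U) := by
    rw [locallyIntegrableOn_iff hS.isLocallyClosed]
    intro K hK hKc
    have hle : volume.restrict K ≤ volume.restrict (Om U) := Measure.restrict_mono hK le_rfl
    refine Integrable.add ?_ ((hθs.continuousOn.mono hK).integrableOn_compact hKc)
    exact Integrable.mono' (((hB.mono hK).integrableOn_compact hKc).const_mul C)
      (hvm.mono_measure hle) (ae_mono hle hv)
  obtain ⟨h, hs, h0, he⟩ := weyl hS hli hw
  have hbd : ∀ x ∈ Om U, |h x - θ x| ≤ C * (U x / ‖x‖) := by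
    have h1 : (fun x => max (|h x - θ x| - C * (U x / ‖x‖)) 0) =ᵐ[volume.restrict (Om U)]
        fun _ => 0 := by
      filter_upwards [hv, ae_restrict_mem hS.measurableSet, ae_restrict_of_ae he] with x h1 h2 h3
      rw [← h3 h2, add_sub_cancel_right]
      exact max_eq_right (sub_nonpos.2 h1)
    have hc : ContinuousOn (fun x => |h x - θ x| - C * (U x / ‖x‖)) (Om U) :=
      (hs.continuousOn.sub hθs.continuousOn).abs.sub (continuousOn_const.mul hB)
    have h2 := Measure.eqOn_open_of_ae_eq h1 hS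
      ((continuous_id.max continuous_const).comp_continuousOn hc) continuousOn_const
    intro x hx
    exact sub_nonpos.1 (max_eq_right_iff.1 (h2 hx))
  refine ⟨h, ⟨hs, h0, fun t ht x hx => ?_⟩, C, hbd⟩
  have hm : ∀ y ∈ Om U, t • y ∈ Om U := hU.cn.smul t ht
  have hst : ContDiffOn ℝ ∞ (fun y => h (t • y)) (Om U) :=
    hs.comp (contDiff_const_smul t).contDiffOn hm
  have h1 := uniq hd hU (j := fun y => h (t • y) - h y) (hst.sub hs) (C := 2 * C) ?_ ?_ hx
  · rw [zpow_zero, one_mul]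
    exact sub_eq_zero.1 h1
  · intro y hy
    rw [lap_sub hS hst hs hy, lap_smul hU.cn hs ht hy, h0 _ (hm y hy), h0 _ hy, mul_zero, sub_zero]
  · intro y hy
    have e1 := hbd _ (hm y hy)
    have e2 := hbd y hy
    have e3 : θ (t • y) = θ y := by
      rw [hθ.hom t ht y hy.1, zpow_zero, one_mul]
    have e4 : U (t • y) / ‖t • y‖ = U y / ‖y‖ := by
      rw [hU.hom1 t ht y hy, zpow_one, norm_smul, Real.norm_of_nonneg ht.le,
        mul_div_mul_left _ _ ht.ne']
    rw [e3, e4] at e1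
    rw [abs_le] at e1 e2 ⊢
    constructor <;> linarith [e1.1, e1.2, e2.1, e2.2]

end Vale.Agent.P098
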