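import Vale.Agent.P098.Chi

/-! The sharp Hardy inequality on the half line. -/

open MeasureTheory Set Filter Topology Metric
open scoped ContDiff RealInnerProductSpace

noncomputable section

namespace Vale.Agent.P098

variable {d : ℕ} {S : Set (V d)} {U f g h k m F θ φ : V d → ℝ} {x : V d} {a b : ℝ}
  {z χ : ℝ → ℝ}

theorem hardy_sub (g : ℝ → ℝ) : ∫ r in Ioi (0 : ℝ), g r = ∫ τ, Real.exp τ * g (Real.exp τ) := by
  have h := integral_image_eq_integral_abs_deriv_smul MeasurableSet.univ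
    (fun x _ => (Real.hasDerivAt_exp x).hasDerivWithinAt) Real.exp_injective.injOn g
  rw [image_univ, Real.range_exp, Measure.restrict_univ] at h
  simpa only [Real.abs_exp, smul_eq_mul] using h

theorem hardy_pt {t : ℝ} (ht : 0 < t) (x y : ℝ) :
    (x + y) ^ 2 ≤ (1 + t) * x ^ 2 + (1 + t⁻¹) * y ^ 2 := by
  have h1 : t * t⁻¹ = 1 := mul_inv_cancel₀ ht.ne'
  have h2 := mul_nonneg ht.le (sq_nonneg (x - t⁻¹ * y))
  have h3 : t * (x - t⁻¹ * y) ^ 2 = t * x ^ 2 - 2 * x * y + t⁻¹ * y ^ 2 := by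
    linear_combination (t⁻¹ * y ^ 2 - 2 * x * y) * h1
  linarith


theorem hardy (h3 : 3 ≤ d) (h6 : d ≤ 6) {l : ℝ} (hl : 0 < l) : ∃ z a b, Rc z a b ∧ (∀ s, 0 ≤ z s) ∧
    0 < ∫ r in Ioi (0 : ℝ), r ^ (d - 1) * (r ^ (-4 : ℤ) * z (r ^ 2) ^ 2) ∧
    ∫ r in Ioi (0 : ℝ), r ^ (d - 1) * (r ^ (-2 : ℤ) * (4 * r ^ 2 * deriv z (r ^ 2) ^ 2)) ≤
      (1 + l) * ∫ r in Ioi (0 : ℝ), r ^ (d - 1) * (r ^ (-4 : ℤ) * z (r ^ 2) ^ 2) := by
  let η : ContDiffBump (0 : ℝ) := ⟨1, 2, one_pos, one_lt_two⟩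
  have sη : ContDiff ℝ ∞ η := η.contDiff
  have c0 : Continuous η := sη.continuous
  have c1 : Continuous (deriv η) := sη.continuous_deriv (by simp)
  have k0 : HasCompactSupport fun t => η t ^ 2 :=
    η.hasCompactSupport.comp_left (g := fun u : ℝ => u ^ 2) (by simp)
  have k1 : HasCompactSupport fun t => deriv η t ^ 2 :=
    η.hasCompactSupport.deriv.comp_left (g := fun u : ℝ => u ^ 2) (by simp)
  have i0 : Integrable fun t => η t ^ 2 := (c0.pow 2).integrable_of_hasCompactSupport k0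
  have i1 : Integrable fun t => deriv η t ^ 2 := (c1.pow 2).integrable_of_hasCompactSupport k1
  have hA : 0 < ∫ t, η t ^ 2 := (c0.pow 2).integral_pos_of_hasCompactSupport_nonneg_nonzero
    (x := 0) k0 (fun _ => sq_nonneg _)
    (by rw [η.one_of_mem_closedBall (mem_closedBall_self zero_le_one)]; simp)
  obtain ⟨c, hc, hc'⟩ := exists_pos_mul_lt (mul_pos (half_pos hl) hA)
    ((1 + (l / 2)⁻¹) * 4 * ∫ t, deriv η t ^ 2)
  obtain ⟨κ, hκ, rfl⟩ : ∃ κ : ℝ, 0 < κ ∧ c = κ ^ 2 :=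
    ⟨√c, Real.sqrt_pos.2 hc, (Real.sq_sqrt hc.le).symm⟩
  set β : ℝ := ((d : ℝ) - 4) / 4 with hβ
  have hβ1 : (2 * β) ^ 2 ≤ 1 := by
    have a3 : (3 : ℝ) ≤ d := by exact_mod_cast h3
    have a6 : (d : ℝ) ≤ 6 := by exact_mod_cast h6
    exact sq_le_one_iff_abs_le_one _ |>.2 (abs_le.2 ⟨by linarith, by linarith⟩)
  set Φ : ℝ → ℝ := fun t => Real.exp (-β * t) * η (κ * t) with hΦ
  have sΦ : ContDiff ℝ ∞ Φ :=
    (contDiff_const.mul contDiff_id).exp.mul (sη.comp (contDiff_const.mul contDiff_id))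
  have dΦ : ∀ t, HasDerivAt Φ (Real.exp (-β * t) * (-β * η (κ * t) + κ * deriv η (κ * t))) t :=
    fun t => (((hasDerivAt_id' t).const_mul (-β)).exp.fun_mul
      ((sη.differentiable (by simp) _).hasDerivAt.comp t
        ((hasDerivAt_id' t).const_mul κ))).congr_deriv (by simp only [Function.comp]; ring)
  set z : ℝ → ℝ := fun s => if 0 < s then Φ (Real.log s) else 0 with hz
  have e0 : ∀ s, 0 < s → z =ᶠ[𝓝 s] fun s => Φ (Real.log s) := fun s hs =>
    (eventually_gt_nhds hs).mono fun u hu => if_pos hu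
  have hs : ∀ s, z s ≠ 0 → Real.exp (-κ⁻¹) ^ 2 ≤ s ∧ s ≤ Real.exp κ⁻¹ ^ 2 := by
    intro s h
    have h0 : 0 < s := by
      by_contra h0
      exact h (if_neg h0)
    have h1 : |κ * Real.log s| < 2 := by
      by_contra h1
      refine h ((if_pos h0).trans (mul_eq_zero_of_right _ (η.zero_of_le_dist ?_)))
      rw [Real.dist_eq, sub_zero]
      exact not_lt.1 h1
    rw [← Real.exp_nat_mul, ← Real.exp_nat_mul, ← Real.le_log_iff_exp_le h0,
      ← Real.log_le_iff_le_exp h0]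
    have h2 := abs_lt.1 h1
    have h4 : κ * κ⁻¹ = 1 := mul_inv_cancel₀ hκ.ne'
    push_cast
    constructor <;> refine le_of_mul_le_mul_left ?_ hκ <;> linarith
  have sz : ContDiff ℝ ∞ z := contDiff_iff_contDiffAt.2 fun s => by
    by_cases h : s < Real.exp (-κ⁻¹) ^ 2
    · refine (contDiffAt_const (c := 0)).congr_of_eventuallyEq
        ((eventually_lt_nhds h).mono fun u hu => ?_)
      by_contra h1
      exact absurd (hs u h1).1 (not_le.2 hu)
    · have h0 : 0 < s := lt_of_lt_of_le (by positivity) (not_lt.1 h)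
      exact (sΦ.contDiffAt.comp s (Real.contDiffAt_log.2 h0.ne')).congr_of_eventuallyEq (e0 s h0)
  have key : ∀ τ, Real.exp (-β * (2 * τ)) ^ 2 * (Real.exp τ * Real.exp τ ^ (d - 1)) =
      Real.exp τ ^ 4 := fun τ => by
    rw [← pow_succ', Nat.sub_add_cancel (by omega), ← Real.exp_nat_mul, ← Real.exp_nat_mul,
      ← Real.exp_nat_mul, ← Real.exp_add, hβ]
    congr 1
    push_cast
    ring
  have lg : ∀ τ, Real.log (Real.exp τ ^ 2) = 2 * τ := fun τ => by
    rw [Real.log_pow, Real.log_exp, Nat.cast_ofNat]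
  have e1 : ∫ r in Ioi (0 : ℝ), r ^ (d - 1) * (r ^ (-4 : ℤ) * z (r ^ 2) ^ 2) =
      |(2 * κ)⁻¹| * ∫ t, η t ^ 2 := by
    rw [hardy_sub, ← smul_eq_mul, ← Measure.integral_comp_mul_left]
    refine integral_congr_ae (Eventually.of_forall fun τ => ?_)
    have h0 := (Real.exp_pos τ).ne'
    simp only [(e0 _ (pow_pos (Real.exp_pos τ) 2)).self_of_nhds, lg, hΦ, zpow_neg, zpow_ofNat]
    rw [show κ * (2 * τ) = 2 * κ * τ by ring]
    linear_combination (Real.exp τ ^ 4)⁻¹ * η (2 * κ * τ) ^ 2 * key τ +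
      η (2 * κ * τ) ^ 2 * mul_inv_cancel₀ (pow_ne_zero 4 h0)
  have e2 : ∫ r in Ioi (0 : ℝ), r ^ (d - 1) * (r ^ (-2 : ℤ) * (4 * r ^ 2 * deriv z (r ^ 2) ^ 2)) =
      |(2 * κ)⁻¹| * ∫ t, 4 * (-β * η t + κ * deriv η t) ^ 2 := by
    rw [hardy_sub, ← smul_eq_mul, ← Measure.integral_comp_mul_left]
    refine integral_congr_ae (Eventually.of_forall fun τ => ?_)
    have h0 := (Real.exp_pos τ).ne'
    have h1 : HasDerivAt (fun s => Φ (Real.log s)) _ (Real.exp τ ^ 2) :=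
      (dΦ _).comp _ (Real.hasDerivAt_log (pow_ne_zero 2 h0))
    simp only [(e0 _ (pow_pos (Real.exp_pos τ) 2)).deriv_eq, h1.deriv, lg, zpow_neg, zpow_ofNat]
    rw [show κ * (2 * τ) = 2 * κ * τ by ring]
    generalize -β * η (2 * κ * τ) + κ * deriv η (2 * κ * τ) = w
    have h2 := mul_inv_cancel₀ (pow_ne_zero 2 h0)
    generalize (Real.exp τ ^ 2)⁻¹ = i at h2 ⊢
    linear_combination 4 * w ^ 2 * i ^ 3 * Real.exp τ ^ 2 * key τ +
      4 * w ^ 2 * ((Real.exp τ ^ 2 * i) ^ 2 + Real.exp τ ^ 2 * i + 1) * h2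
  have hk : 0 < |(2 * κ)⁻¹| := by positivity
  refine ⟨z, _, _, ⟨sz, Real.exp_pos _, Real.exp_le_exp.2 (by linarith [inv_pos.2 hκ]), hs⟩,
    fun s => ?_, e1 ▸ mul_pos hk hA, ?_⟩
  · simp only [hz]
    split_ifs
    exacts [mul_nonneg (Real.exp_pos _).le η.nonneg, le_rfl]
  rw [e1, e2, mul_left_comm]
  refine mul_le_mul_of_nonneg_left ?_ hk.le
  have h1 : ∫ t, 4 * (-β * η t + κ * deriv η t) ^ 2 ≤
      ∫ t, ((1 + l / 2) * η t ^ 2 + (1 + (l / 2)⁻¹) * 4 * κ ^ 2 * deriv η t ^ 2) :=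
    integral_mono_of_nonneg (Eventually.of_forall fun t => by positivity)
      ((i0.const_mul _).add (i1.const_mul _)) (Eventually.of_forall fun t => by
        have a1 := hardy_pt (half_pos hl) (-(2 * β) * η t) (2 * κ * deriv η t)
        have a2 := mul_le_mul_of_nonneg_left (mul_le_mul_of_nonneg_right hβ1 (sq_nonneg (η t)))
          (by positivity : 0 ≤ 1 + l / 2)
        simp only
        linarith)
  rw [integral_add (i0.const_mul _) (i1.const_mul _), integral_const_mul (1 + l / 2),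
    integral_const_mul (_ * κ ^ 2)] at h1
  linarith

end Vale.Agent.P098
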