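import Vale.Agent.P098.Vol
import Vale.Agent.P098.Cut

/-! The weighted estimate for `g = (h - θ) / U`, from `lap (U g²) = 2 U dot g g - 2 g lap θ`
tested against `bt (c U) * rz z`. -/

open MeasureTheory Set Filter Topology Metric
open scoped ContDiff RealInnerProductSpace

noncomputable section

namespace Vale.Agent.P098

variable {d : ℕ} {S : Set (V d)} {U f g h k m F θ φ : V d → ℝ} {x : V d} {a b : ℝ}
  {z χ : ℝ → ℝ}

theorem kest_id (hU : Cone U) (hg : ContDiffOn ℝ ∞ g (Om U)) (hθ : ContDiffOn ℝ ∞ θ (Om U))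
    (hh : Hr U h) (e : ∀ y ∈ Om U, h y - θ y = U y * g y) (hx : x ∈ Om U) :
    lap (fun y => U y * (g y * g y)) x = 2 * (U x * dot g g x) - 2 * g x * lap θ x := by
  have hS := hU.op
  have h1 := lap_mul hS hU.smO hg hx
  have h2 : lap (fun y => U y * g y) x = lap (fun y => h y - θ y) x :=
    lap_congr (eventually_of_mem (hS.mem_nhds hx) fun y hy => (e y hy).symm)
  rw [lap_sub hS hh.sm hθ hx, hh.har x hx] at h2
  have h3 := lap_mul hS hU.smO (hg.mul hg) hx
  have h4 := lap_mul hS hg hg hx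
  have h5 := dot_mul (cd_at hS hg hx) (cd_at hS hg hx) U
  rw [h3, h4, dot_comm U, h5, hU.har x hx]
  rw [h2, hU.har x hx, dot_comm U] at h1
  linear_combination (-2 * g x) * h1

theorem kest_num {u g c0 c1 c2 lz z0 z1 w L M B E : ℝ} (hu : |u| ≤ M) (hg : |g| ≤ M)
    (h0 : |c0| ≤ 1) (hl : |lz| ≤ M) (h1 : |c1 * u| ≤ B) (hz1 : |z1| ≤ M) (hz0 : |z0| ≤ 1)
    (hw : |w| ≤ M) (hL : |L| ≤ M) (h2 : |c2 * u| ≤ E) :
    u * (g * g) * (c0 * lz + 2 * (c1 * (2 * z1 * u)) + z0 * (c2 * w)) + 2 * (c0 * z0 * g * L) ≤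
      (M ^ 4 + 4 * B * M ^ 4 + 2 * M ^ 2) + M ^ 3 * E := by
  have hM : 0 ≤ M := (abs_nonneg _).trans hu
  have hB : 0 ≤ B := (abs_nonneg _).trans h1
  have hE : 0 ≤ E := (abs_nonneg _).trans h2
  have t1 : u * g * g * c0 * lz ≤ M * M * M * 1 * M := by
    refine (le_abs_self _).trans ?_
    simp only [abs_mul]
    gcongr
  have t2 : u * g * g * (c1 * u) * z1 ≤ M * M * M * B * M := by
    refine (le_abs_self _).trans ?_
    rw [abs_mul, abs_mul, abs_mul, abs_mul]
    gcongr
  have t3 : g * g * z0 * (c2 * u) * w ≤ M * M * 1 * E * M := by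
    refine (le_abs_self _).trans ?_
    rw [abs_mul, abs_mul, abs_mul, abs_mul]
    gcongr
  have t4 : c0 * z0 * g * L ≤ 1 * 1 * M * M := by
    refine (le_abs_self _).trans ?_
    simp only [abs_mul]
    gcongr
  nlinarith [t1, t2, t3, t4]

theorem kest_d1 (c s : ℝ) : deriv (fun s => bt (c * s)) s = c * deriv bt (c * s) :=
  deriv_comp_mul_left c bt s

theorem kest_d2 (c s : ℝ) :
    deriv (deriv fun s => bt (c * s)) s = c * (c * deriv (deriv bt) (c * s)) := by
  rw [show (deriv fun s => bt (c * s)) = fun s => c * deriv bt (c * s) from funext (kest_d1 c),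
    deriv_const_mul_field]
  congr 1
  exact deriv_comp_mul_left c (deriv bt) s

theorem kest_sm (c : ℝ) : ContDiff ℝ ∞ fun s : ℝ => bt (c * s) :=
  bt_sm.comp (contDiff_const.mul contDiff_id)

theorem kest_lap (hU : Cone U) (hz : Rc z a b) (c : ℝ) (hx : x ∈ Om U) :
    lap (fun y => bt (c * U y) * rz z y) x = bt (c * U x) * lap (rz z) x +
      2 * (c * deriv bt (c * U x) * (2 * deriv z (‖x‖ ^ 2) * U x)) +
      z (‖x‖ ^ 2) * (c * (c * deriv (deriv bt) (c * U x)) * dot U U x) := by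
  have hS := hU.op
  have h1 : ContDiffOn ℝ ∞ (fun y => bt (c * U y)) (Om U) := (kest_sm c).comp_contDiffOn hU.smO
  have h2 := lap_comp (χ := fun s => bt (c * s)) isOpen_univ (kest_sm c).contDiffOn hS hU.smO hx
    (mem_univ _)
  have h3 := dot_comp (χ := fun s => bt (c * s)) (f := U) (x := x)
    ((kest_sm c).differentiable (by simp) _) (cd_at hS hU.smO hx) (rz z)
  rw [lap_mul hS h1 (rz_sm hz.sm).contDiffOn hx, h2, h3, dot_comm U,
    dot_rz (hz.sm.differentiable (by simp) _), hU.radU hx, hU.har x hx, kest_d1, kest_d2]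
  simp only [rz, mul_zero, add_zero]

theorem kest_pt (hU : Cone U) {C : ℝ} (hb : ∀ x ∈ Om U, |g x| ≤ C / ‖x‖) {L : V d → ℝ}
    (hL : ContinuousOn L {0}ᶜ) (hz : Rc z a b) (z0 : ∀ s, 0 ≤ z s) (z1 : ∀ s, z s ≤ 1) :
    ∃ K : ℝ, 0 ≤ K ∧ ∀ c : ℝ, 0 < c → ∀ x ∈ Om U,
      U x * (g x * g x) * lap (fun y => bt (c * U y) * rz z y) x +
        2 * (bt (c * U x) * rz z x * g x * L x) ≤
      (An U a b).indicator (fun _ => K) x + (Ly U a b (2 / c)).indicator (fun _ => K * c) x := by
  have ha := hz.pos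
  have hO : IsOpen ({0}ᶜ : Set (V d)) := isOpen_compl_singleton
  obtain ⟨B, hB, hbt⟩ := bt_bd
  obtain ⟨M1, p1, b1⟩ := bd_an hU.sm.continuousOn ha b
  obtain ⟨M2, p2, b2⟩ := bd_an (lap_sm hO (rz_sm hz.sm).contDiffOn : ContDiffOn ℝ ∞
    (lap (rz z : V d → ℝ)) _).continuousOn ha b
  obtain ⟨M3, p3, b3⟩ := hz.der.bd
  obtain ⟨M4, p4, b4⟩ := bd_an (dot_sm hO hU.sm hU.sm).continuousOn ha b
  obtain ⟨M5, p5, b5⟩ := bd_an hL ha b
  have p6 : 0 ≤ |C| / a := by positivity
  obtain ⟨M, hM⟩ : ∃ M, M = M1 + M2 + M3 + M4 + M5 + |C| / a := ⟨_, rfl⟩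
  have hM0 : 0 ≤ M := by rw [hM]; positivity
  obtain ⟨K1, hK1⟩ : ∃ K1, K1 = M ^ 4 + 4 * (2 * B) * M ^ 4 + 2 * M ^ 2 := ⟨_, rfl⟩
  have hK10 : 0 ≤ K1 := by rw [hK1]; positivity
  have hK20 : 0 ≤ M ^ 3 * (2 * B) := by positivity
  refine ⟨K1 + M ^ 3 * (2 * B), by positivity, fun c hc x hx => ?_⟩
  rw [kest_lap hU hz c hx]
  by_cases hA : a ≤ ‖x‖ ∧ ‖x‖ ≤ b
  · have hxA : x ∈ An U a b := ⟨hx.2, hA⟩
    have hu := hx.2
    have hg : |g x| ≤ M := by
      have : C / ‖x‖ ≤ |C| / a := by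
        gcongr
        · exact le_abs_self C
        · exact hA.1
      linarith [hb x hx]
    have hd1 : |c * deriv bt (c * U x) * U x| ≤ 2 * B := by
      by_cases h2 : 2 < c * U x
      · rw [(bt_dz (Or.inr h2)).1]
        simp only [mul_zero, zero_mul, abs_zero]
        positivity
      · rw [mul_right_comm, abs_mul, abs_of_pos (mul_pos hc hu)]
        have := (hbt (c * U x)).1
        gcongr
        exact not_lt.1 h2
    have key := fun E (hE : |c * (c * deriv (deriv bt) (c * U x)) * U x| ≤ E) =>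
      kest_num (M := M) (u := U x) (c0 := bt (c * U x)) (lz := lap (rz z) x)
        (z1 := deriv z (‖x‖ ^ 2)) (z0 := z (‖x‖ ^ 2)) (w := dot U U x) (L := L x)
        (by linarith [b1 x hA.1 hA.2]) hg
        (abs_le.2 ⟨by linarith [bt_nn (c * U x)], bt_le _⟩) (by linarith [b2 x hA.1 hA.2]) hd1
        (by linarith [b3 (‖x‖ ^ 2)]) (abs_le.2 ⟨by linarith [z0 (‖x‖ ^ 2)], z1 _⟩)
        (by linarith [b4 x hA.1 hA.2]) (by linarith [b5 x hA.1 hA.2]) hE
    rw [← hK1] at key
    rw [indicator_of_mem hxA]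
    by_cases h2 : 2 < c * U x
    · have h3 := key 0 (by rw [(bt_dz (Or.inr h2)).2]; simp)
      have h4 : 0 ≤ (Ly U a b (2 / c)).indicator (fun _ => (K1 + M ^ 3 * (2 * B)) * c) x :=
        indicator_nonneg (fun _ _ => by positivity) _
      simp only [rz]
      linarith
    · have hxL : x ∈ Ly U a b (2 / c) := ⟨hxA, by
        rw [le_div_iff₀ hc]
        linarith [not_lt.1 h2]⟩
      have h3 := key (2 * B * c) (by
        rw [show c * (c * deriv (deriv bt) (c * U x)) * U x =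
          c * U x * deriv (deriv bt) (c * U x) * c by ring, abs_mul, abs_mul,
          abs_of_pos (mul_pos hc hu), abs_of_pos hc]
        have := (hbt (c * U x)).2
        gcongr
        exact not_lt.1 h2)
      rw [indicator_of_mem hxL]
      simp only [rz]
      nlinarith [mul_nonneg hK10 hc.le]
  · have e0 : z (‖x‖ ^ 2) = 0 := by
      by_contra h0
      exact hA (hz.an h0)
    have e1 : deriv z (‖x‖ ^ 2) = 0 := by
      by_contra h0
      exact hA (hz.der.an h0)
    have e2 : deriv (deriv z) (‖x‖ ^ 2) = 0 := by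
      by_contra h0
      exact hA (hz.der.der.an h0)
    rw [lap_rz hz.sm.contDiffOn hx.1]
    simp only [rz, e0, e1, e2, mul_zero, zero_mul, add_zero]
    exact add_nonneg (indicator_nonneg (fun _ _ => by positivity) _)
      (indicator_nonneg (fun _ _ => by positivity) _)

theorem kest_bd (hU : Cone U) (hg : ContDiffOn ℝ ∞ g (Om U)) {C : ℝ}
    (hb : ∀ x ∈ Om U, |g x| ≤ C / ‖x‖) {L : V d → ℝ} (hL : ContinuousOn L {0}ᶜ)
    (hid : ∀ x ∈ Om U,
      lap (fun y => U y * (g y * g y)) x = 2 * (U x * dot g g x) - 2 * g x * L x)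
    (hz : Rc z a b) (z0 : ∀ s, 0 ≤ z s) (z1 : ∀ s, z s ≤ 1) :
    ∃ K : ℝ, ∀ c : ℝ, 0 < c →
      IntegrableOn (fun x => bt (c * U x) * rz z x * (2 * (U x * dot g g x))) (Om U) ∧
      ∫ x in Om U, bt (c * U x) * rz z x * (2 * (U x * dot g g x)) ≤ K := by
  have ha := hz.pos
  have hS := hU.op
  obtain ⟨K, hK, hpt⟩ := kest_pt hU hb hL hz z0 z1
  obtain ⟨C1, hC1, hv⟩ := vol_ly hU ha b
  refine ⟨volume.real (An U a b) * K + C1 * 2 * K, fun c hc => ?_⟩
  have hψ : ContDiffOn ℝ ∞ (fun y => bt (c * U y) * rz z y) (Om U) :=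
    ((kest_sm c).comp_contDiffOn hU.smO).mul (rz_sm hz.sm).contDiffOn
  have hcs : Cs (Om U) fun y => bt (c * U y) * rz z y := by
    refine hU.cs (b := b) ha (δ := 1 / c) (by positivity) fun y _ hy => ⟨?_, hz.an ?_⟩
    · by_contra hlt
      refine left_ne_zero_of_mul hy (bt_zero ?_)
      rw [not_le, lt_div_iff₀ hc] at hlt
      linarith
    · exact right_ne_zero_of_mul hy
  have hw : ContDiffOn ℝ ∞ (fun y => U y * (g y * g y)) (Om U) := hU.smO.mul (hg.mul hg)
  have i0 : IntegrableOn (fun x => bt (c * U x) * rz z x * (2 * (U x * dot g g x))) (Om U) :=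
    (hcs.mul _).int hS (hψ.continuousOn.mul (continuousOn_const.mul
      (hU.smO.continuousOn.mul (dot_sm hS hg hg).continuousOn)))
  have i1 : IntegrableOn (fun x => bt (c * U x) * rz z x *
      lap (fun y => U y * (g y * g y)) x) (Om U) :=
    (hcs.mul _).int hS (hψ.continuousOn.mul (lap_sm hS hw).continuousOn)
  have i2 : IntegrableOn (fun x => U x * (g x * g x) *
      lap (fun y => bt (c * U y) * rz z y) x) (Om U) :=
    ((hcs.lapC hS).mul' _).int hS (hw.continuousOn.mul (lap_sm hS hψ).continuousOn)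
  have i3 : IntegrableOn (fun x => 2 * (bt (c * U x) * rz z x * g x * L x)) (Om U) :=
    (((hcs.mul g).mul L).mul' fun _ => 2).int hS (continuousOn_const.mul
      ((hψ.continuousOn.mul hg.continuousOn).mul (hL.mono (om_sub U))))
  have mA := hU.an_meas (b := b) ha
  have mL := hU.ly_meas (b := b) ha (2 / c)
  have j1 : Integrable ((An U a b).indicator fun _ => K) :=
    (integrable_indicator_iff mA).2 (integrableOn_const (an_fin U a b))
  have j2 : Integrable ((Ly U a b (2 / c)).indicator fun _ => K * c) :=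
    (integrable_indicator_iff mL).2 (integrableOn_const
      (ne_top_of_le_ne_top (an_fin U a b) (measure_mono fun _ hy => hy.1)))
  refine ⟨i0, ?_⟩
  calc _ = ∫ x in Om U, (bt (c * U x) * rz z x * lap (fun y => U y * (g y * g y)) x +
        2 * (bt (c * U x) * rz z x * g x * L x)) := by
        refine setIntegral_congr_fun hS.measurableSet fun x hx => ?_
        simp only [hid x hx]
        ring
    _ = ∫ x in Om U, (U x * (g x * g x) * lap (fun y => bt (c * U y) * rz z y) x +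
        2 * (bt (c * U x) * rz z x * g x * L x)) := by
        rw [integral_add i1 i3, integral_add i2 i3, green2 hS hcs hψ hw]
    _ ≤ ∫ x in Om U, ((An U a b).indicator (fun _ => K) x +
        (Ly U a b (2 / c)).indicator (fun _ => K * c) x) :=
        setIntegral_mono_on (i2.add i3) (j1.add j2).integrableOn hS.measurableSet (hpt c hc)
    _ ≤ ∫ x, ((An U a b).indicator (fun _ => K) x +
        (Ly U a b (2 / c)).indicator (fun _ => K * c) x) :=
        setIntegral_le_integral (j1.add j2) (Eventually.of_forall fun x =>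
          add_nonneg (indicator_nonneg (fun _ _ => hK) _)
            (indicator_nonneg (fun _ _ => by positivity) _))
    _ = volume.real (An U a b) * K + volume.real (Ly U a b (2 / c)) * (K * c) := by
        rw [integral_add j1 j2, integral_indicator_const _ mA, integral_indicator_const _ mL]
        rfl
    _ ≤ volume.real (An U a b) * K + C1 * (2 / c) * (K * c) := by
        have := hv (2 / c) (by positivity)
        gcongr
    _ = _ := by field_simp

theorem kest_int (hU : Cone U) (hg : ContDiffOn ℝ ∞ g (Om U)) {C : ℝ}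
    (hb : ∀ x ∈ Om U, |g x| ≤ C / ‖x‖) {L : V d → ℝ} (hL : ContinuousOn L {0}ᶜ)
    (hid : ∀ x ∈ Om U,
      lap (fun y => U y * (g y * g y)) x = 2 * (U x * dot g g x) - 2 * g x * L x)
    (ha : 0 < a) (hab : a ≤ b) : IntegrableOn (fun x => U x * dot g g x) (An U a b) := by
  have hS := hU.op
  obtain ⟨z, hz, z0, z1, z2⟩ := exists_rc ha hab
  obtain ⟨K, hK⟩ := kest_bd hU hg hb hL hid hz z0 z1
  have hn : ∀ n : ℕ, (0 : ℝ) < n + 1 := fun n => by positivity
  have H := (fatou (μ := volume.restrict (Om U))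
    (G := fun (n : ℕ) x => bt (((n : ℝ) + 1) * U x) * rz z x * (2 * (U x * dot g g x)))
    (G₀ := fun x => rz z x * (2 * (U x * dot g g x))) (c := fun _ => K)
    (fun n => (hK _ (hn n)).1) (fun n => ?_) ?_ (fun n => (hK _ (hn n)).2) tendsto_const_nhds).1
  · have H2 : IntegrableOn (fun x => 2⁻¹ * (rz z x * (2 * (U x * dot g g x)))) (An U a b) :=
      IntegrableOn.mono_set (H.const_mul 2⁻¹) (an_sub ha)
    refine H2.congr_fun (fun x hx => ?_) (hU.an_meas ha)
    have : z (‖x‖ ^ 2) = 1 :=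
      z2 _ (pow_le_pow_left₀ ha.le hx.2.1 2) (pow_le_pow_left₀ (norm_nonneg _) hx.2.2 2)
    simp only [rz, this]
    ring
  · refine (ae_restrict_mem hS.measurableSet).mono fun x hx => ?_
    exact mul_nonneg (mul_nonneg (bt_nn _) (z0 _))
      (mul_nonneg zero_le_two (mul_nonneg hx.2.le (dot_nonneg g x)))
  · refine (ae_restrict_mem hS.measurableSet).mono fun x hx => ?_
    refine tendsto_const_nhds.congr' ?_
    filter_upwards [eventually_ge_atTop ⌈2 / U x⌉₊] with n hn'
    have h1 : 2 / U x ≤ n := Nat.ceil_le.1 hn'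
    have h2 := hx.2
    rw [div_le_iff₀ h2] at h1
    rw [bt_one (by nlinarith), one_mul]

theorem gd_of (hU : Cone U) (hθ : Cut U θ) (hh : Hr U h) {C : ℝ}
    (hb : ∀ x ∈ Om U, |h x - θ x| ≤ C * (U x / ‖x‖)) :
    Gd U h fun x => (h x - θ x) / U x := by
  have hS := hU.op
  have hθs : ContDiffOn ℝ ∞ θ (Om U) := hθ.sm.mono (om_sub U)
  have hg : ContDiffOn ℝ ∞ (fun x => (h x - θ x) / U x) (Om U) :=
    (hh.sm.sub hθs).div hU.smO fun x hx => hx.2.ne'
  have e : ∀ y ∈ Om U, h y - θ y = U y * ((h y - θ y) / U y) := fun y hy => by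
    have := hy.2.ne'
    field_simp
  have hb' : ∀ x ∈ Om U, |(h x - θ x) / U x| ≤ C / ‖x‖ := fun x hx => by
    rw [abs_div, abs_of_pos hx.2, div_le_iff₀ hx.2]
    refine (hb x hx).trans (le_of_eq ?_)
    ring
  refine ⟨hg, ⟨C, hb'⟩, ?_, fun a b ha => ?_⟩
  · obtain ⟨η, hη, hd⟩ := hθ.dz
    refine ⟨η, hη, fun x hx hlt i => ?_⟩
    have h1 := D_congr_on hS e hx i
    rw [D_sub (cd_at hS hh.sm hx) (cd_at hS hθs hx), D_mul (cd_at hS hU.smO hx) (cd_at hS hg hx),
      (hd x hx.1 hlt).1 i] at h1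
    linarith
  · refine (kest_int (b := max a b) hU hg hb' (lap_sm isOpen_compl_singleton hθ.sm).continuousOn
      (fun x hx => kest_id hU hg hθs hh e hx) ha (le_max_left _ _)).mono_set fun x hx => ?_
    exact ⟨hx.1, hx.2.1, hx.2.2.trans (le_max_right _ _)⟩

end Vale.Agent.P098
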