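import Vale.Agent.P098.Cut

/-! A function with the boundary values of a cut function is not locally constant. -/

open MeasureTheory Set Filter Topology Metric
open scoped ContDiff RealInnerProductSpace

noncomputable section

namespace Vale.Agent.P098

variable {d : ℕ} {S : Set (V d)} {U f g h k m F θ φ : V d → ℝ} {x : V d} {a b : ℝ}
  {z χ : ℝ → ℝ}

theorem nontriv (hd : 2 ≤ d) (hU : Cone U) (hθ : Cut U θ) (hs : ContDiffOn ℝ ∞ h (Om U)) {C : ℝ}
    (hb : ∀ x ∈ Om U, |h x - θ x| ≤ C * (U x / ‖x‖)) : ∃ x ∈ Om U, dot h h x ≠ 0 := by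
  classical
  by_contra! H
  have h0 : ∀ x ∈ Om U, fderiv ℝ h x = 0 := fun x hx => ContinuousLinearMap.ext fun v => by
    have h1 := (Finset.sum_eq_zero_iff_of_nonneg fun i _ => mul_self_nonneg (D i h x)).1 (H x hx)
    rw [fderiv_eq_sum]
    exact Finset.sum_eq_zero fun i hi => by rw [mul_self_eq_zero.1 (h1 i hi), mul_zero]
  obtain ⟨η, hη, hl⟩ := hθ.loc
  let G : V d → ℝ := fun x => if x ∈ Om U then h x else θ x
  have hc : ContinuousOn (fun x => decide (G x < 1 / 2)) {0}ᶜ := fun x hx => by
    refine ContinuousAt.continuousWithinAt ?_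
    by_cases hx' : x ∈ Om U
    · obtain ⟨r, hr, hB⟩ := Metric.isOpen_iff.1 hU.op x hx'
      refine EventuallyEq.continuousAt (y := decide (h x < 1 / 2)) ?_
      filter_upwards [ball_mem_nhds x hr] with y hy
      simp only [G, if_pos (hB hy), isOpen_ball.is_const_of_fderiv_eq_zero
        (convex_ball x r).isPreconnected ((hs.differentiableOn (by simp)).mono hB)
        (fun y hy => h0 y (hB hy)) hy (mem_ball_self hr)]
    · have h1 : U x ≤ 0 := not_lt.1 fun e => hx' ⟨hx, e⟩
      have h2 : ContinuousAt (fun y => |C| * (max (U y) 0 / ‖y‖)) x :=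
        continuousAt_const.mul (((hU.sm.continuousOn.continuousAt
          (isOpen_compl_singleton.mem_nhds hx)).max continuousAt_const).div
          continuous_norm.continuousAt (norm_ne_zero_iff.2 hx))
      have h3 : ∀ᶠ y in 𝓝 x, |G y - θ y| < 1 / 2 := by
        filter_upwards [h2.eventually_lt_const (u := 1 / 2) (by simp [max_eq_right h1])] with y hy
        by_cases hy' : y ∈ Om U
        · rw [max_eq_left hy'.2.le] at hy
          simp only [G, if_pos hy']
          exact ((hb y hy').trans (mul_le_mul_of_nonneg_right (le_abs_self C)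
            (div_nonneg hy'.2.le (norm_nonneg _)))).trans_lt hy
        · simp [G, hy']
      rcases hl x hx (h1.trans_lt (mul_pos hη (norm_pos_iff.2 hx))) with e | e
      · refine EventuallyEq.continuousAt (y := true) ?_
        filter_upwards [e, h3] with y a b
        exact decide_eq_true (by linarith [(abs_lt.1 b).2])
      · refine EventuallyEq.continuousAt (y := false) ?_
        filter_upwards [e, h3] with y a b
        exact decide_eq_false (not_lt.2 (by linarith [(abs_lt.1 b).1]))
  obtain ⟨x₀, a0, b0⟩ := hθ.ex0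
  obtain ⟨x₁, a1, b1⟩ := hθ.ex1
  have h4 := (isConnected_compl_singleton_of_one_lt_rank (E := V d) (by
    rw [← Module.finrank_eq_rank, finrank_euclideanSpace_fin]
    exact_mod_cast hd) 0).isPreconnected.constant hc a0.1 a1.1
  have n0 : x₀ ∉ Om U := fun e => e.2.not_ge a0.2
  have n1 : x₁ ∉ Om U := fun e => e.2.not_ge a1.2
  norm_num [G, n0, n1, b0, b1] at h4

end Vale.Agent.P098
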