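import Vale.Agent.P098.Chi

/-! Polar coordinates. -/

open MeasureTheory Set Filter Topology Metric
open scoped ContDiff RealInnerProductSpace

noncomputable section

namespace Vale.Agent.P098

variable {d : ℕ} {S : Set (V d)} {U f g h k m F θ φ : V d → ℝ} {x : V d} {a b : ℝ}
  {z χ : ℝ → ℝ}

theorem polar (hd : 0 < d) (hS : Cn S) {n : ℤ} (H : Hom S n f) : ∃ c : ℝ, ∀ ρ : ℝ → ℝ,
    ∫ x in S, f x * ρ ‖x‖ = c * ∫ r in Ioi (0 : ℝ), r ^ (d - 1) * (r ^ n * ρ r) := by
  haveI : Nontrivial (V d) := Module.nontrivial_of_finrank_pos (R := ℝ) (by simpa using hd)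
  have hdim : Module.finrank ℝ (V d) = d := by simp
  refine ⟨∫ y : sphere (0 : V d) 1, S.indicator f y ∂(volume : Measure (V d)).toSphere, fun ρ => ?_⟩
  have e1 : ∀ x : ({(0)}ᶜ : Set (V d)), S.indicator (fun x => f x * ρ ‖x‖) x.1 =
      (fun q : sphere (0 : V d) 1 × Ioi (0 : ℝ) => S.indicator f q.1 * (q.2.1 ^ n * ρ q.2))
        (homeomorphUnitSphereProd (V d) x) := by
    intro x
    have hx : 0 < ‖x.1‖ := norm_pos_iff.2 x.2
    have e : ‖x.1‖ • (‖x.1‖⁻¹ • x.1) = x.1 := smul_inv_smul₀ hx.ne' _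
    simp only [homeomorphUnitSphereProd_apply_fst_coe, homeomorphUnitSphereProd_apply_snd_coe]
    by_cases h : x.1 ∈ S
    · have h1 := hS.smul _ (inv_pos.2 hx) _ h
      have h2 := H _ hx _ h1
      rw [e] at h2
      rw [indicator_of_mem h, indicator_of_mem h1, h2]
      ring
    · have h1 : ‖x.1‖⁻¹ • x.1 ∉ S := fun h1 => h (e ▸ hS.smul _ hx _ h1)
      rw [indicator_of_notMem h, indicator_of_notMem h1, zero_mul]
  calc ∫ x in S, f x * ρ ‖x‖ = ∫ x, S.indicator (fun x => f x * ρ ‖x‖) x :=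
        (integral_indicator hS.op.measurableSet).symm
    _ = ∫ x : ({(0)}ᶜ : Set (V d)), S.indicator (fun x => f x * ρ ‖x‖) x.1
          ∂((volume : Measure (V d)).comap (↑)) := by
        rw [integral_subtype_comap (measurableSet_singleton _).compl, restrict_compl_singleton]
    _ = ∫ q : sphere (0 : V d) 1 × Ioi (0 : ℝ), S.indicator f q.1 * (q.2.1 ^ n * ρ q.2)
          ∂(volume : Measure (V d)).toSphere.prod
            (.volumeIoiPow (Module.finrank ℝ (V d) - 1)) := by
        simp only [e1]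
        exact (volume : Measure (V d)).measurePreserving_homeomorphUnitSphereProd.integral_comp
          (Homeomorph.measurableEmbedding _)
          (fun q : sphere (0 : V d) 1 × Ioi (0 : ℝ) => S.indicator f q.1 * (q.2.1 ^ n * ρ q.2))
    _ = _ := by
        rw [integral_prod_mul (fun y : sphere (0 : V d) 1 => S.indicator f y)
          (fun r : Ioi (0 : ℝ) => r.1 ^ n * ρ r), hdim]
        congr 1
        simp only [Measure.volumeIoiPow, ENNReal.ofReal]
        rw [integral_withDensity_eq_integral_smul,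
          integral_subtype_comap measurableSet_Ioi
            fun a => Real.toNNReal (a ^ (d - 1)) • (a ^ n * ρ a),
          setIntegral_congr_fun measurableSet_Ioi fun x hx => ?_]
        · rw [NNReal.smul_def, Real.coe_toNNReal _ (pow_nonneg hx.out.le _), smul_eq_mul]
        · exact (measurable_subtype_coe.pow_const _).real_toNNReal

theorem exact_int (hd : 3 ≤ d) (hz : Rc z a b) :
    ∫ r in Ioi (0 : ℝ), r ^ (d - 1) * (r ^ (-2 : ℤ) * (4 * r ^ 2 * deriv (deriv z) (r ^ 2) +
      (2 * d - 4) * deriv z (r ^ 2))) = 0 := by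
  obtain ⟨e, rfl⟩ : ∃ e, d = e + 3 := ⟨d - 3, by omega⟩
  have s1 : ContDiff ℝ ∞ (deriv z) := (contDiff_infty_iff_deriv.1 hz.sm).2
  have s2 : ContDiff ℝ ∞ (deriv (deriv z)) := (contDiff_infty_iff_deriv.1 s1).2
  have hb : 0 < b := hz.pos.trans_le hz.le
  have z0 : ∀ s, b ^ 2 < s → deriv z =ᶠ[𝓝 s] fun _ => 0 := by
    intro s hs
    filter_upwards [(lt_mem_nhds hs).eventually_nhds] with t ht
    have : z =ᶠ[𝓝 t] fun _ => 0 := ht.mono fun u hu => by
      by_contra h
      exact absurd (hz.supp u h).2 (not_le.2 hu)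
    rw [this.deriv_eq, deriv_const]
  have z1 : ∀ r, b < r → deriv z (r ^ 2) = 0 ∧ deriv (deriv z) (r ^ 2) = 0 := by
    intro r hr
    have := z0 (r ^ 2) (by gcongr)
    exact ⟨this.self_of_nhds, by rw [this.deriv_eq, deriv_const]⟩
  have hD : ∀ r : ℝ, HasDerivAt (fun r : ℝ => 2 * r ^ (e + 1) * deriv z (r ^ 2))
      (r ^ e * (4 * r ^ 2 * deriv (deriv z) (r ^ 2) + (2 * e + 2) * deriv z (r ^ 2))) r := by
    intro r
    have h1 := ((s1.differentiable (by simp)) (r ^ 2)).hasDerivAt.comp r (hasDerivAt_pow 2 r)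
    refine (((hasDerivAt_pow (e + 1) r).const_mul 2).mul h1).congr_deriv ?_
    simp only [Function.comp_apply, Nat.add_sub_cancel]
    push_cast
    ring
  have hc : Continuous fun r : ℝ =>
      r ^ e * (4 * r ^ 2 * deriv (deriv z) (r ^ 2) + (2 * e + 2) * deriv z (r ^ 2)) := by
    have := s1.continuous
    have := s2.continuous
    fun_prop
  have hi : IntegrableOn (fun r : ℝ =>
      r ^ e * (4 * r ^ 2 * deriv (deriv z) (r ^ 2) + (2 * e + 2) * deriv z (r ^ 2))) (Ioi 0) := by
    refine ((hc.integrableOn_Icc (a := 0) (b := b)).of_forall_diff_eq_zero measurableSet_Ioi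
      fun r hr => ?_)
    have h1 : b < r := not_le.1 fun h => hr.2 ⟨le_of_lt hr.1, h⟩
    rw [(z1 r h1).1, (z1 r h1).2]
    simp
  have ht : Tendsto (fun r : ℝ => 2 * r ^ (e + 1) * deriv z (r ^ 2)) atTop (𝓝 0) := by
    refine tendsto_const_nhds.congr' ?_
    filter_upwards [eventually_gt_atTop b] with r hr
    rw [(z1 r hr).1, mul_zero]
  have h := integral_Ioi_of_hasDerivAt_of_tendsto (hD 0).continuousAt.continuousWithinAt
    (fun r _ => hD r) hi ht
  rw [setIntegral_congr_fun measurableSet_Ioi (g := fun r : ℝ =>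
    r ^ e * (4 * r ^ 2 * deriv (deriv z) (r ^ 2) + (2 * e + 2) * deriv z (r ^ 2))) fun r hr => ?_, h]
  · simp
  · have hr0 : r ≠ 0 := ne_of_gt hr
    simp only [show e + 3 - 1 = e + 2 from rfl, zpow_neg, zpow_ofNat]
    push_cast
    field_simp
    ring

end Vale.Agent.P098
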