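import Vale.Agent.P098.Key
import Vale.Agent.P098.Alg
import Vale.Agent.P098.Polar
import Vale.Agent.P098.Hardy
import Vale.Agent.P098.Nontriv
import Vale.Agent.P098.Ex
import Vale.Agent.P098.Kest

open MeasureTheory Set Filter Topology Metric
open scoped ContDiff RealInnerProductSpace

noncomputable section

namespace Vale.Agent.P098

variable {d : ℕ} {S : Set (V d)} {U f g h k m F θ φ : V d → ℝ} {x : V d} {a b : ℝ}
  {z χ : ℝ → ℝ}

theorem conn_an (hU : Cone U) (ha : 0 < a) (hF : IntegrableOn F (An U a b)) :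
    IntegrableOn (fun x => F x / ‖x‖ ^ 2) (An U a b) := by
  simp only [div_eq_mul_inv]
  refine Integrable.mul_bdd (c := (a ^ 2)⁻¹) hF (Measurable.aestronglyMeasurable (by fun_prop))
    (ae_restrict_of_forall_mem (hU.an_meas ha) fun x hx => ?_)
  rw [Real.norm_eq_abs, abs_of_nonneg (by positivity)]
  exact inv_anti₀ (by positivity) (pow_le_pow_left₀ ha.le hx.2.1 2)

theorem conn_int (hU : Cone U) (hz : Rc z a b) (hF : IntegrableOn F (An U a b)) :
    IntegrableOn (fun x => F x * z (‖x‖ ^ 2) ^ 2) (Om U) := by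
  obtain ⟨C, -, hC⟩ := hz.sq.bd
  have hc : Continuous fun x : V d => z (‖x‖ ^ 2) ^ 2 :=
    (hz.sm.continuous.comp (continuous_norm.pow 2)).pow 2
  refine int_om hU hz.pos (fun x _ h0 => hz.an fun e => h0 ?_)
    (Integrable.mul_bdd (c := C) hF hc.aestronglyMeasurable (Eventually.of_forall fun x => hC _))
  rw [e]
  simp

theorem conn_kd (hU : Cone U) (hh : Hr U h) (hg : Gd U h g) (ha : 0 < a) (b : ℝ) :
    IntegrableOn (kd h) (An U a b) :=
  ((hsq_int hU hh hg ha b).sub (kato_int hU hh hg ha b)).sub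
    (conn_an hU ha (w_int hU hh hg ha b))

theorem conn_pos (h3 : 3 ≤ d) (hU : Cone U) (hh : Hr U h) (hg : Gd U h g)
    (h0 : ∃ x ∈ Om U, dot h h x ≠ 0) :
    ∃ z : ℝ → ℝ, 0 < ∫ x in Om U, kd h x * z (‖x‖ ^ 2) ^ 2 := by
  obtain ⟨x, hx, h1, h2⟩ := kd_pos h3 hU hh h0
  have hn : 0 < ‖x‖ := norm_pos_iff.2 hx.1
  obtain ⟨z, hz, -, -, h4⟩ := exists_rc hn le_rfl
  refine ⟨z, (setIntegral_pos_iff_support_of_nonneg_ae
    (ae_restrict_of_forall_mem hU.op.measurableSet fun y hy =>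
      mul_nonneg (kd_nonneg hU hh hy) (sq_nonneg _))
    (conn_int hU hz (conn_kd hU hh hg hz.pos _))).2 ?_⟩
  have hx' := hU.op.mem_nhds hx
  have hw := dot_sm hU.op hh.sm hh.sm
  have c1 : ContinuousAt (dot h h) x := hw.continuousOn.continuousAt hx'
  have c2 : ContinuousAt (kd h) x :=
    (((hsq_sm hU.op hh.sm).continuousOn.continuousAt hx').sub
      (((dot_sm hU.op hw hw).continuousOn.continuousAt hx').div (continuousAt_const.mul c1)
        (mul_ne_zero four_ne_zero h1))).sub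
      (c1.div (continuous_norm.pow 2).continuousAt (pow_pos hn 2).ne')
  have c3 : ContinuousAt (fun y : V d => kd h y * z (‖y‖ ^ 2) ^ 2) x :=
    c2.mul ((hz.sm.continuous.comp (continuous_norm.pow 2)).pow 2).continuousAt
  refine Measure.measure_pos_of_mem_nhds _ (inter_mem (c3.eventually_ne (y := 0) ?_) hx')
  rw [h4 _ le_rfl le_rfl, one_pow, mul_one]
  exact h2.ne'

theorem no_hr (h3 : 3 ≤ d) (h6 : d ≤ 6) (hU : Cone U) (hs : Stab U) (hh : Hr U h) (hg : Gd U h g)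
    (h0 : ∃ x ∈ Om U, dot h h x ≠ 0) : False := by
  have Hw : Hom (Om U) (-2) (dot h h) := Hom.dotH hU.cn hh.sm hh.sm hh.hom hh.hom
  obtain ⟨cw, hw⟩ := polar (by omega) hU.cn Hw
  obtain ⟨ck, hk⟩ := polar (by omega) hU.cn (kd_hom hU hh)
  have a1 : ∀ l : ℝ, 0 < l → 0 ≤ cw ∧ ck ≤ l * cw := fun l hl => by
    obtain ⟨z, a, b, hz, hn, h1, h2⟩ := hardy h3 h6 hl
    have b1 := hk fun r => z (r ^ 2) ^ 2
    have b2 : ∫ x in Om U, dot h h x / ‖x‖ ^ 2 * z (‖x‖ ^ 2) ^ 2 =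
        cw * ∫ r in Ioi (0 : ℝ), r ^ (d - 1) * (r ^ (-4 : ℤ) * z (r ^ 2) ^ 2) := by
      have b3 := hw fun r => (r ^ 2)⁻¹ * z (r ^ 2) ^ 2
      simp only [← mul_assoc, ← div_eq_mul_inv] at b3
      rw [b3]
      congr 1
      refine setIntegral_congr_fun measurableSet_Ioi fun r hr => ?_
      have b4 : r ≠ 0 := ne_of_gt hr
      simp only [zpow_neg, zpow_ofNat]
      field_simp
    have b4 := key hU hs hh hg hz hn
    have b5 := hw fun r => 4 * r ^ 2 * deriv z (r ^ 2) ^ 2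
    have b6 := hw fun r => 4 * r ^ 2 * deriv (deriv fun s => z s ^ 2) (r ^ 2) +
      (2 * d - 4) * deriv (fun s => z s ^ 2) (r ^ 2)
    rw [exact_int h3 hz.sq, mul_zero] at b6
    have b7 : ∫ x in Om U, z (‖x‖ ^ 2) ^ 2 *
        (hsq h x - dot (dot h h) (dot h h) x / (4 * dot h h x)) =
        (∫ x in Om U, kd h x * z (‖x‖ ^ 2) ^ 2) +
          ∫ x in Om U, dot h h x / ‖x‖ ^ 2 * z (‖x‖ ^ 2) ^ 2 := by
      rw [← integral_add (conn_int hU hz (conn_kd hU hh hg hz.pos b))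
        (conn_int hU hz (conn_an hU hz.pos (w_int hU hh hg hz.pos b)))]
      refine integral_congr_ae (Eventually.of_forall fun x => ?_)
      simp only [kd]
      ring
    have b8 : 0 ≤ cw := by
      refine nonneg_of_mul_nonneg_left (b2 ▸ integral_nonneg fun x => ?_) h1
      exact mul_nonneg (div_nonneg (dot_nonneg h x) (sq_nonneg _)) (sq_nonneg _)
    rw [b7, b1, b2, b5, b6] at b4
    have b9 := mul_le_mul_of_nonneg_left h2 b8
    exact ⟨b8, le_of_mul_le_mul_right (by linarith) h1⟩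
  have a2 : ck ≤ 0 := by
    refine le_of_forall_pos_le_add fun ε hε => ?_
    have b1 := (a1 1 one_pos).1
    have b2 := (a1 (ε / (cw + 1)) (by positivity)).2
    have b3 : ε / (cw + 1) * cw ≤ ε := by
      rw [div_mul_eq_mul_div, div_le_iff₀ (by positivity)]
      linarith
    linarith
  obtain ⟨z, hz⟩ := conn_pos h3 hU hh hg h0
  rw [hk fun r => z (r ^ 2) ^ 2] at hz
  refine absurd hz (not_lt.2 (mul_nonpos_of_nonpos_of_nonneg a2
    (setIntegral_nonneg measurableSet_Ioi fun r hr => ?_)))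
  have b1 : 0 < r := hr
  positivity

theorem conn (h3 : 3 ≤ d) (h6 : d ≤ 6) (hU : Cone U) (hs : Stab U) : IsPreconnected (Zp U) := by
  by_contra hn
  obtain ⟨θ, hθ⟩ := exists_cut hU hn
  obtain ⟨h, hh, C, hb⟩ := exists_hr h3 hU hθ
  exact no_hr h3 h6 hU hs hh (gd_of hU hθ hh hb) (nontriv (by omega) hU hθ hh.sm hb)

end Vale.Agent.P098
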