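import Vale.Agent.P098.Green

/-! Segments towards the free boundary. -/

open MeasureTheory Set Filter Topology Metric
open scoped ContDiff RealInnerProductSpace

noncomputable section

namespace Vale.Agent.P098

variable {d : ℕ} {S : Set (V d)} {U f g h k m F θ φ : V d → ℝ} {x : V d} {a b : ℝ}
  {z χ : ℝ → ℝ}

theorem seg_ne (ha : 0 < a) (hx : a ≤ ‖x‖) : x ≠ 0 := norm_pos_iff.1 (ha.trans_le hx)

theorem seg_tay (U : V d → ℝ) (hf : ContDiffOn ℝ ∞ f {0}ᶜ) (ha : 0 < a) (b : ℝ) {l : ℝ}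
    (hl : 0 < l) : ∃ δ : ℝ, 0 < δ ∧ ∀ x, a ≤ ‖x‖ → ‖x‖ ≤ b → ‖gradient U x‖ ≤ 2 → ∀ τ, 0 ≤ τ →
      τ ≤ δ → x - τ • gradient U x ≠ 0 ∧
        |f (x - τ • gradient U x) - f x + τ * dot f U x| ≤ l * τ := by
  have hK : IsCompact (closedBall (0 : V d) b ∩ {x | a ≤ ‖x‖}) :=
    (isCompact_closedBall 0 b).inter_right (isClosed_le continuous_const continuous_norm)
  obtain ⟨ε, hε, h1⟩ := Metric.mem_uniformity_dist.1 (hK.uniformContinuousAt_of_continuousAt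
    (fderiv ℝ f) (fun x hx => (hf.continuousOn_fderiv_of_isOpen isOpen_compl_singleton
      (by simp)).continuousAt (isOpen_compl_singleton.mem_nhds (seg_ne ha hx.2)))
    (Metric.dist_mem_uniformity (half_pos hl)))
  refine ⟨min a ε / 4, by positivity, fun x h2 h3 h4 τ h5 h6 => ?_⟩
  have h7 : ∀ y ∈ closedBall x (min a ε / 2), y ≠ 0 ∧ ‖fderiv ℝ f y - fderiv ℝ f x‖ ≤ l / 2 := by
    intro y hy
    have h8 := min_le_left a ε
    have h9 := min_le_right a ε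
    rw [mem_closedBall'] at hy
    refine ⟨?_, ?_⟩
    · rintro rfl
      rw [dist_zero_right] at hy
      linarith
    · rw [← dist_eq_norm']
      exact le_of_lt (h1 (a := x) (b := y) (by linarith) ⟨mem_closedBall_zero_iff.2 h3, h2⟩)
  have h10 : ‖x - τ • gradient U x - x‖ ≤ τ * 2 := by
    rw [sub_sub_cancel_left, norm_neg, norm_smul, Real.norm_of_nonneg h5]
    exact mul_le_mul_of_nonneg_left h4 h5
  have h11 : x - τ • gradient U x ∈ closedBall x (min a ε / 2) :=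
    mem_closedBall_iff_norm.2 (by linarith)
  have h12 := (convex_closedBall x _).norm_image_sub_le_of_norm_hasFDerivWithin_le'
    (fun y hy => (cd_at isOpen_compl_singleton hf (h7 y hy).1).hasFDerivAt.hasFDerivWithinAt)
    (fun y hy => (h7 y hy).2) (mem_closedBall_self (by positivity)) h11
  have e : fderiv ℝ f x (gradient U x) = dot f U x := by
    simp only [fderiv_eq_sum, grad_apply, dot, mul_comm]
  refine ⟨(h7 _ h11).1, le_trans (le_of_eq ?_) (h12.trans (by nlinarith))⟩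
  rw [sub_sub_cancel_left, map_neg, map_smul, e, sub_neg_eq_add, smul_eq_mul, Real.norm_eq_abs]

theorem small0 (hU : Cone U) (hf : ContinuousOn f {0}ᶜ) (h0 : ∀ x, x ≠ 0 → U x = 0 → f x = 0)
    (ha : 0 < a) (b : ℝ) {l : ℝ} (hl : 0 < l) :
    ∃ η : ℝ, 0 < η ∧ ∀ x ∈ Ly U a b η, |f x| ≤ l := by
  have h1 : {x | 0 ≤ U x ∧ a ≤ ‖x‖ ∧ ‖x‖ ≤ b} ⊆ {0}ᶜ := fun x hx => seg_ne ha hx.2.1
  obtain ⟨η, hη, h2⟩ := (hU.cpt (b := b) ha 0).exists_forall_le' (a := 0)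
    (f := fun x => U x + max (l - |f x|) 0) ((hU.sm.continuousOn.mono h1).add
      ((continuousOn_const.sub (hf.mono h1).abs).sup continuousOn_const)) fun x hx => by
    rcases hx.1.eq_or_lt with h | h
    · simp [h0 x (h1 hx) h.symm, ← h, hl]
    · exact add_pos_of_pos_of_nonneg h (le_max_right _ _)
  refine ⟨η / 2, half_pos hη, fun x hx => not_lt.1 fun h => ?_⟩
  have h3 := h2 x ⟨hx.1.1.le, hx.1.2⟩
  simp only [max_eq_right (sub_nonpos.2 h.le)] at h3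
  linarith [hx.2]

theorem seg (hU : Cone U) (ha : 0 < a) (b : ℝ) : ∃ η : ℝ, 0 < η ∧ 8 * η ≤ a ∧ ∀ x ∈ Ly U a b η,
    ‖gradient U x‖ ≤ 2 ∧ ∃ τ : ℝ, 0 ≤ τ ∧ τ ≤ 2 * U x ∧ U (x - τ • gradient U x) = 0 := by
  obtain ⟨η, hη, h1⟩ := small0 hU (f := fun x => dot U U x - 1)
    ((dot_sm isOpen_compl_singleton hU.sm hU.sm).continuousOn.sub continuousOn_const)
    (fun x hx h => sub_eq_zero.2 (hU.fb x hx h)) ha b (l := 1 / 4) (by norm_num)
  obtain ⟨δ, hδ, h2⟩ := seg_tay U hU.sm ha b (l := 1 / 4) (by norm_num)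
  refine ⟨min (min η (δ / 2)) (a / 8), by positivity,
    by linarith [min_le_right (min η (δ / 2)) (a / 8)], fun x hx => ?_⟩
  obtain ⟨h3, h4⟩ := le_min_iff.1 (le_min_iff.1 hx.2).1
  have h5 := abs_le.1 (h1 x ⟨hx.1, h3⟩)
  have h6 : ‖gradient U x‖ ≤ 2 := by
    rw [dot_self] at h5
    nlinarith [h5.2]
  have h7 := h2 x hx.1.2.1 hx.1.2.2 h6
  have h8 : 0 ≤ 2 * U x := by linarith [hx.1.1]
  obtain ⟨τ, hτ, h9⟩ := intermediate_value_Icc' h8 (f := fun τ => U (x - τ • gradient U x))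
    (hU.sm.continuousOn.comp (by fun_prop) fun τ hτ => (h7 τ hτ.1 (by linarith [hτ.2])).1)
    (show (0 : ℝ) ∈ Icc _ _ from ⟨by
      nlinarith [(abs_le.1 (h7 _ h8 (by linarith)).2).2, mul_le_mul_of_nonneg_left h5.1 h8],
      by simpa using hx.1.1.le⟩)
  exact ⟨h6, τ, hτ.1, hτ.2, h9⟩

theorem small1 (hU : Cone U) (hf : ContDiffOn ℝ ∞ f {0}ᶜ)
    (h0 : ∀ x, x ≠ 0 → U x = 0 → f x = 0 ∧ dot f U x = 0) (ha : 0 < a) (b : ℝ) {l : ℝ}
    (hl : 0 < l) : ∃ η : ℝ, 0 < η ∧ ∀ x ∈ Ly U a b η, |f x| ≤ l * U x := by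
  obtain ⟨η₀, hη₀, -, h1⟩ := seg hU ha b
  obtain ⟨η, hη, h2⟩ := small0 hU (dot_sm isOpen_compl_singleton hf hU.sm).continuousOn
    (fun x hx h => (h0 x hx h).2) ha b (l := l / 4) (by positivity)
  obtain ⟨δ, hδ, h3⟩ := seg_tay U hf ha b (l := l / 4) (by positivity)
  refine ⟨min η₀ (min η (δ / 2)), by positivity, fun x hx => ?_⟩
  obtain ⟨h4, h5⟩ := le_min_iff.1 hx.2
  obtain ⟨h5, h6⟩ := le_min_iff.1 h5
  obtain ⟨h7, τ, h8, h9, h10⟩ := h1 x ⟨hx.1, h4⟩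
  obtain ⟨h11, h12⟩ := h3 x hx.1.2.1 hx.1.2.2 h7 τ h8 (by linarith)
  rw [(h0 _ h11 h10).1, abs_le] at h12
  have h13 := abs_le.1 (h2 x ⟨hx.1, h5⟩)
  have h14 := mul_le_mul_of_nonneg_left h9 hl.le
  rw [abs_le]
  constructor <;> nlinarith [mul_le_mul_of_nonneg_left h13.1 h8, mul_le_mul_of_nonneg_left h13.2 h8]

theorem le_U (hU : Cone U) (hf : ContDiffOn ℝ ∞ f {0}ᶜ) (h0 : ∀ x, x ≠ 0 → U x = 0 → f x ≤ 0)
    (ha : 0 < a) (b : ℝ) : ∃ C : ℝ, 0 < C ∧ ∀ x ∈ An U a b, f x ≤ C * U x := by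
  obtain ⟨η₀, hη₀, -, h1⟩ := seg hU ha b
  obtain ⟨δ, hδ, h3⟩ := seg_tay U hf ha b one_pos
  obtain ⟨C₁, hC₁, h4⟩ := bd_an (dot_sm isOpen_compl_singleton hf hU.sm).continuousOn ha b
  obtain ⟨C₂, hC₂, h5⟩ := bd_an hf.continuousOn ha b
  obtain ⟨η, hη, h6, h7⟩ : ∃ η, 0 < η ∧ η ≤ η₀ ∧ η ≤ δ / 2 :=
    ⟨min η₀ (δ / 2), by positivity, min_le_left _ _, min_le_right _ _⟩
  refine ⟨(C₁ + 1) * 2 + C₂ / η, by positivity, fun x hx => ?_⟩
  have h8 : 0 < U x := hx.1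
  rw [add_mul]
  rcases le_total (U x) η with h | h
  · obtain ⟨h9, τ, h10, h11, h12⟩ := h1 x ⟨hx, h.trans h6⟩
    obtain ⟨h13, h14⟩ := h3 x hx.2.1 hx.2.2 h9 τ h10 (by linarith)
    have h15 := mul_le_mul_of_nonneg_left (abs_le.1 (h4 x hx.2.1 hx.2.2)).2 h10
    have h16 := mul_le_mul_of_nonneg_left h11 (show 0 ≤ C₁ + 1 by positivity)
    have h17 : 0 ≤ C₂ / η * U x := by positivity
    linarith [h0 _ h13 h12, (abs_le.1 h14).1]
  · have h9 := mul_le_mul_of_nonneg_left h (div_pos hC₂ hη).le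
    rw [div_mul_cancel₀ _ hη.ne'] at h9
    have h10 : 0 ≤ (C₁ + 1) * 2 * U x := by positivity
    linarith [(abs_le.1 (h5 x hx.2.1 hx.2.2)).2]

end Vale.Agent.P098
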