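import Vale.Agent.P098.Gl
import Vale.Agent.P098.Seg

/-! The zero phase in a half-space. -/

open MeasureTheory Set Filter Topology Metric
open scoped ContDiff RealInnerProductSpace

noncomputable section

namespace Vale.Agent.P098

variable {d : ℕ} {S : Set (V d)} {U f g h k m F θ φ : V d → ℝ} {x : V d} {a b : ℝ}
  {z χ : ℝ → ℝ}

theorem flat_sm (e : V d) : ContDiff ℝ ∞ fun x : V d => ⟪x, e⟫ := contDiff_id.inner ℝ contDiff_const

theorem flat_cone {e : V d} (he : ‖e‖ = 1) : Cone fun x : V d => ⟪x, e⟫ := by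
  refine ⟨(flat_sm e).contDiffOn, fun t ht x _ => ?_, fun x _ => lap_inner e x, fun x _ _ => ?_⟩
  · rw [real_inner_smul_left, mul_max_of_nonneg _ _ ht.le, mul_zero]
  · simp only [dot, D_inner, ← sq]
    rw [← nsq_eq, he, one_pow]

theorem flat_mem {e : V d} : x ∈ Om (fun x : V d => ⟪x, e⟫) ↔ 0 < ⟪x, e⟫ :=
  ⟨fun h => h.2, fun h => ⟨fun k => by simp [k] at h, h⟩⟩

theorem flat_conv (e : V d) : Convex ℝ (Om fun x : V d => ⟪x, e⟫) := by
  have k : (Om fun x : V d => ⟪x, e⟫) = {x | 0 < ⟪x, e⟫} := Set.ext fun _ => flat_mem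
  rw [k]
  exact convex_halfSpace_gt ⟨fun x y => inner_add_left x y e, fun t x => real_inner_smul_left x e t⟩ 0

theorem flat_cpt {K : Set (V d)} (hK : IsCompact K) (h : ∀ x, x ∈ S ↔ x ∈ K) : IsCompact S :=
  Set.ext h ▸ hK

theorem flat_le (hU : Cone U) (hf : ContDiffOn ℝ ∞ f {0}ᶜ) (h0 : ∀ x, x ≠ 0 → U x = 0 → f x ≤ 0)
    (hS : Cn S) (hs : S ⊆ Om U) (f1 : Hom S 1 f) : ∃ C : ℝ, ∀ x ∈ S, f x ≤ C * U x := by
  obtain ⟨C, -, hC⟩ := le_U hU hf h0 one_pos 1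
  refine ⟨C, fun x hx => ?_⟩
  have h1 : 0 < ‖x‖⁻¹ := inv_pos.2 (norm_pos_iff.2 (hS.ne x hx))
  have h2 : ‖‖x‖⁻¹ • x‖ = 1 := norm_smul_inv_norm (hS.ne x hx)
  have h3 := hC (‖x‖⁻¹ • x) ⟨(hs (hS.smul _ h1 x hx)).2, h2.ge, h2.le⟩
  rw [f1 _ h1 x hx, hU.hom1 _ h1 x (hs hx), zpow_one, mul_left_comm] at h3
  exact le_of_mul_le_mul_left h3 h1

theorem flat_const (hS : IsOpen S) (hc : IsPreconnected S) (hf : ContDiffOn ℝ ∞ f S)
    (h0 : ∀ x ∈ S, ∀ i, D i f x = 0) {y : V d} (hx : x ∈ S) (hy : y ∈ S) : f x = f y := by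
  refine hS.is_const_of_fderiv_eq_zero hc (hf.differentiableOn (by simp)) (fun w hw => ?_) hx hy
  ext v
  simp [fderiv_eq_sum, h0 w hw]

theorem flat_bdry (hU : Cone U) {e y : V d} (he : ‖e‖ = 1) {c : ℝ}
    (h : ∀ x, 0 < ⟪x, e⟫ → U x = c * ⟪x, e⟫) (hy : y ≠ 0) (h0 : ⟪y, e⟫ = 0) :
    U y = 0 ∧ ∀ i, D i U y = c * e i := by
  have h1 : Tendsto (fun t : ℝ => y + t • e) (𝓝[>] 0) (𝓝 y) := by
    have k : Continuous fun t : ℝ => y + t • e := by fun_prop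
    simpa using (k.tendsto 0).mono_left nhdsWithin_le_nhds
  have h2 : ∀ t : ℝ, ⟪y + t • e, e⟫ = t := fun t => by
    rw [inner_add_left, h0, real_inner_smul_left, real_inner_self_eq_norm_sq, he]
    ring
  have hn : ({0}ᶜ : Set (V d)) ∈ 𝓝 y := isOpen_compl_singleton.mem_nhds hy
  constructor
  · refine tendsto_nhds_unique ((hU.sm.continuousOn.continuousAt hn).tendsto.comp h1) ?_
    have k : Tendsto (fun t : ℝ => c * t) (𝓝[>] 0) (𝓝 0) := by
      simpa using ((continuous_const_mul c).tendsto 0).mono_left nhdsWithin_le_nhds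
    refine k.congr' (eventually_mem_nhdsWithin.mono fun t ht => ?_)
    change c * t = U (y + t • e)
    rw [h _ (by rwa [h2]), h2]
  · intro i
    refine tendsto_nhds_unique
      (((D_sm isOpen_compl_singleton hU.sm i).continuousOn.continuousAt hn).tendsto.comp h1) ?_
    refine tendsto_const_nhds.congr' (eventually_mem_nhdsWithin.mono fun t ht => ?_)
    change c * e i = D i U (y + t • e)
    rw [D_congr_on (flat_cone he).op (g := fun x => c * ⟪x, e⟫) (fun w hw => h w hw.2)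
      (flat_mem.2 (by rwa [h2])), D_cmul, D_inner]

theorem flat_up (hU : Cone U) {e : V d} (he : ‖e‖ = 1) (hZ : Zp U ⊆ {x | ⟪x, e⟫ ≤ 0}) :
    0 < U e ∧ ∀ x, 0 < ⟪x, e⟫ → U x = U e * ⟪x, e⟫ := by
  have hL := flat_cone he
  have hs : (Om fun x : V d => ⟪x, e⟫) ⊆ Om U := fun x hx =>
    ⟨hx.1, not_le.1 fun k => not_le.2 hx.2 (hZ ⟨hx.1, k⟩)⟩
  obtain ⟨C, hC⟩ := flat_le hU hL.sm (fun x hx k => hZ ⟨hx, k.le⟩) hL.cn hs hL.hom1
  have h1 : ∀ x ∈ Om fun x : V d => ⟪x, e⟫, ∀ i, D i (fun y => ⟪y, e⟫ / U y) x = 0 :=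
    fun x hx i => ratio hL.cn hL.sm hU.sm (fun _ h => h.2) (fun _ h => (hs h).2) hL.hom1
      (fun t ht x hx => hU.hom1 t ht x (hs hx)) hL.har (fun x hx => hU.har x (hs hx)) hC
      (fun δ a b hδ ha => by
        refine flat_cpt (hL.cpt (b := b) ha δ) fun x => ?_
        exact ⟨fun h => h.2, fun h => ⟨flat_mem.2 (hδ.trans_le h.1), h⟩⟩) hx i
  have e1 : ⟪e, e⟫ = 1 := by rw [real_inner_self_eq_norm_sq, he, one_pow]
  have h2 : e ∈ Om fun x : V d => ⟪x, e⟫ := flat_mem.2 (by rw [e1]; exact one_pos)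
  refine ⟨(hs h2).2, fun x hx => ?_⟩
  have h3 : ⟪x, e⟫ / U x = ⟪e, e⟫ / U e := flat_const hL.op (flat_conv e).isPreconnected
    (hL.smO.div (hU.smO.mono hs) fun x hx => (hs hx).2.ne') h1 (flat_mem.2 hx) h2
  rw [e1, div_eq_div_iff (hs (flat_mem.2 hx)).2.ne' (hs h2).2.ne', one_mul] at h3
  rw [← h3, mul_comm]

theorem flat_down (hU : Cone U) {e : V d} (he : ‖e‖ = 1) (h0 : ∀ x, x ≠ 0 → ⟪x, e⟫ = 0 → U x = 0)
    (hx : 0 < ⟪x, e⟫) (hx' : 0 < U x) : ∃ c : ℝ, 0 < c ∧ ∀ y, 0 < ⟪y, e⟫ → U y = c * ⟪y, e⟫ := by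
  have hL := flat_cone he
  have hS : Cn (Om U ∩ Om fun x : V d => ⟪x, e⟫) := ⟨hU.op.inter hL.op, fun x h => h.1.1,
    fun t ht x h => ⟨hU.cn.smul t ht x h.1, hL.cn.smul t ht x h.2⟩⟩
  have f1 : Hom (Om U ∩ Om fun x : V d => ⟪x, e⟫) 1 U := fun t ht x h => hU.hom1 t ht x h.1
  obtain ⟨C, hC⟩ := flat_le hL hU.sm (fun x hx k => (h0 x hx k).le) hS inter_subset_right f1
  have h1 : ∀ x ∈ Om U ∩ Om fun x : V d => ⟪x, e⟫, ∀ i, D i (fun y => U y / ⟪y, e⟫) x = 0 :=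
    fun x hx i => ratio hS hU.sm hL.sm (fun _ h => h.1.2) (fun _ h => h.2.2) f1
      (fun t ht x h => hL.hom1 t ht x h.2) (fun x h => hU.har x h.1) (fun x h => hL.har x h.2) hC
      (fun δ a b hδ ha => by
        refine flat_cpt ((hU.cpt (b := b) ha δ).inter_right
          (isClosed_le (f := fun _ => 0) continuous_const (flat_sm e).continuous)) fun x => ?_
        refine ⟨fun h => ⟨h.2, h.1.2.2.le⟩, fun h => ⟨?_, h.1⟩⟩
        have k1 : x ≠ 0 := norm_pos_iff.1 (ha.trans_le h.1.2.1)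
        have k2 : 0 < U x := hδ.trans_le h.1.1
        exact ⟨⟨k1, k2⟩, k1, lt_of_le_of_ne h.2 fun k => k2.ne' (h0 x k1 k.symm)⟩) hx i
  have h2 : ContDiffOn ℝ ∞ (fun y => U y / ⟪y, e⟫) (Om U ∩ Om fun x : V d => ⟪x, e⟫) :=
    (hU.smO.mono inter_subset_left).div (hL.smO.mono inter_subset_right) fun x h => h.2.2.ne'
  have c0 : 0 < U x / ⟪x, e⟫ := div_pos hx' hx
  have h3 : ∀ y ∈ Om fun x : V d => ⟪x, e⟫, max (U y) 0 / ⟪y, e⟫ = U x / ⟪x, e⟫ → 0 < U y :=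
    fun y _ k => not_le.1 fun k' => c0.ne (by rw [← k, max_eq_right k', zero_div])
  have h4 : ContinuousOn (fun y => max (U y) 0 / ⟪y, e⟫) (Om fun x : V d => ⟪x, e⟫) :=
    ((hU.sm.continuousOn.mono (om_sub _)).sup continuousOn_const).div hL.smO.continuousOn
      fun x h => h.2.ne'
  have h5 : IsOpen {y | y ∈ (Om fun x : V d => ⟪x, e⟫) ∧ max (U y) 0 / ⟪y, e⟫ = U x / ⟪x, e⟫} := by
    refine isOpen_iff_mem_nhds.2 fun y hy => ?_
    have k1 : y ∈ Om U ∩ Om fun x : V d => ⟪x, e⟫ := ⟨⟨hy.1.1, h3 y hy.1 hy.2⟩, hy.1⟩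
    obtain ⟨r, hr, k2⟩ := Metric.isOpen_iff.1 hS.op y k1
    filter_upwards [ball_mem_nhds y hr] with w hw
    have k3 := flat_const isOpen_ball (convex_ball y r).isPreconnected (h2.mono k2)
      (fun w hw => h1 w (k2 hw)) hw (mem_ball_self hr)
    refine ⟨(k2 hw).2, ?_⟩
    rw [← hy.2, max_eq_left (k2 hw).1.2.le, max_eq_left k1.1.2.le, k3]
  have h6 := IsPreconnected.subset_left_of_subset_union h5
    (h4.isOpen_inter_preimage hL.op (isOpen_compl_singleton (x := U x / ⟪x, e⟫)))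
    (Set.disjoint_left.2 fun y k1 k2 => k2.2 k1.2)
    (fun y hy => (em _).imp (fun k => ⟨hy, k⟩) fun k => ⟨hy, k⟩)
    ⟨x, flat_mem.2 hx, flat_mem.2 hx, by rw [max_eq_left hx'.le]⟩ (flat_conv e).isPreconnected
  refine ⟨_, c0, fun y hy => ?_⟩
  have k := (h6 (flat_mem.2 hy)).2
  rw [max_eq_left (h3 y (flat_mem.2 hy) k).le, div_eq_iff hy.ne'] at k
  exact k

theorem flat_perp (hd : 2 ≤ d) (e : V d) : ∃ y : V d, y ≠ 0 ∧ ⟪y, e⟫ = 0 := by
  have h : LinearMap.ker (innerSL ℝ e).toLinearMap ≠ ⊥ :=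
    LinearMap.ker_ne_bot_of_finrank_lt (by simp; omega)
  obtain ⟨y, h1, h2⟩ := Submodule.exists_mem_ne_zero_of_ne_bot h
  exact ⟨y, h2, by rw [real_inner_comm]; exact h1⟩

theorem flat (hd : 2 ≤ d) (hU : Cone U) {e : V d} (he : ‖e‖ = 1)
    (hZ : Zp U ⊆ {x | ⟪x, e⟫ ≤ 0}) (hx : x ≠ 0) : max (U x) 0 = max ⟪x, e⟫ 0 := by
  obtain ⟨c0, h1⟩ := flat_up hU he hZ
  obtain ⟨y, hy, y0⟩ := flat_perp hd e
  obtain ⟨y1, y2⟩ := flat_bdry hU he h1 hy y0
  have c1 : U e = 1 := by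
    have k := hU.fb y hy y1
    simp only [dot, y2, ← sq, mul_pow, ← Finset.mul_sum] at k
    rw [← nsq_eq, he, one_pow, mul_one] at k
    exact (pow_eq_one_iff_of_nonneg c0.le two_ne_zero).1 k
  rcases lt_trichotomy ⟪x, e⟫ 0 with h | h | h
  · rw [max_eq_right h.le]
    refine max_eq_right (not_lt.1 fun k => ?_)
    have he' : ‖-e‖ = 1 := by rw [norm_neg, he]
    obtain ⟨c, hc, h2⟩ := flat_down hU he' (fun w hw k => (flat_bdry hU he h1 hw
      (by rwa [inner_neg_right, neg_eq_zero] at k)).1) (by rwa [inner_neg_right, neg_pos]) k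
    have y3 := (flat_bdry hU he' h2 hy (by rw [inner_neg_right, y0, neg_zero])).2
    have e0 : e = 0 := by
      ext i
      have k1 := (y2 i).symm.trans (y3 i)
      rw [PiLp.neg_apply] at k1
      exact (mul_eq_zero.1 (by linarith : (U e + c) * e i = 0)).resolve_left (by positivity)
    rw [e0, norm_zero] at he
    exact zero_ne_one he
  · rw [(flat_bdry hU he h1 hx h).1, h]
  · rw [h1 x h, c1, one_mul]

theorem half_of_convex (hU : Cone U) (hc : Convex ℝ (insert 0 (Zp U))) (h0 : (Om U).Nonempty) :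
    ∃ e : V d, ‖e‖ = 1 ∧ Zp U ⊆ {x | ⟪x, e⟫ ≤ 0} := by
  obtain ⟨x, hx⟩ := h0
  have e1 : insert 0 (Zp U) = (Om U)ᶜ := by
    ext y
    simp only [Zp, Om, mem_insert_iff, mem_setOf_eq, mem_compl_iff, not_and, not_lt]
    tauto
  obtain ⟨L, u, h1, h2⟩ := geometric_hahn_banach_point_closed hc (e1 ▸ hU.op.isClosed_compl)
    (x := x) (e1 ▸ not_not.2 hx)
  have u0 : u < 0 := by simpa using h2 0 (mem_insert _ _)
  have hv : ∀ y, ⟪(InnerProductSpace.toDual ℝ (V d)).symm L, y⟫ = L y := fun y =>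
    InnerProductSpace.toDual_symm_apply
  generalize (InnerProductSpace.toDual ℝ (V d)).symm L = v at hv
  have v0 : v ≠ 0 := fun k => by
    have k1 := hv x
    rw [k, inner_zero_left] at k1
    linarith
  refine ⟨-(‖v‖⁻¹ • v), by rw [norm_neg]; exact norm_smul_inv_norm v0, fun y hy => ?_⟩
  have h3 : 0 ≤ L y := not_lt.1 fun k => by
    have k1 := h2 _ (mem_insert_of_mem _ (hU.zp hy (div_pos_of_neg_of_neg u0 k)))
    rw [map_smul, smul_eq_mul, div_mul_cancel₀ _ k.ne] at k1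
    exact lt_irrefl _ k1
  change ⟪y, -(‖v‖⁻¹ • v)⟫ ≤ 0
  rw [inner_neg_right, real_inner_smul_right, real_inner_comm, hv, neg_nonpos]
  positivity

end Vale.Agent.P098
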