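import Vale.Agent.P098.Green
import Vale.Agent.P098.Chi

open MeasureTheory Set Filter Topology Metric
open scoped ContDiff RealInnerProductSpace

noncomputable section

namespace Vale.Agent.P098

variable {d : ℕ} {S : Set (V d)} {U f g h k m F θ φ : V d → ℝ} {x : V d} {a b : ℝ}
  {z χ : ℝ → ℝ}

theorem gl_W (hS : IsOpen S) (hf : ContDiffOn ℝ ∞ f S) (hg : ContDiffOn ℝ ∞ g S)
    (f2 : ∀ x ∈ S, lap f x = 0) (g2 : ∀ x ∈ S, lap g x = 0) (hφ : ContDiffOn ℝ ∞ φ S)
    (hc : Cs S φ) : ∫ x in S, (g x * dot φ f x - f x * dot φ g x) = 0 := by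
  have h1 := green hS (hc.mul g) (hφ.mul hg) hf
  have h2 := green hS (hc.mul f) (hφ.mul hf) hg
  have e1 : ∫ x in S, (φ x * g x) * lap f x = 0 :=
    setIntegral_eq_zero_of_forall_eq_zero fun x hx => by rw [f2 x hx, mul_zero]
  have e2 : ∫ x in S, (φ x * f x) * lap g x = 0 :=
    setIntegral_eq_zero_of_forall_eq_zero fun x hx => by rw [g2 x hx, mul_zero]
  have i1 : IntegrableOn (dot (fun x => φ x * g x) f) S :=
    ((hc.mul g).dotC hS f).int hS (dot_sm hS (hφ.mul hg) hf).continuousOn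
  have i2 : IntegrableOn (dot (fun x => φ x * f x) g) S :=
    ((hc.mul f).dotC hS g).int hS (dot_sm hS (hφ.mul hf) hg).continuousOn
  calc _ = ∫ x in S, (dot (fun x => φ x * g x) f x - dot (fun x => φ x * f x) g x) := by
        refine setIntegral_congr_fun hS.measurableSet fun x hx => ?_
        rw [dot_mul (cd_at hS hφ hx) (cd_at hS hg hx), dot_mul (cd_at hS hφ hx) (cd_at hS hf hx),
          dot_comm g f]
        ring
    _ = 0 := by rw [integral_sub i1 i2, h1, h2, e1, e2]; simp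

theorem gl_q (hf : DifferentiableAt ℝ f x) (hg : DifferentiableAt ℝ g x) (g0 : g x ≠ 0) :
    g x * dot (fun y => f y / g y) f x - f x * dot (fun y => f y / g y) g x =
      g x ^ 2 * dot (fun y => f y / g y) (fun y => f y / g y) x := by
  unfold dot
  rw [Finset.mul_sum, Finset.mul_sum, Finset.mul_sum, ← Finset.sum_sub_distrib]
  refine Finset.sum_congr rfl fun i _ => ?_
  rw [D_div hf hg g0]
  field_simp

theorem gl_pt (hS : Cn S) (hf : ContDiffOn ℝ ∞ f S) (hg : ContDiffOn ℝ ∞ g S)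
    (g0 : ∀ x ∈ S, 0 < g x) (f1 : Hom S 1 f) (g1 : Hom S 1 g) (hz : ContDiff ℝ ∞ z) (t : ℝ)
    (hx : x ∈ S) :
    g x * dot (fun y => bt (t * f y) * rz z y * (f y / g y)) f x -
      f x * dot (fun y => bt (t * f y) * rz z y * (f y / g y)) g x =
    bt (t * f x) * rz z x * (g x ^ 2 * dot (fun y => f y / g y) (fun y => f y / g y) x) +
      rz z x * (deriv bt (t * f x) * (t * f x)) * (dot f f x - f x / g x * dot f g x) := by
  have df := cd_at hS.op hf hx
  have dg := cd_at hS.op hg hx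
  have gx := (g0 x hx).ne'
  have dq : DifferentiableAt ℝ (fun y => f y / g y) x :=
    cd_at hS.op (hf.div hg fun y hy => (g0 y hy).ne') hx
  have dt : DifferentiableAt ℝ (fun y => t * f y) x := df.const_mul t
  have db0 : DifferentiableAt ℝ bt (t * f x) := (bt_sm.differentiable (by simp)) _
  have db : DifferentiableAt ℝ (fun y => bt (t * f y)) x :=
    DifferentiableAt.comp (g := bt) (f := fun y => t * f y) x db0 dt
  have dz0 : DifferentiableAt ℝ z (‖x‖ ^ 2) := (hz.differentiable (by simp)) _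
  have dz : DifferentiableAt ℝ (rz z) x := ((rz_sm hz).differentiable (by simp)) _
  have e (k : V d → ℝ) : dot (fun y => bt (t * f y) * rz z y * (f y / g y)) k x =
      bt (t * f x) * rz z x * dot (fun y => f y / g y) k x + f x / g x *
        (bt (t * f x) * (2 * deriv z (‖x‖ ^ 2) * rad k x) +
          rz z x * (deriv bt (t * f x) * (t * dot f k x))) := by
    rw [dot_mul (f := fun y => bt (t * f y) * rz z y) (g := fun y => f y / g y) (db.mul dz) dq,
      dot_mul (f := fun y => bt (t * f y)) (g := rz z) db dz,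
      dot_comp (χ := bt) (f := fun y => t * f y) db0 dt, dot_cmul, dot_rz dz0]
  rw [e f, e g, f1.euler hS hf hx, g1.euler hS hg hx, ← gl_q df dg gx]
  field_simp
  ring

theorem ratio (hS : Cn S) (hf : ContDiffOn ℝ ∞ f {0}ᶜ) (hg : ContDiffOn ℝ ∞ g {0}ᶜ)
    (f0 : ∀ x ∈ S, 0 < f x) (g0 : ∀ x ∈ S, 0 < g x) (f1 : Hom S 1 f) (g1 : Hom S 1 g)
    (f2 : ∀ x ∈ S, lap f x = 0) (g2 : ∀ x ∈ S, lap g x = 0) {C : ℝ} (hb : ∀ x ∈ S, f x ≤ C * g x)
    (hc : ∀ δ a b : ℝ, 0 < δ → 0 < a → IsCompact {x | x ∈ S ∧ δ ≤ f x ∧ a ≤ ‖x‖ ∧ ‖x‖ ≤ b})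
    (hx : x ∈ S) (i : Fin d) : D i (fun y => f y / g y) x = 0 := by
  have hsub : S ⊆ {0}ᶜ := fun y hy => hS.ne y hy
  have hfS := hf.mono hsub
  have hgS := hg.mono hsub
  have hO := hS.op
  have hr : 0 < ‖x‖ := norm_pos_iff.2 (hS.ne x hx)
  obtain ⟨z, hz, z0, z1, zx⟩ := exists_rc hr le_rfl
  have hqS : ContDiffOn ℝ ∞ (fun y => f y / g y) S := hfS.div hgS fun y hy => (g0 y hy).ne'
  have hZ : ContDiffOn ℝ ∞ (rz z : V d → ℝ) S := (rz_sm hz.sm).contDiffOn
  have hB (t : ℝ) : ContDiffOn ℝ ∞ (fun y => bt (t * f y)) S :=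
    bt_sm.comp_contDiffOn (contDiffOn_const.mul hfS)
  have hB' (t : ℝ) : ContinuousOn (fun y => deriv bt (t * f y)) S :=
    (bt_sm.continuous_deriv (by simp)).comp_continuousOn (continuousOn_const.mul hfS.continuousOn)
  set Q : V d → ℝ := fun y => g y ^ 2 * dot (fun y => f y / g y) (fun y => f y / g y) y with hQ
  set R : V d → ℝ := fun y => dot f f y - f y / g y * dot f g y with hR
  have cQ : ContinuousOn Q S :=
    (hgS.continuousOn.pow 2).mul (dot_sm hO hqS hqS).continuousOn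
  have cR : ContinuousOn R S :=
    (dot_sm hO hfS hfS).continuousOn.sub (hqS.continuousOn.mul (dot_sm hO hfS hgS).continuousOn)
  have Q0 (y : V d) : 0 ≤ Q y := mul_nonneg (sq_nonneg _) (dot_nonneg _ _)
  have hcs (t : ℝ) (ht : 0 < t) (F : V d → ℝ) (hF : ∀ y ∈ S, F y ≠ 0 → 1 ≤ t * f y ∧ rz z y ≠ 0) :
      Cs S F := by
    refine ⟨_, hc (1 / t) (‖x‖ / 2) (2 * ‖x‖) (by positivity) (by positivity),
      fun y hy => hy.1, fun y hy hn => ?_⟩
    by_contra h0
    obtain ⟨h1, h2⟩ := hF y hy h0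
    have h3 := hz.an (x := y) h2
    refine hn ⟨hy, ?_, h3.1, h3.2⟩
    rw [div_le_iff₀ ht]
    linarith
  have c1 (t : ℝ) (ht : 0 < t) : Cs S fun y => bt (t * f y) * rz z y :=
    hcs t ht _ fun y _ h0 => ⟨by
      by_contra hlt
      exact left_ne_zero_of_mul h0 (bt_zero (not_le.1 hlt).le), right_ne_zero_of_mul h0⟩
  have c2 (t : ℝ) (ht : 0 < t) : Cs S fun y => rz z y * (deriv bt (t * f y) * (t * f y)) :=
    hcs t ht _ fun y _ h0 => ⟨by
      by_contra hlt
      exact left_ne_zero_of_mul (right_ne_zero_of_mul h0) (bt_dz (Or.inl (not_le.1 hlt))).1,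
      left_ne_zero_of_mul h0⟩
  have iA (t : ℝ) (ht : 0 < t) : IntegrableOn (fun y => bt (t * f y) * rz z y * Q y) S :=
    ((c1 t ht).mul Q).int hO (((hB t).continuousOn.mul hZ.continuousOn).mul cQ)
  have iB (t : ℝ) (ht : 0 < t) :
      IntegrableOn (fun y => rz z y * (deriv bt (t * f y) * (t * f y)) * R y) S :=
    ((c2 t ht).mul R).int hO ((hZ.continuousOn.mul ((hB' t).mul
      (continuousOn_const.mul hfS.continuousOn))).mul cR)
  have key (t : ℝ) (ht : 0 < t) : ∫ y in S, bt (t * f y) * rz z y * Q y =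
      -∫ y in S, rz z y * (deriv bt (t * f y) * (t * f y)) * R y := by
    have h1 := gl_W hO hfS hgS f2 g2 (((hB t).mul hZ).mul hqS) ((c1 t ht).mul _)
    rw [setIntegral_congr_fun hO.measurableSet
      (fun y hy => gl_pt hS hfS hgS g0 f1 g1 hz.sm t hy), integral_add (iA t ht) (iB t ht)] at h1
    linarith
  obtain ⟨Cb, Cb0, hCb⟩ := bt_bd
  obtain ⟨C1, C10, hC1⟩ := bd_an (dot_sm isOpen_compl_singleton hf hf).continuousOn
    (half_pos hr) (2 * ‖x‖)
  obtain ⟨C2, C20, hC2⟩ := bd_an (dot_sm isOpen_compl_singleton hf hg).continuousOn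
    (half_pos hr) (2 * ‖x‖)
  have big (y : V d) (hy : y ∈ S) : ∀ᶠ n : ℕ in atTop, 2 < ((n : ℝ) + 1) * f y := by
    have : Tendsto (fun n : ℕ => ((n : ℝ) + 1) * f y) atTop atTop :=
      (tendsto_atTop_add_const_right _ 1 tendsto_natCast_atTop_atTop).atTop_mul_const (f0 y hy)
    exact this.eventually_gt_atTop 2
  have lim : Tendsto (fun n : ℕ => ∫ y in S,
      rz z y * (deriv bt (((n : ℝ) + 1) * f y) * (((n : ℝ) + 1) * f y)) * R y) atTop
      (𝓝 (∫ _ in S, (0 : ℝ))) := by
    refine tendsto_integral_of_dominated_convergence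
      ((closedBall (0 : V d) (2 * ‖x‖)).indicator fun _ => Cb * 2 * (C1 + |C| * C2))
      (fun n => (iB _ (by positivity)).aestronglyMeasurable) ?_ (fun n => ?_) ?_
    · refine Integrable.restrict ?_
      exact (integrable_indicator_iff measurableSet_closedBall).2
        (integrableOn_const measure_closedBall_lt_top.ne)
    · filter_upwards [ae_restrict_mem hO.measurableSet] with y hy
      by_cases h0 : rz z y = 0
      · rw [h0, zero_mul, zero_mul, norm_zero]
        exact indicator_nonneg (fun _ _ => by positivity) _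
      have h3 := hz.an (x := y) h0
      rw [indicator_of_mem (mem_closedBall_zero_iff.2 h3.2), Real.norm_eq_abs, abs_mul, abs_mul]
      have a1 : |rz z y| ≤ 1 := abs_le.2 ⟨by linarith [z0 (‖y‖ ^ 2), show rz z y = z _ from rfl],
        z1 _⟩
      have a2 : |deriv bt (((n : ℝ) + 1) * f y) * (((n : ℝ) + 1) * f y)| ≤ Cb * 2 := by
        by_cases h2 : 2 < ((n : ℝ) + 1) * f y
        · rw [(bt_dz (Or.inr h2)).1, zero_mul, abs_zero]
          positivity
        · have : 0 < ((n : ℝ) + 1) * f y := mul_pos (by positivity) (f0 y hy)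
          rw [abs_mul, abs_of_pos this]
          exact mul_le_mul (hCb _).1 (not_lt.1 h2) this.le Cb0.le
      have a3 : |R y| ≤ C1 + |C| * C2 := by
        have b1 : |f y / g y| ≤ |C| := by
          rw [abs_of_pos (div_pos (f0 y hy) (g0 y hy)), div_le_iff₀ (g0 y hy)]
          exact (hb y hy).trans (mul_le_mul_of_nonneg_right (le_abs_self C) (g0 y hy).le)
        refine (abs_sub _ _).trans (add_le_add (hC1 y h3.1 h3.2) ?_)
        rw [abs_mul]
        exact mul_le_mul b1 (hC2 y h3.1 h3.2) (abs_nonneg _) (abs_nonneg _)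
      calc _ ≤ 1 * (Cb * 2) * (C1 + |C| * C2) := by gcongr
        _ = _ := by ring
    · filter_upwards [ae_restrict_mem hO.measurableSet] with y hy
      refine tendsto_const_nhds.congr' ?_
      filter_upwards [big y hy] with n hn
      rw [(bt_dz (Or.inr hn)).1]
      simp
  rw [integral_zero] at lim
  have lim' := lim.neg
  rw [neg_zero] at lim'
  obtain ⟨i0, le0⟩ := fatou (μ := volume.restrict S)
    (G := fun n y => bt (((n : ℝ) + 1) * f y) * rz z y * Q y) (G₀ := fun y => rz z y * Q y)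
    (fun n => iA _ (by positivity))
    (fun n => Eventually.of_forall fun y => mul_nonneg (mul_nonneg (bt_nn _) (z0 _)) (Q0 y))
    (by
      filter_upwards [ae_restrict_mem hO.measurableSet] with y hy
      refine tendsto_const_nhds.congr' ?_
      filter_upwards [big y hy] with n hn
      rw [bt_one hn.le, one_mul])
    (fun n => (key _ (by positivity)).le) lim'
  have nn : 0 ≤ fun y => rz z y * Q y := fun y => mul_nonneg (z0 _) (Q0 y)
  have ae0 := (integral_eq_zero_iff_of_nonneg nn i0).1 (le_antisymm le0 (integral_nonneg nn))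
  have e0 := Measure.eqOn_open_of_ae_eq ae0 hO (hZ.continuousOn.mul cQ) continuousOn_const hx
  have e1 : rz z x = 1 := zx _ le_rfl le_rfl
  simp only [e1, one_mul, Pi.zero_apply, hQ] at e0
  have e2 := (mul_eq_zero.1 e0).resolve_left (pow_ne_zero 2 (g0 x hx).ne')
  have e3 := D_sq_le (fun y => f y / g y) x i
  rw [e2] at e3
  exact pow_eq_zero_iff (two_ne_zero) |>.1 (le_antisymm e3 (sq_nonneg _))

end Vale.Agent.P098
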