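import Vale.Agent.P098.Sets

/-! Integration by parts on open sets. -/

open MeasureTheory Set Filter Topology Metric
open scoped ContDiff RealInnerProductSpace

noncomputable section

namespace Vale.Agent.P098

variable {d : ℕ} {S : Set (V d)} {U f g h k m F θ φ : V d → ℝ} {x : V d} {a b : ℝ}
  {z χ : ℝ → ℝ}

theorem Cs.mul (hF : Cs S F) (g : V d → ℝ) : Cs S fun x => F x * g x := by
  exact hF.imp fun _ h => ⟨h.1, h.2.1, fun x hx hx' => by simp only [h.2.2 x hx hx', zero_mul]⟩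

theorem Cs.mul' (hF : Cs S F) (g : V d → ℝ) : Cs S fun x => g x * F x := by
  exact hF.imp fun _ h => ⟨h.1, h.2.1, fun x hx hx' => by simp only [h.2.2 x hx hx', mul_zero]⟩

theorem Cs.add (hF : Cs S F) (hg : Cs S g) : Cs S fun x => F x + g x := by
  obtain ⟨K, h1, h2, h3⟩ := hF
  obtain ⟨L, k1, k2, k3⟩ := hg
  exact ⟨K ∪ L, h1.union k1, union_subset h2 k2, fun x hx hx' => by
    simp only [h3 x hx fun h => hx' (.inl h), k3 x hx fun h => hx' (.inr h), add_zero]⟩

theorem green_sum {G : Fin d → V d → ℝ} (h : ∀ i, Cs S (G i)) : Cs S fun x => ∑ i, G i x := by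
  choose K h1 h2 h3 using h
  exact ⟨⋃ i, K i, isCompact_iUnion h1, iUnion_subset h2, fun x hx hx' =>
    Finset.sum_eq_zero fun i _ => h3 i x hx fun h => hx' (mem_iUnion.2 ⟨i, h⟩)⟩

theorem Cs.der (hS : IsOpen S) (hF : Cs S F) (i : Fin d) : Cs S (D i F) := by
  exact hF.imp fun K h => ⟨h.1, h.2.1, fun x hx hx' =>
    (D_congr_on (g := fun _ => 0) (hS.inter h.1.isClosed.isOpen_compl)
      (fun y hy => h.2.2 y hy.1 hy.2) ⟨hx, hx'⟩ i).trans (D_const 0 i x)⟩

theorem Cs.dotC (hS : IsOpen S) (hF : Cs S F) (g : V d → ℝ) : Cs S (dot F g) := by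
  exact green_sum fun i => (hF.der hS i).mul _

theorem Cs.lapC (hS : IsOpen S) (hF : Cs S F) : Cs S (lap F) := by
  exact green_sum fun i => (hF.der hS i).der hS i

theorem Cs.hesC (hS : IsOpen S) (hF : Cs S F) (g k : V d → ℝ) : Cs S (hes F g k) := by
  exact green_sum fun i => green_sum fun j => (((hF.der hS j).der hS i).mul _).mul _

theorem Tst.cs (hF : Tst S F) : Cs S F := by
  exact ⟨_, hF.2.1, hF.2.2, fun _ _ hx => image_eq_zero_of_notMem_tsupport hx⟩

theorem Cs.tst (hS : IsOpen S) (hF : Cs S F) (hs : ContDiffOn ℝ ∞ F S) :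
    Tst S (S.indicator F) := by
  obtain ⟨K, h1, h2, h3⟩ := hF
  have h4 : tsupport (S.indicator F) ⊆ K := closure_minimal (fun x hx => by_contra fun h =>
    hx (indicator_apply_eq_zero.2 fun hx' => h3 x hx' h)) h1.isClosed
  refine ⟨contDiff_iff_contDiffAt.2 fun x => ?_, h1.of_isClosed_subset (isClosed_tsupport _) h4,
    h4.trans h2⟩
  by_cases hx : x ∈ S
  · exact (hs.contDiffAt (hS.mem_nhds hx)).congr_of_eventuallyEq
      (mem_of_superset (hS.mem_nhds hx) fun y hy => indicator_of_mem hy F)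
  · exact (contDiffAt_const (c := 0)).congr_of_eventuallyEq
      (notMem_tsupport_iff_eventuallyEq.1 fun h => hx (h2 (h4 h)))

theorem Cs.int (hS : IsOpen S) (hF : Cs S F) (hc : ContinuousOn F S) : IntegrableOn F S := by
  obtain ⟨K, h1, h2, h3⟩ := hF
  exact ((hc.mono h2).integrableOn_compact h1).of_forall_sdiff_eq_zero hS.measurableSet
    fun x hx => h3 x hx.1 hx.2

theorem int_D (hS : IsOpen S) (hF : Cs S F) (hs : ContDiffOn ℝ ∞ F S) (i : Fin d) :
    ∫ x in S, D i F x = 0 := by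
  obtain ⟨h1, h2, h3⟩ := hF.tst hS hs
  have h4 : tsupport (D i (S.indicator F)) ⊆ tsupport (S.indicator F) :=
    tsupport_fderiv_apply_subset ℝ (ee i)
  have h5 : Integrable (D i (S.indicator F)) :=
    (contDiffOn_univ.1 (D_sm isOpen_univ h1.contDiffOn i)).continuous.integrable_of_hasCompactSupport
      (h2.of_isClosed_subset (isClosed_tsupport _) h4)
  have h6 := integral_mul_fderiv_eq_neg_fderiv_mul_of_integrable (μ := volume)
    (f := fun _ : V d => (1 : ℝ)) (g := S.indicator F) (v := ee i) (by simp)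
    (by simp only [one_mul]; exact h5)
    (by simpa using h1.continuous.integrable_of_hasCompactSupport h2)
    (fun _ _ => differentiableAt_const _) fun x _ => h1.differentiable (by simp) x
  rw [setIntegral_congr_fun hS.measurableSet fun x hx =>
    D_congr_on hS (fun y hy => (indicator_of_mem hy F).symm) hx i,
    setIntegral_eq_integral_of_forall_compl_eq_zero fun x hx =>
      image_eq_zero_of_notMem_tsupport fun h => hx (h3 (h4 h))]
  simpa [D] using h6

theorem green_aux (hS : IsOpen S) (h1 : ∀ i, Cs S fun x => f x * D i g x) (h2 : Cs S (dot f g))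
    (h3 : Cs S fun x => f x * lap g x) (hf : ContDiffOn ℝ ∞ f S) (hg : ContDiffOn ℝ ∞ g S) :
    ∫ x in S, dot f g x = -∫ x in S, f x * lap g x := by
  have s := fun i => hf.mul (D_sm hS hg i)
  rw [eq_neg_iff_add_eq_zero, ← integral_add (h2.int hS (dot_sm hS hf hg).continuousOn)
    (h3.int hS (hf.mul (lap_sm hS hg)).continuousOn),
    ← Finset.sum_eq_zero fun i (_ : i ∈ Finset.univ) => int_D hS (h1 i) (s i) i,
    ← integral_finsetSum _ fun i _ => ((h1 i).der hS i).int hS (D_sm hS (s i) i).continuousOn]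
  refine setIntegral_congr_fun hS.measurableSet fun x hx => ?_
  simp only [fun i => D_mul (cd_at hS hf hx) (cd_at hS (D_sm hS hg i) hx) i, dot, lap,
    Finset.mul_sum, ← Finset.sum_add_distrib]
  exact Finset.sum_congr rfl fun i _ => by ring

theorem green (hS : IsOpen S) (hc : Cs S f) (hf : ContDiffOn ℝ ∞ f S) (hg : ContDiffOn ℝ ∞ g S) :
    ∫ x in S, dot f g x = -∫ x in S, f x * lap g x := by
  exact green_aux hS (fun _ => hc.mul _) (hc.dotC hS g) (hc.mul _) hf hg

theorem green' (hS : IsOpen S) (hc : Cs S g) (hf : ContDiffOn ℝ ∞ f S) (hg : ContDiffOn ℝ ∞ g S) :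
    ∫ x in S, dot f g x = -∫ x in S, f x * lap g x := by
  exact green_aux hS (fun i => (hc.der hS i).mul' _) (green_sum fun i => (hc.der hS i).mul' _)
    ((hc.lapC hS).mul' _) hf hg

theorem green2 (hS : IsOpen S) (hc : Cs S f) (hf : ContDiffOn ℝ ∞ f S) (hg : ContDiffOn ℝ ∞ g S) :
    ∫ x in S, f x * lap g x = ∫ x in S, g x * lap f x := by
  have h1 := green hS hc hf hg
  have h2 := green' hS hc hg hf
  simp only [dot_comm g f] at h2
  exact neg_injective (h1.symm.trans h2)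

theorem fatou {X : Type} [MeasurableSpace X] {μ : Measure X} {G : ℕ → X → ℝ} {G₀ : X → ℝ}
    {c : ℕ → ℝ} {C : ℝ} (hi : ∀ n, Integrable (G n) μ) (h0 : ∀ n, ∀ᵐ x ∂μ, 0 ≤ G n x)
    (hl : ∀ᵐ x ∂μ, Tendsto (fun n => G n x) atTop (𝓝 (G₀ x))) (hb : ∀ n, ∫ x, G n x ∂μ ≤ c n)
    (hc : Tendsto c atTop (𝓝 C)) : Integrable G₀ μ ∧ ∫ x, G₀ x ∂μ ≤ C := by
  have m : AEStronglyMeasurable G₀ μ :=
    aestronglyMeasurable_of_tendsto_ae atTop (fun n => (hi n).1) hl
  have p : 0 ≤ᵐ[μ] G₀ := by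
    filter_upwards [hl, ae_all_iff.2 h0] with x h1 h2 using ge_of_tendsto' h1 h2
  have q : 0 ≤ C := ge_of_tendsto' hc fun n => (integral_nonneg_of_ae (h0 n)).trans (hb n)
  have k : ∫⁻ x, ENNReal.ofReal (G₀ x) ∂μ ≤ ENNReal.ofReal C :=
    calc _ = ∫⁻ x, liminf (fun n => ENNReal.ofReal (G n x)) atTop ∂μ :=
          lintegral_congr_ae (hl.mono fun x hx => (ENNReal.tendsto_ofReal hx).liminf_eq.symm)
      _ ≤ _ := lintegral_liminf_le' fun n => (hi n).1.aemeasurable.ennreal_ofReal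
      _ ≤ liminf (fun n => ENNReal.ofReal (c n)) atTop :=
          liminf_le_liminf (.of_forall fun n => by
            rw [← ofReal_integral_eq_lintegral_ofReal (hi n) (h0 n)]
            exact ENNReal.ofReal_le_ofReal (hb n))
      _ = _ := (ENNReal.tendsto_ofReal hc).liminf_eq
  refine ⟨⟨m, (hasFiniteIntegral_iff_ofReal p).2 (k.trans_lt ENNReal.ofReal_lt_top)⟩, ?_⟩
  rw [integral_eq_lintegral_of_nonneg_ae p m]
  exact ENNReal.toReal_le_of_le_ofReal q k

theorem zero_of_tst (hS : IsOpen S) (hf : ContinuousOn f S)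
    (H : ∀ ψ, Tst S ψ → ∫ x in S, ψ x * f x = 0) (hx : x ∈ S) : f x = 0 := by
  refine Measure.eqOn_open_of_ae_eq (μ := volume) (g := fun _ => 0)
    ((ae_restrict_iff' hS.measurableSet).2 (hS.ae_eq_zero_of_integral_contDiff_smul_eq_zero
      (hf.locallyIntegrableOn hS.measurableSet) fun ψ h1 h2 h3 => ?_)) hS hf continuousOn_const hx
  refine (setIntegral_eq_integral_of_forall_compl_eq_zero fun x hx => ?_).symm.trans
    (H ψ ⟨h1, h2, h3⟩)
  rw [image_eq_zero_of_notMem_tsupport fun h => hx (h3 h), zero_smul]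

theorem int_om (hU : Cone U) (ha : 0 < a) (hF : ∀ x ∈ Om U, F x ≠ 0 → a ≤ ‖x‖ ∧ ‖x‖ ≤ b)
    (hi : IntegrableOn F (An U a b)) : IntegrableOn F (Om U) := by
  exact hi.of_forall_sdiff_eq_zero hU.op.measurableSet fun x hx =>
    by_contra fun h => hx.2 ⟨hx.1.2, hF x hx.1 h⟩

end Vale.Agent.P098
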