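import Vale.Agent.P098.Defs

/-! Duality: the extension theorem for linear functionals and the Riesz representation. -/

open MeasureTheory Set Filter Topology Metric
open scoped ContDiff RealInnerProductSpace

noncomputable section

namespace Vale.Agent.P098

variable {d : ℕ} {S : Set (V d)} {U f g h k m F θ φ : V d → ℝ} {x : V d} {a b : ℝ}
  {z χ : ℝ → ℝ}

theorem hb {X : Type} [MeasurableSpace X] {μ : Measure X} {W : Type} [AddCommGroup W] [Module ℝ W]
    (L : W →ₗ[ℝ] X → ℝ) (Λ : W →ₗ[ℝ] ℝ) {q : X → ℝ} (hq : MemLp q 2 μ) (hq0 : ∀ x, 0 < q x)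
    (hL : ∀ w, MemLp (L w) 2 μ) {C : ℝ} (hC : 0 ≤ C)
    (hb : ∀ w, |Λ w| ≤ C * ∫ x, |L w x| * q x ∂μ) : ∃ κ : X → ℝ, AEStronglyMeasurable κ μ ∧
      (∀ᵐ x ∂μ, |κ x| ≤ C * q x) ∧ ∀ w, Λ w = ∫ x, κ x * L w x ∂μ := by
  let T : W →ₗ[ℝ] Lp ℝ 2 μ :=
    { toFun := fun w => (hL w).toLp (L w)
      map_add' := fun v w =>
        (MemLp.toLp_congr _ ((hL v).add (hL w)) (by rw [map_add])).trans (MemLp.toLp_add _ _)
      map_smul' := fun c w => (MemLp.toLp_congr _ ((hL w).const_smul c) (by rw [map_smul])).trans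
        (MemLp.toLp_const_smul _ _) }
  have hT : ∀ w, T w =ᵐ[μ] L w := fun w => (hL w).coeFn_toLp
  let N : Lp ℝ 2 μ → ℝ := fun y => C * ∫ x, |y x| * q x ∂μ
  have hi : ∀ y : Lp ℝ 2 μ, Integrable (fun x => |y x| * q x) μ := fun y =>
    (Lp.memLp y).abs.integrable_mul hq
  have hN : ∀ w, |Λ w| ≤ N (T w) := fun w => (hb w).trans (le_of_eq (by
    refine congrArg (C * ·) (integral_congr_ae ?_)
    filter_upwards [hT w] with x hx
    rw [hx]))
  have N1 : ∀ (c : ℝ) (y : Lp ℝ 2 μ), N (c • y) = |c| * N y := fun c y => by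
    simp only [N]
    rw [mul_left_comm, ← integral_const_mul |c|]
    refine congrArg (C * ·) (integral_congr_ae ?_)
    filter_upwards [Lp.coeFn_smul c y] with x hx
    rw [hx, Pi.smul_apply, smul_eq_mul, abs_mul, mul_assoc]
  have N2 : ∀ y y' : Lp ℝ 2 μ, N (y + y') ≤ N y + N y' := fun y y' => by
    simp only [N]
    rw [← mul_add, ← integral_add (hi y) (hi y')]
    refine mul_le_mul_of_nonneg_left (integral_mono_ae (hi _) ((hi y).add (hi y')) ?_) hC
    filter_upwards [Lp.coeFn_add y y'] with x hx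
    rw [hx, Pi.add_apply, ← add_mul]
    exact mul_le_mul_of_nonneg_right (abs_add_le _ _) (hq0 x).le
  have N3 : ∀ y : Lp ℝ 2 μ, N y ≤ C * ‖hq.toLp q‖ * ‖y‖ := fun y => by
    have h1 : ∫ x, |y x| * q x ∂μ = ⟪hq.toLp q, |y|⟫ := by
      rw [L2.inner_def]
      refine integral_congr_ae ?_
      filter_upwards [Lp.coeFn_abs y, hq.coeFn_toLp] with x h2 h3
      rw [h2, h3]
      simp
    simp only [N]
    rw [h1, mul_assoc, ← norm_abs_eq_norm y]
    exact mul_le_mul_of_nonneg_left (real_inner_le_norm _ _) hC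
  obtain ⟨g, hg⟩ := T.rangeRestrict.exists_rightInverse_of_surjective T.range_rangeRestrict
  have hg' : ∀ y : LinearMap.range T, T (g y) = y := fun y =>
    congrArg Subtype.val (LinearMap.congr_fun hg y)
  obtain ⟨G, G1, G2⟩ := exists_extension_of_le_sublinear ⟨LinearMap.range T, Λ ∘ₗ g⟩ N
    (fun c hc y => by rw [N1, abs_of_pos hc]) N2 fun y => by
      have := (le_abs_self _).trans (hN (g y))
      rwa [hg'] at this
  have G3 : ∀ y, |G y| ≤ N y := fun y => abs_le.2 ⟨by
    have := G2 ((-1 : ℝ) • y)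
    rw [N1, map_smul, abs_neg, abs_one, one_mul, smul_eq_mul] at this
    linarith, G2 y⟩
  have G4 : ∀ w, G (T w) = Λ w := fun w => by
    have h1 : G (T w) = Λ (g ⟨T w, w, rfl⟩) := G1 ⟨T w, w, rfl⟩
    have h2 := hN (w - g ⟨T w, w, rfl⟩)
    rw [map_sub T, hg', sub_self, ← zero_smul ℝ (0 : Lp ℝ 2 μ), N1, abs_zero, zero_mul,
      abs_nonpos_iff, map_sub, sub_eq_zero] at h2
    rw [h1, h2]
  let κ : Lp ℝ 2 μ := (InnerProductSpace.toDual ℝ (Lp ℝ 2 μ)).symm
    (G.mkContinuous (C * ‖hq.toLp q‖) fun y => (G3 y).trans (N3 y))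
  have K1 : ∀ y : Lp ℝ 2 μ, G y = ∫ x, κ x * y x ∂μ := fun y => by
    have h1 : ⟪κ, y⟫ = G y := InnerProductSpace.toDual_symm_apply
    rw [← h1, L2.inner_def]
    simp [mul_comm]
  have K2 : ∀ s, MeasurableSet s → |∫ x in s, κ x * q x ∂μ| ≤ ∫ x in s, C * q x * q x ∂μ := by
    intro s hs
    have h1 := G3 ((hq.indicator hs).toLp _)
    have h2 := (hq.indicator hs).coeFn_toLp
    rw [K1] at h1
    convert h1 using 1
    · rw [← integral_indicator hs]
      refine congrArg abs (integral_congr_ae ?_)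
      filter_upwards [h2] with x hx
      rw [hx]
      by_cases h : x ∈ s <;> simp [h]
    · simp only [N]
      rw [← integral_indicator hs, ← integral_const_mul]
      refine integral_congr_ae ?_
      filter_upwards [h2] with x hx
      rw [hx]
      by_cases h : x ∈ s <;> simp [h, abs_of_pos (hq0 x), mul_assoc]
  have i1 : Integrable (fun x => κ x * q x) μ := (Lp.memLp κ).integrable_mul hq
  have i2 : Integrable (fun x => C * q x * q x) μ := (hq.const_mul C).integrable_mul hq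
  have a1 := ae_le_of_forall_setIntegral_le i1 i2 fun s hs _ => (le_abs_self _).trans (K2 s hs)
  have a2 := ae_le_of_forall_setIntegral_le i1.neg i2 fun s hs _ => by
    simp only [Pi.neg_apply]
    rw [integral_neg]
    exact (neg_le_abs _).trans (K2 s hs)
  refine ⟨κ, Lp.aestronglyMeasurable κ, ?_, fun w => ?_⟩
  · filter_upwards [a1, a2] with x h1 h2
    simp only [Pi.neg_apply] at h2
    rw [← neg_mul] at h2
    exact abs_le.2 ⟨neg_le.1 (le_of_mul_le_mul_right h2 (hq0 x)),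
      le_of_mul_le_mul_right h1 (hq0 x)⟩
  · rw [← G4, K1]
    refine integral_congr_ae ?_
    filter_upwards [hT w] with x hx
    rw [hx]

end Vale.Agent.P098
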