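import Vale.Agent.P098.Calc2

open MeasureTheory Set Filter Topology Metric
open scoped ContDiff RealInnerProductSpace

noncomputable section

namespace Vale.Agent.P098

variable {d : ℕ} {S : Set (V d)} {U f g h k m F θ φ : V d → ℝ} {x : V d} {a b : ℝ}
  {z χ : ℝ → ℝ}

theorem homg_D {t : ℝ} (hf : DifferentiableAt ℝ f (t • x)) (i : Fin d) :
    D i (fun y => f (t • y)) x = t * D i f (t • x) := by
  have h1 : HasFDerivAt (fun y : V d => t • y) (t • ContinuousLinearMap.id ℝ (V d)) x :=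
    (hasFDerivAt_id x).const_smul t
  have h2 : HasFDerivAt (fun y => f (t • y))
      ((fderiv ℝ f (t • x)).comp (t • ContinuousLinearMap.id ℝ (V d))) x :=
    HasFDerivAt.comp x hf.hasFDerivAt h1
  unfold D
  rw [h2.fderiv]
  simp

theorem lap_smul (hS : Cn S) (hf : ContDiffOn ℝ ∞ f S) {t : ℝ} (ht : 0 < t) (hx : x ∈ S) :
    lap (fun y => f (t • y)) x = t ^ 2 * lap f (t • x) := by
  unfold lap
  rw [Finset.mul_sum]
  refine Finset.sum_congr rfl fun i _ => ?_
  have e : ∀ y ∈ S, D i (fun y => f (t • y)) y = t * D i f (t • y) := fun y hy =>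
    homg_D (cd_at hS.op hf (hS.smul t ht y hy)) i
  rw [D_congr_on hS.op e hx i, D_cmul,
    homg_D (cd_at hS.op (D_sm hS.op hf i) (hS.smul t ht x hx)) i]
  ring

theorem Hom.der {n : ℤ} (hS : Cn S) (hf : ContDiffOn ℝ ∞ f S) (H : Hom S n f) (i : Fin d) :
    Hom S (n - 1) (D i f) := by
  intro t ht x hx
  have h1 := homg_D (cd_at hS.op hf (hS.smul t ht x hx)) i
  have e : ∀ y ∈ S, (fun y => f (t • y)) y = (fun y => t ^ n * f y) y := fun y hy => H t ht y hy
  rw [D_congr_on hS.op e hx i, D_cmul] at h1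
  have h0 : t ≠ 0 := ht.ne'
  rw [zpow_sub_one₀ h0]
  have h3 : D i f (t • x) = t⁻¹ * (t * D i f (t • x)) := by field_simp
  rw [h3, ← h1]
  ring

theorem Hom.euler {n : ℤ} (hS : Cn S) (hf : ContDiffOn ℝ ∞ f S) (H : Hom S n f) (hx : x ∈ S) :
    rad f x = n * f x := by
  have h1 : HasDerivAt (fun t : ℝ => t • x) x 1 := by
    simpa using (hasDerivAt_id (1 : ℝ)).smul_const x
  have hd : DifferentiableAt ℝ f ((fun t : ℝ => t • x) 1) := by
    simpa using cd_at hS.op hf hx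
  have h2 : HasDerivAt (fun t : ℝ => f (t • x)) (fderiv ℝ f ((1 : ℝ) • x) x) 1 :=
    hd.hasFDerivAt.comp_hasDerivAt (1 : ℝ) h1
  have h3 : HasDerivAt (fun t : ℝ => t ^ n * f x) ((n * (1 : ℝ) ^ (n - 1)) * f x) 1 :=
    (hasDerivAt_zpow n (1 : ℝ) (Or.inl one_ne_zero)).mul_const (f x)
  have e : (fun t : ℝ => f (t • x)) =ᶠ[𝓝 1] fun t : ℝ => t ^ n * f x := by
    filter_upwards [Ioi_mem_nhds (zero_lt_one' ℝ)] with t ht using H t ht x hx
  have h4 := (h3.congr_of_eventuallyEq e).unique h2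
  rw [one_smul, fderiv_eq_sum] at h4
  unfold rad
  rw [← h4]
  simp

theorem Hom.dotH {n n' : ℤ} (hS : Cn S) (hf : ContDiffOn ℝ ∞ f S) (hg : ContDiffOn ℝ ∞ g S)
    (H : Hom S n f) (H' : Hom S n' g) : Hom S (n + n' - 2) (dot f g) := by
  intro t ht x hx
  unfold dot
  rw [Finset.mul_sum]
  refine Finset.sum_congr rfl fun i _ => ?_
  rw [H.der hS hf i t ht x hx, H'.der hS hg i t ht x hx,
    show n + n' - 2 = (n - 1) + (n' - 1) by ring, zpow_add₀ ht.ne']
  ring

theorem Hom.lapH {n : ℤ} (hS : Cn S) (hf : ContDiffOn ℝ ∞ f S) (H : Hom S n f) :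
    Hom S (n - 2) (lap f) := by
  intro t ht x hx
  unfold lap
  rw [Finset.mul_sum]
  refine Finset.sum_congr rfl fun i _ => ?_
  rw [(H.der hS hf i).der hS (D_sm hS.op hf i) i t ht x hx,
    show n - 1 - 1 = n - 2 by ring]

theorem Hom.hsqH {n : ℤ} (hS : Cn S) (hf : ContDiffOn ℝ ∞ f S) (H : Hom S n f) :
    Hom S (2 * n - 4) (hsq f) := by
  intro t ht x hx
  unfold hsq
  rw [Finset.mul_sum]
  refine Finset.sum_congr rfl fun i _ => ?_
  rw [Finset.mul_sum]
  refine Finset.sum_congr rfl fun j _ => ?_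
  rw [(H.der hS hf j).der hS (D_sm hS.op hf j) i t ht x hx,
    show 2 * n - 4 = (n - 1 - 1) + (n - 1 - 1) by ring, zpow_add₀ ht.ne']
  ring

end Vale.Agent.P098
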