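import Vale.Agent.P098.Green

/-! Barriers and the Kato inequality. -/

open MeasureTheory Set Filter Topology Metric
open scoped ContDiff RealInnerProductSpace

noncomputable section

namespace Vale.Agent.P098

variable {d : ℕ} {S : Set (V d)} {U f g h k m F θ φ : V d → ℝ} {x : V d} {a b : ℝ}
  {z χ : ℝ → ℝ}

theorem kato_z (σ : ℝ) : ContDiffOn ℝ ∞ (fun s : ℝ => s ^ σ) (Ioi 0) :=
  contDiffOn_id.rpow_const_of_ne fun _ hs => ne_of_gt hs

theorem lap_bar (hU : Cone U) (σ : ℝ) (hx : x ∈ Om U) :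
    lap (fun y => U y * (‖y‖ ^ 2) ^ σ) x = 2 * σ * (2 * σ + d) * (U x * (‖x‖ ^ 2) ^ (σ - 1)) := by
  have h0 : 0 < ‖x‖ ^ 2 := pow_pos (norm_pos_iff.2 hx.1) 2
  have hz := kato_z σ
  have h1 := lap_mul hU.op hU.smO ((rz_smOn hz).mono (om_sub U)) hx
  have e : deriv (fun s : ℝ => s ^ σ) = fun s => σ * s ^ (σ - 1) :=
    funext fun s => Real.deriv_rpow_const s σ
  rw [lap_rz hz hx.1, dot_comm, dot_rz (Real.differentiableAt_rpow_const_of_ne σ h0.ne'),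
    hU.radU hx, hU.har x hx, e, deriv_const_mul_field, Real.deriv_rpow_const,
    Real.rpow_sub_one h0.ne' (σ - 1)] at h1
  refine h1.trans ?_
  have h2 : ‖x‖ ≠ 0 := norm_ne_zero_iff.2 hx.1
  field_simp
  ring

theorem kato_cs (hF : Cs S F) {G : ℝ → ℝ} (h0 : G 0 = 0) : Cs S fun x => G (F x) :=
  let ⟨K, h1, h2, h3⟩ := hF; ⟨K, h1, h2, fun x hx hK => (congrArg G (h3 x hx hK)).trans h0⟩

theorem kato_chi {η : ℝ} (hη : 0 < η) : ∃ χ : ℝ → ℝ, ContDiff ℝ ∞ χ ∧ χ 0 = 0 ∧ ∀ s, 0 ≤ χ s ∧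
    |s| ≤ χ s + η * √|s| ∧ |deriv χ s| ≤ 1 ∧ 0 ≤ deriv (deriv χ) s := by
  have hp : ∀ s : ℝ, 0 < s ^ 2 + (η ^ 2) ^ 2 := fun s => by positivity
  have hq : ∀ s : ℝ, HasDerivAt (fun s => √(s ^ 2 + (η ^ 2) ^ 2))
      (s / √(s ^ 2 + (η ^ 2) ^ 2)) s := fun s => by
    refine (((hasDerivAt_pow 2 s).add_const _).sqrt (hp s).ne').congr_deriv ?_
    have := (Real.sqrt_pos.2 (hp s)).ne'
    simp only [Nat.cast_ofNat, Nat.add_one_sub_one, pow_one]
    field_simp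
  have e : deriv (fun s => √(s ^ 2 + (η ^ 2) ^ 2) - η ^ 2) =
      fun s => s / √(s ^ 2 + (η ^ 2) ^ 2) := funext fun s => ((hq s).sub_const _).deriv
  refine ⟨fun s => √(s ^ 2 + (η ^ 2) ^ 2) - η ^ 2,
    (ContDiff.sqrt (by fun_prop) fun s => (hp s).ne').sub contDiff_const, ?_, fun s => ?_⟩
  · simp only [ne_eq, OfNat.ofNat_ne_zero, not_false_eq_true, zero_pow, zero_add]
    rw [Real.sqrt_sq (by positivity), sub_self]
  have h0 := Real.sqrt_pos.2 (hp s)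
  have h1 : η ^ 2 ≤ √(s ^ 2 + (η ^ 2) ^ 2) := Real.le_sqrt_of_sq_le (by nlinarith)
  have h2 : |s| ≤ √(s ^ 2 + (η ^ 2) ^ 2) := Real.abs_le_sqrt (by nlinarith)
  refine ⟨sub_nonneg.2 h1, ?_, ?_, ?_⟩
  · have h3 := Real.mul_self_sqrt (abs_nonneg s)
    have h4 := Real.sqrt_nonneg |s|
    rcases le_total η √|s| with h | h <;> nlinarith
  · rw [e, abs_div, abs_of_pos h0, div_le_one h0]
    exact h2
  · rw [e, ((hasDerivAt_id' s).fun_div (hq s) h0.ne').deriv]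
    refine div_nonneg ?_ (sq_nonneg _)
    rw [one_mul, sub_nonneg, ← mul_div_assoc, div_le_iff₀ h0, Real.mul_self_sqrt (hp s).le]
    nlinarith

theorem kato (hd : 2 ≤ d) (hU : Cone U) {ψ : V d → ℝ} (hψ : Tst (Om U) ψ) :
    ∫ x in Om U, |ψ x| * (U x / ‖x‖ ^ 3) ≤ ∫ x in Om U, |lap ψ x| * (U x / ‖x‖) := by
  have hO := hU.op
  have hd' : (2 : ℝ) ≤ d := by exact_mod_cast hd
  have hn : ∀ x ∈ Om U, 0 < ‖x‖ := fun x hx => norm_pos_iff.2 hx.1
  have hB : ContDiffOn ℝ ∞ (fun y => U y * (‖y‖ ^ 2) ^ (-1 / 2 : ℝ)) (Om U) :=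
    hU.smO.mul ((rz_smOn (kato_z _)).mono (om_sub U))
  have e1 : ∀ x ∈ Om U, (‖x‖ ^ 2) ^ (-1 / 2 : ℝ) = ‖x‖⁻¹ := fun x hx => by
    rw [← Real.rpow_two, ← Real.rpow_mul (hn x hx).le, ← Real.rpow_neg_one]
    norm_num
  have e2 : ∀ x ∈ Om U, lap (fun y => U y * (‖y‖ ^ 2) ^ (-1 / 2 : ℝ)) x =
      -((d - 1) * (U x / ‖x‖ ^ 3)) := fun x hx => by
    have := (hn x hx).ne'
    rw [lap_bar hU _ hx, Real.rpow_sub_one (by positivity), e1 x hx]
    field_simp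
    ring
  have hw : ∀ n : ℕ, ContinuousOn (fun x => U x / ‖x‖ ^ n) (Om U) := fun n =>
    hU.smO.continuousOn.div (by fun_prop) fun x hx => (pow_pos (hn x hx) n).ne'
  have hc := hψ.1.continuous
  have hs : ContDiffOn ℝ ∞ ψ (Om U) := hψ.1.contDiffOn
  have key : ∀ η : ℝ, 0 < η → ∫ x in Om U, |ψ x| * (U x / ‖x‖ ^ 3) ≤
      (∫ x in Om U, |lap ψ x| * (U x / ‖x‖)) +
        η * ∫ x in Om U, √|ψ x| * (U x / ‖x‖ ^ 3) := fun η hη => by
    obtain ⟨χ, h1, h2, h3⟩ := kato_chi hη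
    have c1 := kato_cs hψ.cs h2
    have s1 : ContDiffOn ℝ ∞ (fun x => χ (ψ x)) (Om U) := (h1.comp hψ.1).contDiffOn
    have i1 := (c1.mul _).int hO (s1.continuousOn.mul (lap_sm hO hB).continuousOn)
    have i2 := ((c1.lapC hO).mul' _).int hO (hB.continuousOn.mul (lap_sm hO s1).continuousOn)
    have i3 : IntegrableOn (fun x => √|ψ x| * (U x / ‖x‖ ^ 3)) (Om U) :=
      ((kato_cs hψ.cs (G := fun s => √|s|) (by simp)).mul _).int hO
        ((by fun_prop : Continuous fun x => √|ψ x|).continuousOn.mul (hw 3))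
    have i4 : IntegrableOn (fun x => |ψ x| * (U x / ‖x‖ ^ 3)) (Om U) :=
      ((kato_cs hψ.cs abs_zero).mul _).int hO (hc.abs.continuousOn.mul (hw 3))
    have i5 : IntegrableOn (fun x => |lap ψ x| * (U x / ‖x‖)) (Om U) :=
      ((kato_cs (hψ.cs.lapC hO) abs_zero).mul _).int hO
        ((lap_sm hO hs).continuousOn.abs.mul (by simpa only [pow_one] using hw 1))
    have k1 := setIntegral_mono_on i4 ((i3.const_mul η).sub i1) hO.measurableSet fun x hx => by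
      have h4 : 0 ≤ U x / ‖x‖ ^ 3 := div_nonneg hx.2.le (by positivity)
      have h5 := mul_le_mul_of_nonneg_right (h3 (ψ x)).2.1 h4
      have h6 := mul_nonneg (mul_nonneg (h3 (ψ x)).1 h4) (sub_nonneg.2 hd')
      simp only [Pi.sub_apply, e2 x hx]
      linarith
    have k2 := setIntegral_mono_on i2.neg i5 hO.measurableSet fun x hx => by
      have h4 : 0 ≤ U x / ‖x‖ := div_nonneg hx.2.le (by positivity)
      have h5 := mul_nonneg (h3 (ψ x)).2.2.2 (dot_nonneg ψ x)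
      have h6 := mul_le_of_le_one_left (abs_nonneg (lap ψ x)) (h3 (ψ x)).2.2.1
      rw [← abs_mul] at h6
      have h7 : -lap (fun x => χ (ψ x)) x ≤ |lap ψ x| := by
        rw [lap_comp isOpen_univ h1.contDiffOn hO hs hx (mem_univ _)]
        linarith [neg_abs_le (deriv χ (ψ x) * lap ψ x)]
      simp only [Pi.neg_apply, e1 x hx, ← div_eq_mul_inv]
      linarith [mul_le_mul_of_nonneg_right h7 h4]
    simp only [Pi.sub_apply, Pi.neg_apply] at k1 k2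
    rw [integral_sub (i3.const_mul η) i1, integral_const_mul, green2 hO c1 s1 hB] at k1
    rw [integral_neg] at k2
    linarith
  have ht : Continuous fun η : ℝ => (∫ x in Om U, |lap ψ x| * (U x / ‖x‖)) +
      η * ∫ x in Om U, √|ψ x| * (U x / ‖x‖ ^ 3) := by fun_prop
  have h := ge_of_tendsto ((ht.tendsto 0).mono_left (nhdsWithin_le_nhds (s := Ioi 0)))
    (eventually_mem_nhdsWithin.mono key)
  rwa [zero_mul, add_zero] at h

end Vale.Agent.P098
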