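import Vale.Agent.P098.StabA
import Vale.Agent.P098.Seg

/-! The second variation. -/

open MeasureTheory Set Filter Topology Metric
open scoped ContDiff RealInnerProductSpace

noncomputable section

namespace Vale.Agent.P098

variable {d : ℕ} {S : Set (V d)} {U f g h k m F θ φ : V d → ℝ} {x : V d} {a b : ℝ}
  {z χ : ℝ → ℝ}

theorem stabb_dot (t : ℝ) (φ : V d → ℝ) (x : V d) :
    dot (fun x => t * φ x) (fun x => t * φ x) x = t ^ 2 * dot φ φ x := by
  rw [dot_cmul, dot_comm, dot_cmul]
  ring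

theorem Adm.smul (hφ : Adm U φ a b) {t : ℝ} (ht : 0 ≤ t) : Adm U (fun x => t * φ x) a b := by
  refine ⟨hφ.pos, contDiffOn_const.mul hφ.sm, fun x hx => mul_nonneg ht (hφ.nn x hx),
    fun x hx h => hφ.supp x hx (right_ne_zero_of_mul h), ?_, ?_⟩
  · simp only [mul_pow]
    exact hφ.i0.const_mul _
  · rw [show dot (fun x => t * φ x) (fun x => t * φ x) = fun x => t ^ 2 * dot φ φ x from
      funext (stabb_dot t φ)]
    exact hφ.i1.const_mul _

theorem Adm.int (hU : Cone U) (hφ : Adm U φ a b) (hk : ContDiffOn ℝ ∞ k {0}ᶜ) :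
    IntegrableOn (fun x => φ x * dot φ k x) (Om U) ∧
      IntegrableOn (fun x => φ x ^ 2 * lap k x) (Om U) := by
  have ms := hU.op.measurableSet
  obtain ⟨K, hK0, hK⟩ := bd_an (dot_sm cn_compl.op hk hk).continuousOn hφ.pos b
  obtain ⟨L, hL0, hL⟩ := bd_an (lap_sm cn_compl.op hk).continuousOn hφ.pos b
  refine ⟨(hφ.i0.add (hφ.i1.const_mul K)).mono' ((hφ.sm.mul
      (dot_sm hU.op hφ.sm (hk.mono (om_sub U)))).continuousOn.aestronglyMeasurable ms)
      (ae_restrict_of_forall_mem ms fun x hx => ?_),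
    (hφ.i0.const_mul L).mono' (((hφ.sm.pow 2).mul
      (lap_sm hU.op (hk.mono (om_sub U)))).continuousOn.aestronglyMeasurable ms)
      (ae_restrict_of_forall_mem ms fun x hx => ?_)⟩
  · have h0 := dot_nonneg φ x
    show |φ x * dot φ k x| ≤ φ x ^ 2 + K * dot φ φ x
    by_cases h : φ x = 0
    · rw [h, zero_mul, abs_zero]
      positivity
    · have h1 := (dot_sq_le φ k x).trans (mul_le_mul_of_nonneg_left
        ((le_abs_self _).trans (hK x (hφ.supp x hx h).1 (hφ.supp x hx h).2)) h0)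
      refine abs_le.2 ⟨?_, ?_⟩ <;>
        nlinarith [sq_nonneg (φ x - dot φ k x), sq_nonneg (φ x + dot φ k x)]
  · show |φ x ^ 2 * lap k x| ≤ L * φ x ^ 2
    by_cases h : φ x = 0
    · rw [h]
      simp
    · rw [abs_mul, abs_of_nonneg (sq_nonneg _), mul_comm]
      exact mul_le_mul_of_nonneg_right (hL x (hφ.supp x hx h).1 (hφ.supp x hx h).2) (sq_nonneg _)

theorem stabb_ite {μ : Measure (V d)} (hf : AEMeasurable f μ) (hg : AEMeasurable g μ)
    (hF : Integrable F μ) : Integrable (fun x => if f x ≤ g x then F x else 0) μ ∧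
      Integrable (fun x => if f x ≤ g x then 0 else F x) μ := by
  have h1 : Integrable (fun x => if f x ≤ g x then F x else 0) μ :=
    (hF.indicator₀ (nullMeasurableSet_le hf hg)).congr (Eventually.of_forall fun x => by
      by_cases h : f x ≤ g x
      · simp [h]
      · simp [h])
  refine ⟨h1, (hF.sub h1).congr (Eventually.of_forall fun x => ?_)⟩
  by_cases h : f x ≤ g x
  · simp [h]
  · simp [h]

theorem stabb_an (hφ : Adm U φ a b) {t : ℝ} (hx : x ∈ Om U) (h : U x ≤ t * φ x) : x ∈ An U a b :=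
  ⟨hx.2, hφ.supp x hx fun e => absurd (hx.2.trans_le h) (by rw [e, mul_zero]; exact lt_irrefl 0)⟩

theorem stabb_loc (hU : Cone U) (hφ : Adm U φ a b) (hF : ContinuousOn F {0}ᶜ) (t : ℝ) :
    IntegrableOn (fun x => if U x ≤ t * φ x then F x else 0) (Om U) := by
  have hs : An U a b ⊆ Om U := an_sub hφ.pos
  have ms : MeasurableSet (An U a b) := hU.an_meas hφ.pos
  obtain ⟨K, -, hK⟩ := bd_an hF hφ.pos b
  refine int_om hU hφ.pos (fun x hx h => (stabb_an hφ hx (by_contra fun c => h (if_neg c))).2)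
    (stabb_ite ((hU.smO.continuousOn.mono hs).aemeasurable ms)
      (((continuousOn_const.mul hφ.sm.continuousOn).mono hs).aemeasurable ms) ?_).1
  exact IntegrableOn.of_bound (an_fin U a b).lt_top
    ((hF.mono (hs.trans (om_sub U))).aestronglyMeasurable ms) K
    (ae_restrict_of_forall_mem ms fun x hx => hK x hx.2.1 hx.2.2)

theorem stabb_out (hU : Cone U) (hφ : Adm U φ a b) (hF : IntegrableOn F (Om U)) (t : ℝ) :
    IntegrableOn (fun x => if U x ≤ t * φ x then 0 else F x) (Om U) :=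
  (stabb_ite (hU.smO.continuousOn.aemeasurable hU.op.measurableSet)
    ((continuousOn_const.mul hφ.sm.continuousOn).aemeasurable hU.op.measurableSet) hF).2

theorem stabb_ev (c : ℝ) {η : ℝ} (hη : 0 < η) : ∀ᶠ t in 𝓝[>] (0 : ℝ), t * c < η := by
  have : ContinuousAt (fun t : ℝ => t * c) 0 := by fun_prop
  exact mem_nhdsWithin_of_mem_nhds (this.eventually_lt continuousAt_const (by simpa using hη))

theorem stabb_lim (hU : Cone U) {G : ℝ → V d → ℝ} (hF : IntegrableOn F (Om U))
    (hG : ∀ t, 0 < t → AEStronglyMeasurable (G t) (volume.restrict (Om U)))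
    (hb : ∀ t, 0 < t → ∀ x ∈ Om U, |G t x| ≤ |F x|)
    (hl : ∀ x ∈ Om U, ∀ᶠ t in 𝓝[>] (0 : ℝ), G t x = g x) :
    Tendsto (fun t => ∫ x in Om U, G t x) (𝓝[>] 0) (𝓝 (∫ x in Om U, g x)) :=
  tendsto_integral_filter_of_dominated_convergence (fun x => |F x|)
    (eventually_mem_nhdsWithin.mono hG)
    (eventually_mem_nhdsWithin.mono fun t ht =>
      ae_restrict_of_forall_mem hU.op.measurableSet (hb t ht)) hF.abs
    (ae_restrict_of_forall_mem hU.op.measurableSet fun x hx =>
      tendsto_const_nhds.congr' ((hl x hx).mono fun _ h => h.symm))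

theorem stabb_id (hU : Cone U) (hφ : Adm U φ a b) (hk : ContDiffOn ℝ ∞ k {0}ᶜ) {t : ℝ}
    (ht : 0 < t) : ∫ x in Om U, (if U x ≤ t * φ x then U x * dot U k x else 0) =
      -(t ^ 2 * ((∫ x in Om U, (if U x ≤ t * φ x then 0 else φ x * dot φ k x)) +
        1 / 2 * ∫ x in Om U, min (U x / t) (φ x) ^ 2 * lap k x)) := by
  have h := stabA1 hU (hφ.smul ht.le) hk
  have e1 : ∀ x, (if U x ≤ t * φ x then 0 else t * φ x * dot (fun x => t * φ x) k x) =
      t ^ 2 * (if U x ≤ t * φ x then 0 else φ x * dot φ k x) := fun x => by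
    rw [dot_cmul]
    split_ifs <;> ring
  have e2 : ∀ x, min (U x) (t * φ x) ^ 2 * lap k x =
      t ^ 2 * (min (U x / t) (φ x) ^ 2 * lap k x) := fun x => by
    rw [← mul_assoc, ← mul_pow, mul_min_of_nonneg _ _ ht.le, mul_div_cancel₀ _ ht.ne']
  simp only [e1, e2, integral_const_mul] at h
  linarith

theorem stabb_f (hU : Cone U) (ha : 0 < a) (b : ℝ) {l : ℝ} (hl : 0 < l) :
    ∃ η C : ℝ, 0 < η ∧ 0 < C ∧ ∀ x ∈ An U a b, ∀ y, U x ≤ y →
      |1 - dot U U x + U x * dot U (dot U U) x| ≤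
        2 * l * (U x * dot U U x) + C * (if η ≤ y then y ^ 2 else 0) := by
  have sP := dot_sm cn_compl.op hU.sm hU.sm
  have sQ := dot_sm cn_compl.op hU.sm sP
  have sf : ContDiffOn ℝ ∞ (fun x => 1 - dot U U x + U x * dot U (dot U U) x) {0}ᶜ :=
    (contDiffOn_const.sub sP).add (hU.sm.mul sQ)
  obtain ⟨η₁, h1, k1⟩ := small1 hU sf (fun x hx h0 => by
    have d1 := cd_at cn_compl.op hU.sm hx
    have d2 := cd_at cn_compl.op sP hx
    have d3 := cd_at cn_compl.op sQ hx
    have d4 : dot (fun _ => 1) U x = 0 := by simp only [dot, D_const, zero_mul, Finset.sum_const_zero]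
    rw [dot_add ((differentiableAt_const _).fun_sub d2) (d1.fun_mul d3),
      dot_sub (differentiableAt_const _) d2, dot_mul d1 d3, d4, hU.fb x hx h0, h0,
      dot_comm (dot U U) U]
    constructor <;> ring) ha b hl
  obtain ⟨η₂, h2, k2⟩ := small0 hU (continuousOn_const.sub sP.continuousOn)
    (f := fun x => 1 - dot U U x) (fun x hx h0 => by rw [hU.fb x hx h0, sub_self]) ha b one_half_pos
  obtain ⟨K, hK0, hK⟩ := bd_an sf.continuousOn ha b
  have hη := lt_min h1 h2
  refine ⟨min η₁ η₂, K / min η₁ η₂ ^ 2, hη, by positivity, fun x hx y hy => ?_⟩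
  have p0 := dot_nonneg U x
  have u0 := hx.1
  by_cases c : U x ≤ min η₁ η₂
  · have a1 := k1 x ⟨hx, c.trans (min_le_left _ _)⟩
    have a2 := (abs_le.1 (k2 x ⟨hx, c.trans (min_le_right _ _)⟩)).2
    refine a1.trans (le_add_of_le_of_nonneg ?_ (by split_ifs <;> positivity))
    nlinarith [mul_pos hl u0]
  · have c' := (not_le.1 c).le.trans hy
    rw [if_pos c']
    refine (hK x hx.2.1 hx.2.2).trans (le_add_of_nonneg_of_le (by positivity) ?_)
    rw [div_mul_eq_mul_div, le_div_iff₀ (by positivity)]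
    exact mul_le_mul_of_nonneg_left (pow_le_pow_left₀ hη.le c' 2) hK0.le

theorem stabb_w (hU : Cone U) (hφ : Adm U φ a b) (η t : ℝ) :
    IntegrableOn (fun x => if η ≤ t * φ x then φ x ^ 2 else 0) (Om U) :=
  (stabb_ite aemeasurable_const
    ((continuousOn_const.mul hφ.sm.continuousOn).aemeasurable hU.op.measurableSet) hφ.i0).1

theorem stabb_t (hU : Cone U) (hs : Stab U) (hφ : Adm U φ a b) {l η C t : ℝ} (hl : 0 < l)
    (hC : 0 < C) (ht : 0 < t) (H : ∀ x ∈ An U a b, ∀ y, U x ≤ y →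
      |1 - dot U U x + U x * dot U (dot U U) x| ≤
        2 * l * (U x * dot U U x) + C * (if η ≤ y then y ^ 2 else 0)) :
    (∫ x in Om U, (if U x ≤ t * φ x then 0 else φ x * dot φ (dot U U) x)) +
        1 / 2 * ∫ x in Om U, min (U x / t) (φ x) ^ 2 * lap (dot U U) x ≤
      (∫ x in Om U, dot φ φ x) + 2 * l * (∫ x in Om U, |φ x * dot φ U x|) +
        C * ∫ x in Om U, (if η ≤ t * φ x then φ x ^ 2 else 0) := by
  have ms := hU.op.measurableSet
  have sP := dot_sm cn_compl.op hU.sm hU.sm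
  have sQ := dot_sm cn_compl.op hU.sm sP
  have h0 := stabA0 hU hs (hφ.smul ht.le)
  have h1 := stabb_id hU hφ sP ht
  have h2 := stabb_id hU hφ hU.sm ht
  have i1 := stabb_loc hU hφ (F := fun x => 1 - dot U U x)
    (continuousOn_const.sub sP.continuousOn) t
  have i2 := stabb_loc hU hφ (hU.sm.mul sQ).continuousOn t
  have i3 := stabb_loc hU hφ (hU.sm.mul sP).continuousOn t
  have i4 := stabb_w hU hφ η t
  have i5 := (hφ.int hU hU.sm).1
  have h3 : ∫ x in Om U, min (U x / t) (φ x) ^ 2 * lap U x = 0 :=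
    setIntegral_eq_zero_of_forall_eq_zero fun x hx => by rw [hU.har x hx, mul_zero]
  have h4 : ∫ x in Om U, (if U x ≤ t * φ x then 0 else
      dot (fun x => t * φ x) (fun x => t * φ x) x) ≤ t ^ 2 * ∫ x in Om U, dot φ φ x := by
    rw [← integral_const_mul]
    refine integral_mono (stabb_out hU hφ (hφ.smul ht.le).i1 t) (hφ.i1.const_mul _) fun x => ?_
    have := dot_nonneg φ x
    show (if U x ≤ t * φ x then 0 else _) ≤ t ^ 2 * dot φ φ x
    rw [stabb_dot]
    split_ifs
    · positivity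
    · exact le_rfl
  have h5 : -∫ x in Om U, (if U x ≤ t * φ x then 0 else φ x * dot φ U x) ≤
      ∫ x in Om U, |φ x * dot φ U x| := by
    rw [← integral_neg]
    refine integral_mono (stabb_out hU hφ i5 t).neg i5.abs fun x => ?_
    show -(if U x ≤ t * φ x then 0 else _) ≤ |φ x * dot φ U x|
    split_ifs
    · rw [neg_zero]
      exact abs_nonneg _
    · exact neg_le_abs _
  have h6 : -((∫ x in Om U, (if U x ≤ t * φ x then 1 - dot U U x else 0)) +
      ∫ x in Om U, (if U x ≤ t * φ x then U x * dot U (dot U U) x else 0)) ≤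
      2 * l * (∫ x in Om U, (if U x ≤ t * φ x then U x * dot U U x else 0)) +
        C * t ^ 2 * ∫ x in Om U, (if η ≤ t * φ x then φ x ^ 2 else 0) := by
    rw [← integral_add i1 i2, ← integral_neg, ← integral_const_mul, ← integral_const_mul,
      ← integral_add (i3.const_mul _) (i4.const_mul _)]
    refine setIntegral_mono_on (i1.add i2).neg ((i3.const_mul _).add (i4.const_mul _)) ms
      fun x hx => ?_
    by_cases c : U x ≤ t * φ x
    · have := (neg_le_abs _).trans (H x (stabb_an hφ hx c) _ c)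
      simp only [if_pos c]
      refine this.trans_eq ?_
      split_ifs <;> ring
    · simp only [if_neg c]
      rw [add_zero, neg_zero, mul_zero, zero_add]
      split_ifs <;> positivity
  rw [h3, mul_zero, add_zero] at h2
  refine le_of_mul_le_mul_left ?_ (pow_pos ht 2)
  have h7 := mul_le_mul_of_nonneg_left h5 (show 0 ≤ 2 * l * t ^ 2 by positivity)
  rw [h1, h2] at h6
  linarith

theorem stab2 (hU : Cone U) (hs : Stab U) (hφ : Adm U φ a b) :
    (∫ x in Om U, φ x * dot φ (dot U U) x) + 1 / 2 * ∫ x in Om U, φ x ^ 2 * lap (dot U U) x ≤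
      ∫ x in Om U, dot φ φ x := by
  have ms := hU.op.measurableSet
  have sP := dot_sm cn_compl.op hU.sm hU.sm
  obtain ⟨j1, j2⟩ := hφ.int hU sP
  have l1 := stabb_lim hU (G := fun t x => if U x ≤ t * φ x then 0 else φ x * dot φ (dot U U) x)
    j1 (fun t _ => (stabb_out hU hφ j1 t).1) (fun t _ x _ => by
      split_ifs
      · rw [abs_zero]
        exact abs_nonneg _
      · exact le_rfl) fun x hx => (stabb_ev (φ x) hx.2).mono fun t h => if_neg (not_le.2 h)
  have l2 := stabb_lim hU (G := fun t x => min (U x / t) (φ x) ^ 2 * lap (dot U U) x)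
    (g := fun x => φ x ^ 2 * lap (dot U U) x) j2
    (fun t _ => ((((hU.smO.continuousOn.div_const t).inf hφ.sm.continuousOn).pow 2).mul
      (lap_sm hU.op (sP.mono (om_sub U))).continuousOn).aestronglyMeasurable ms)
    (fun t ht x hx => by
      rw [abs_mul, abs_mul, abs_sq, abs_sq]
      exact mul_le_mul_of_nonneg_right (pow_le_pow_left₀
        (le_min (div_pos hx.2 ht).le (hφ.nn x hx)) (min_le_right _ _) 2) (abs_nonneg _))
    fun x hx => by
      filter_upwards [stabb_ev (φ x) hx.2, self_mem_nhdsWithin] with t h ht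
      rw [min_eq_right ((le_div_iff₀' ht).2 h.le)]
  have key : ∀ l, 0 < l → (∫ x in Om U, φ x * dot φ (dot U U) x) +
      1 / 2 * ∫ x in Om U, φ x ^ 2 * lap (dot U U) x ≤
      (∫ x in Om U, dot φ φ x) + 2 * l * ∫ x in Om U, |φ x * dot φ U x| := fun l hl => by
    obtain ⟨η, C, hη, hC, H⟩ := stabb_f hU hφ.pos b hl
    have l3 := stabb_lim hU (G := fun t x => if η ≤ t * φ x then φ x ^ 2 else 0) (g := fun _ => 0)
      hφ.i0 (fun t _ => (stabb_w hU hφ η t).1) (fun t _ x _ => by
        split_ifs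
        · exact le_rfl
        · rw [abs_zero]
          exact abs_nonneg _) fun x _ => (stabb_ev (φ x) hη).mono fun t h => if_neg (not_le.2 h)
    have := le_of_tendsto_of_tendsto (l1.add (l2.const_mul (1 / 2)))
      ((l3.const_mul C).const_add _)
      (eventually_mem_nhdsWithin.mono fun t ht => stabb_t hU hs hφ hl hC ht H)
    rwa [integral_zero, mul_zero, add_zero] at this
  have c : ContinuousAt (fun l : ℝ =>
      (∫ x in Om U, dot φ φ x) + 2 * l * ∫ x in Om U, |φ x * dot φ U x|) 0 := by fun_prop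
  have := ge_of_tendsto (c.tendsto.mono_left (nhdsWithin_le_nhds (s := Ioi 0)))
    (eventually_mem_nhdsWithin.mono key)
  rwa [mul_zero, zero_mul, add_zero] at this

end Vale.Agent.P098
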