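import Vale.Agent.P098.LimB
import Vale.Agent.P098.StabB

/-! The test function in the stability inequality. -/

open MeasureTheory Set Filter Topology Metric
open scoped ContDiff RealInnerProductSpace

noncomputable section

namespace Vale.Agent.P098

variable {d : ℕ} {S : Set (V d)} {U f g h k m F θ φ : V d → ℝ} {x : V d} {a b : ℝ}
  {z χ : ℝ → ℝ}

theorem key_der (hz : Rc z a b) : Rc (deriv z) a b := by
  refine ⟨(contDiff_infty_iff_deriv.1 hz.sm).2, hz.pos, hz.le, fun s hs => ?_⟩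
  have k : tsupport z ⊆ Icc (a ^ 2) (b ^ 2) :=
    closure_minimal (fun t ht => hz.supp t ht) isClosed_Icc
  exact k (support_deriv_subset hs)

theorem key_sq (hz : Rc z a b) : Rc (fun s => z s ^ 2) a b :=
  ⟨hz.sm.pow 2, hz.pos, hz.le, fun s hs => hz.supp s fun e => hs (by simp [e])⟩

theorem key_norm (hz : Rc z a b) (hx : z (‖x‖ ^ 2) ≠ 0) : a ≤ ‖x‖ ∧ ‖x‖ ≤ b :=
  ⟨(sq_le_sq₀ hz.pos.le (norm_nonneg x)).1 (hz.supp _ hx).1,
    (sq_le_sq₀ (norm_nonneg x) (hz.pos.le.trans hz.le)).1 (hz.supp _ hx).2⟩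

theorem key_int (hU : Cone U) (hz : Rc z a b) {c : ℝ → ℝ} (hc : Continuous c)
    (hF : IntegrableOn F (An U a b)) {G : V d → ℝ}
    (e : ∀ x, G x = z (‖x‖ ^ 2) * c (‖x‖ ^ 2) * F x) : IntegrableOn G (Om U) := by
  have h1 : Continuous fun x : V d => z (‖x‖ ^ 2) * c (‖x‖ ^ 2) :=
    (hz.sm.continuous.mul hc).comp (continuous_norm.pow 2)
  obtain ⟨C, -, hC⟩ := bd_an (h1.continuousOn (s := {0}ᶜ)) hz.pos b
  refine int_om hU hz.pos (fun x _ hx => key_norm hz fun k => hx (by rw [e, k]; simp)) ?_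
  rw [show G = fun x => z (‖x‖ ^ 2) * c (‖x‖ ^ 2) * F x from funext e]
  refine Integrable.bdd_mul (c := C) hF h1.aestronglyMeasurable ?_
  filter_upwards [ae_restrict_mem (hU.an_meas hz.pos)] with x hx
  exact hC x hx.2.1 hx.2.2

theorem key_lim {p q c : ℝ} (H : ∀ e : ℝ, 0 < e → p ≤ q + e * c) : p ≤ q := by
  refine le_of_forall_pos_le_add fun ε hε => (H (ε / (|c| + 1)) (by positivity)).trans ?_
  have k : ε / (|c| + 1) * c ≤ ε := by
    rw [div_mul_eq_mul_div, div_le_iff₀ (by positivity)]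
    nlinarith [le_abs_self c]
  linarith

theorem key_kato (hU : Cone U) (hh : Hr U h) (hg : Gd U h g) (ha : 0 < a) (b : ℝ) {e : ℝ}
    (he : 0 ≤ e) :
    IntegrableOn (fun x => dot (dot h h) (dot h h) x / (4 * (dot h h x + e))) (An U a b) := by
  have w := dot_sm hU.op hh.sm hh.sm
  have m1 := ((dot_sm hU.op w w).continuousOn.mono (an_sub (b := b) ha)).aemeasurable
    (μ := volume) (hU.an_meas ha)
  have m2 := (w.continuousOn.mono (an_sub (b := b) ha)).aemeasurable (μ := volume) (hU.an_meas ha)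
  refine (hsq_int hU hh hg ha b).mono'
    (m1.div ((m2.add_const e).const_mul 4)).aestronglyMeasurable ?_
  filter_upwards [ae_restrict_mem (hU.an_meas ha)] with x hx
  have k0 := dot_nonneg h x
  have k1 := dot_nonneg (dot h h) x
  have k2 := hsq_nonneg h x
  have k3 := dot_w_le hU.op hh.sm (an_sub ha hx)
  rw [Real.norm_of_nonneg (by positivity)]
  refine div_le_of_le_mul₀ (by positivity) k2 ?_
  nlinarith [mul_nonneg k2 he]

theorem kato_int (hU : Cone U) (hh : Hr U h) (hg : Gd U h g) (ha : 0 < a) (b : ℝ) :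
    IntegrableOn (fun x => dot (dot h h) (dot h h) x / (4 * dot h h x)) (An U a b) := by
  simpa only [add_zero] using key_kato hU hh hg ha b le_rfl

/-- the test function -/
def keyF (z : ℝ → ℝ) (h : V d → ℝ) (e : ℝ) (y : V d) : ℝ := rz z y * √(dot h h y + e)

theorem key_dot (hU : Cone U) (hh : Hr U h) (hz : Rc z a b) {e : ℝ} (he : 0 < e) (hx : x ∈ Om U)
    (k : V d → ℝ) : dot (keyF z h e) k x =
      z (‖x‖ ^ 2) * (1 / (2 * √(dot h h x + e)) * dot (dot h h) k x) +
        √(dot h h x + e) * dot (rz z) k x := by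
  have w := cd_at hU.op (dot_sm hU.op hh.sm hh.sm) hx
  have p : dot h h x + e ≠ 0 := (add_pos_of_nonneg_of_pos (dot_nonneg h x) he).ne'
  have q : HasDerivAt (fun t : ℝ => √(t + e)) (1 / (2 * √(dot h h x + e))) (dot h h x) :=
    ((hasDerivAt_id' (dot h h x)).add_const e).sqrt p
  have r := dot_comp (χ := fun t : ℝ => √(t + e)) q.differentiableAt w k
  rw [q.deriv] at r
  have s := dot_mul ((rz_sm hz.sm).differentiable (by simp) x) ((w.add_const e).sqrt p) k
  rw [r] at s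
  exact s

theorem key_alg {Z Y q w e s t : ℝ} (hq : 0 < q) (h2 : q ^ 2 = w + e) :
    Z * (1 / (2 * q) * (Z * (1 / (2 * q) * t) + q * (2 * Y * (-2 * w)))) +
      q * (Z * (1 / (2 * q) * (2 * Y * (-2 * w))) + q * (2 * Y * (2 * s * Y))) =
      Z ^ 2 * (t / (4 * (w + e))) - w * (2 * (2 * Z * Y)) + (w + e) * (4 * s * Y ^ 2) := by
  rw [← h2]
  field_simp
  ring

theorem key_ff (hU : Cone U) (hh : Hr U h) (hz : Rc z a b) {e : ℝ} (he : 0 < e) (hx : x ∈ Om U) :
    dot (keyF z h e) (keyF z h e) x =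
      z (‖x‖ ^ 2) ^ 2 * (dot (dot h h) (dot h h) x / (4 * (dot h h x + e))) -
        dot h h x * (2 * deriv (fun s => z s ^ 2) (‖x‖ ^ 2)) +
        (dot h h x + e) * (4 * ‖x‖ ^ 2 * deriv z (‖x‖ ^ 2) ^ 2) := by
  have dz : DifferentiableAt ℝ z (‖x‖ ^ 2) := hz.sm.differentiable (by simp) _
  have p : 0 < dot h h x + e := add_pos_of_nonneg_of_pos (dot_nonneg h x) he
  have r : rad (dot h h) x = -2 * dot h h x := by
    rw [(Hom.dotH hU.cn hh.sm hh.sm hh.hom hh.hom).euler hU.cn (dot_sm hU.op hh.sm hh.sm) hx]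
    norm_num
  have s : deriv (fun s => z s ^ 2) (‖x‖ ^ 2) = 2 * z (‖x‖ ^ 2) * deriv z (‖x‖ ^ 2) := by
    rw [(dz.hasDerivAt.fun_pow 2).deriv]
    norm_num
  rw [key_dot hU hh hz he hx, dot_comm (dot h h) (keyF z h e), dot_comm (rz z) (keyF z h e),
    key_dot hU hh hz he hx, key_dot hU hh hz he hx, dot_comm (dot h h) (rz z), dot_rz dz,
    dot_rz dz, rad_rz dz, r, s]
  exact key_alg (Real.sqrt_pos.2 p) (Real.sq_sqrt p.le)

theorem key_sqF {e : ℝ} (he : 0 < e) (x : V d) :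
    keyF z h e x ^ 2 = z (‖x‖ ^ 2) ^ 2 * (dot h h x + e) := by
  rw [keyF, mul_pow, Real.sq_sqrt (add_nonneg (dot_nonneg h x) he.le)]
  rfl

theorem key_fp (hU : Cone U) (hh : Hr U h) (hz : Rc z a b) {e : ℝ} (he : 0 < e) (hx : x ∈ Om U) :
    keyF z h e x * dot (keyF z h e) (dot U U) x =
      1 / 2 * dot (fun y => rz (fun s => z s ^ 2) y * dot h h y) (dot U U) x := by
  have dz : DifferentiableAt ℝ z (‖x‖ ^ 2) := hz.sm.differentiable (by simp) _
  have p : 0 < √(dot h h x + e) := Real.sqrt_pos.2 (add_pos_of_nonneg_of_pos (dot_nonneg h x) he)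
  have r : rad (dot U U) x = 0 := by
    rw [(Hom.dotH hU.cn hU.smO hU.smO hU.hom1 hU.hom1).euler hU.cn (dot_sm hU.op hU.smO hU.smO) hx]
    norm_num
  rw [key_dot hU hh hz he hx, dot_mul ((rz_sm (key_sq hz).sm).differentiable (by simp) x)
    (cd_at hU.op (dot_sm hU.op hh.sm hh.sm) hx), dot_rz dz,
    dot_rz ((key_sq hz).sm.differentiable (by simp) _), r, keyF, rz, rz]
  field_simp
  ring

theorem key_adm (hU : Cone U) (hh : Hr U h) (hg : Gd U h g) (hz : Rc z a b) (hn : ∀ s, 0 ≤ z s)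
    {e : ℝ} (he : 0 < e) : Adm U (keyF z h e) a b := by
  have hw := w_int hU hh hg hz.pos b
  have hw' : IntegrableOn (fun x => dot h h x + e) (An U a b) :=
    hw.add (integrableOn_const (an_fin U a b))
  have cz := hz.sm.continuous
  have cz' := (key_der hz).sm.continuous
  refine ⟨hz.pos, (rz_sm hz.sm).contDiffOn.mul (((dot_sm hU.op hh.sm hh.sm).add
    contDiffOn_const).sqrt fun x _ => (add_pos_of_nonneg_of_pos (dot_nonneg h x) he).ne'),
    fun x _ => mul_nonneg (hn _) (Real.sqrt_nonneg _),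
    fun x _ hx => key_norm hz (left_ne_zero_of_mul hx), ?_, ?_⟩
  · exact key_int hU hz cz hw' fun x => by rw [key_sqF he, sq]
  · have i1 := key_int hU hz cz (key_kato hU hh hg hz.pos b he.le)
      (G := fun x => z (‖x‖ ^ 2) ^ 2 * (dot (dot h h) (dot h h) x / (4 * (dot h h x + e))))
      fun x => by rw [sq]
    have i2 := key_int hU (key_der (key_sq hz)) (continuous_const (y := 2)) hw
      (G := fun x => dot h h x * (2 * deriv (fun s => z s ^ 2) (‖x‖ ^ 2))) fun x => by ring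
    have i3 := key_int hU (key_der hz) (c := fun s => 4 * s * deriv z s) (by fun_prop) hw'
      (G := fun x => (dot h h x + e) * (4 * ‖x‖ ^ 2 * deriv z (‖x‖ ^ 2) ^ 2)) fun x => by ring
    exact IntegrableOn.congr_fun ((i1.sub i2).add i3) (fun x hx => (key_ff hU hh hz he hx).symm)
      hU.op.measurableSet

theorem key (hU : Cone U) (hs : Stab U) (hh : Hr U h) (hg : Gd U h g) (hz : Rc z a b)
    (hn : ∀ s, 0 ≤ z s) :
    ∫ x in Om U, z (‖x‖ ^ 2) ^ 2 * (hsq h x - dot (dot h h) (dot h h) x / (4 * dot h h x)) ≤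
      (∫ x in Om U, dot h h x * (4 * ‖x‖ ^ 2 * deriv z (‖x‖ ^ 2) ^ 2)) +
      ∫ x in Om U, dot h h x * (4 * ‖x‖ ^ 2 * deriv (deriv fun s => z s ^ 2) (‖x‖ ^ 2) +
        (2 * d - 4) * deriv (fun s => z s ^ 2) (‖x‖ ^ 2)) := by
  have hm := hU.op.measurableSet
  have z2 := key_sq hz
  have hw := w_int hU hh hg hz.pos b
  have cz := hz.sm.continuous
  have cz' := (key_der hz).sm.continuous
  have iH := key_int hU hz cz (hsq_int hU hh hg hz.pos b)
    (G := fun x => z (‖x‖ ^ 2) ^ 2 * hsq h x) fun x => by rw [sq]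
  have iK := key_int hU hz cz (kato_int hU hh hg hz.pos b)
    (G := fun x => z (‖x‖ ^ 2) ^ 2 * (dot (dot h h) (dot h h) x / (4 * dot h h x)))
    fun x => by rw [sq]
  have i1 := key_int hU (key_der hz) (c := fun s => 4 * s * deriv z s) (by fun_prop) hw
    (G := fun x => dot h h x * (4 * ‖x‖ ^ 2 * deriv z (‖x‖ ^ 2) ^ 2)) fun x => by ring
  have i2 := key_int hU (key_der z2) (continuous_const (y := 2)) hw
    (G := fun x => dot h h x * (2 * deriv (fun s => z s ^ 2) (‖x‖ ^ 2))) fun x => by ring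
  have i3 : IntegrableOn (fun x => dot h h x *
      (4 * ‖x‖ ^ 2 * deriv (deriv fun s => z s ^ 2) (‖x‖ ^ 2) +
        (2 * d - 4) * deriv (fun s => z s ^ 2) (‖x‖ ^ 2))) (Om U) := by
    have j1 := key_int hU (key_der (key_der z2)) (c := fun s => 4 * s) (by fun_prop) hw
      fun _ => rfl
    have j2 := key_int hU (key_der z2) (continuous_const (y := 2 * (d : ℝ) - 4)) hw fun _ => rfl
    refine IntegrableOn.congr_fun (j1.add j2) (fun x _ => ?_) hm
    simp only [Pi.add_apply]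
    ring
  have i4 := key_int hU (key_der hz) (c := fun s => 4 * s * deriv z s) (by fun_prop)
    (integrableOn_const (C := (1 : ℝ)) (an_fin U a b))
    (G := fun x => 4 * ‖x‖ ^ 2 * deriv z (‖x‖ ^ 2) ^ 2) fun x => by ring
  have hb := boch_lim hU hh hg z2 fun s => sq_nonneg _
  have e1 : ∫ x in Om U, dot h h x * (4 * ‖x‖ ^ 2 * deriv (deriv fun s => z s ^ 2) (‖x‖ ^ 2) +
      (2 * d - 2) * deriv (fun s => z s ^ 2) (‖x‖ ^ 2)) =
      (∫ x in Om U, dot h h x * (4 * ‖x‖ ^ 2 * deriv (deriv fun s => z s ^ 2) (‖x‖ ^ 2) +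
        (2 * d - 4) * deriv (fun s => z s ^ 2) (‖x‖ ^ 2))) +
      ∫ x in Om U, dot h h x * (2 * deriv (fun s => z s ^ 2) (‖x‖ ^ 2)) := by
    rw [← integral_add i3 i2]
    exact integral_congr_ae (Eventually.of_forall fun x => by ring)
  have e2 : ∫ x in Om U, z (‖x‖ ^ 2) ^ 2 *
      (hsq h x - dot (dot h h) (dot h h) x / (4 * dot h h x)) =
      (∫ x in Om U, z (‖x‖ ^ 2) ^ 2 * hsq h x) -
        ∫ x in Om U, z (‖x‖ ^ 2) ^ 2 * (dot (dot h h) (dot h h) x / (4 * dot h h x)) := by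
    rw [← integral_sub iH iK]
    exact integral_congr_ae (Eventually.of_forall fun x => by ring)
  have main : 1 / 2 * (∫ x in Om U, dot (fun y => rz (fun s => z s ^ 2) y * dot h h y)
      (dot U U) x) + 1 / 2 * (∫ x in Om U, z (‖x‖ ^ 2) ^ 2 * dot h h x * lap (dot U U) x) ≤
      (∫ x in Om U, z (‖x‖ ^ 2) ^ 2 * (dot (dot h h) (dot h h) x / (4 * dot h h x))) -
        (∫ x in Om U, dot h h x * (2 * deriv (fun s => z s ^ 2) (‖x‖ ^ 2))) +
        ∫ x in Om U, dot h h x * (4 * ‖x‖ ^ 2 * deriv z (‖x‖ ^ 2) ^ 2) := by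
    refine key_lim (c := ∫ x in Om U, 4 * ‖x‖ ^ 2 * deriv z (‖x‖ ^ 2) ^ 2) fun e he => ?_
    have ad := key_adm hU hh hg hz hn he
    have st := stab2 hU hs ad
    have sP : ContDiffOn ℝ ∞ (dot U U) {0}ᶜ := dot_sm cn_compl.op hU.sm hU.sm
    rw [setIntegral_congr_fun hm fun x hx => key_fp hU hh hz he hx, integral_const_mul] at st
    have b1 : ∫ x in Om U, z (‖x‖ ^ 2) ^ 2 * dot h h x * lap (dot U U) x ≤
        ∫ x in Om U, keyF z h e x ^ 2 * lap (dot U U) x := by
      refine setIntegral_mono_on (lim_int hU hh hg z2).2 (ad.int hU sP).2 hm fun x hx => ?_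
      rw [key_sqF he, lap_dot hU.op hU.smO hU.har hx]
      refine mul_le_mul_of_nonneg_right (mul_le_mul_of_nonneg_left (by linarith) (sq_nonneg _)) ?_
      exact mul_nonneg zero_le_two (hsq_nonneg U x)
    have b2 : ∫ x in Om U, dot (keyF z h e) (keyF z h e) x ≤
        ∫ x in Om U, (z (‖x‖ ^ 2) ^ 2 * (dot (dot h h) (dot h h) x / (4 * dot h h x)) -
          dot h h x * (2 * deriv (fun s => z s ^ 2) (‖x‖ ^ 2)) +
          dot h h x * (4 * ‖x‖ ^ 2 * deriv z (‖x‖ ^ 2) ^ 2) +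
          e * (4 * ‖x‖ ^ 2 * deriv z (‖x‖ ^ 2) ^ 2)) := by
      refine setIntegral_mono_on ad.i1 (((iK.sub i2).add i1).add (i4.const_mul e)) hm
        fun x hx => ?_
      rw [key_ff hU hh hz he hx]
      have k : dot (dot h h) (dot h h) x / (4 * (dot h h x + e)) ≤
          dot (dot h h) (dot h h) x / (4 * dot h h x) := by
        rcases (dot_nonneg h x).eq_or_lt with k0 | k0
        · have k3 := dot_w_le hU.op hh.sm hx
          rw [← k0, mul_zero] at k3
          rw [le_antisymm k3 (dot_nonneg _ x), zero_div, zero_div]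
        · exact div_le_div_of_nonneg_left (dot_nonneg _ x) (by positivity) (by linarith)
      have k' := mul_le_mul_of_nonneg_left k (sq_nonneg (z (‖x‖ ^ 2)))
      linarith
    rw [integral_add (by exact (iK.sub i2).add i1) (i4.const_mul e),
      integral_add (by exact iK.sub i2) i1, integral_sub iK i2, integral_const_mul] at b2
    linarith
  rw [e1] at hb
  rw [e2]
  linarith

end Vale.Agent.P098
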