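import Vale.Agent.P098.Pt

/-! The choice of the cut-offs. -/

open MeasureTheory Set Filter Topology Metric
open scoped ContDiff RealInnerProductSpace

noncomputable section

namespace Vale.Agent.P098

variable {d : ℕ} {S : Set (V d)} {U f g h k m F θ φ : V d → ℝ} {x : V d} {a b : ℝ}
  {z χ : ℝ → ℝ}

theorem lima_sub (ha : 0 < a) (ε : ℝ) : Ly U a b ε ⊆ Om U := fun _ hx => an_sub ha hx.1

theorem lima_d1 (hU : Cone U) {ε δ C Cz : ℝ} {R G : V d → ℝ} (hχ : Chi χ ε δ C)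
    (hz : Rc z a b) (hC : ∀ s, |z s| ≤ Cz) (hG : IntegrableOn G (Ly U a b (2 * ε)))
    (hR : ∀ x ∈ Ly U a b (2 * ε), |R x| ≤ G x) :
    |∫ x in Om U, deriv χ (U x) * z (‖x‖ ^ 2) * R x| ≤
      C / ε * Cz * ∫ x in Ly U a b (2 * ε), G x := by
  rw [setIntegral_eq_of_subset_of_forall_sdiff_eq_zero hU.op.measurableSet
    (lima_sub hz.pos (2 * ε)), ← integral_const_mul, ← Real.norm_eq_abs]
  · refine norm_integral_le_of_norm_le (hG.const_mul _) ?_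
    refine (ae_restrict_iff' (hU.ly_meas hz.pos _)).2 (ae_of_all _ fun x hx => ?_)
    rw [Real.norm_eq_abs, abs_mul, abs_mul]
    have h1 := hχ.d1 (U x)
    have h2 := (abs_nonneg _).trans h1
    have h3 := (abs_nonneg _).trans (hC 0)
    exact mul_le_mul (mul_le_mul h1 (hC _) (abs_nonneg _) h2) (hR x hx) (abs_nonneg _)
      (mul_nonneg h2 h3)
  · rintro x ⟨hx, hx'⟩
    by_cases h0 : z (‖x‖ ^ 2) = 0
    · rw [h0, mul_zero, zero_mul]
    · rw [hχ.d1z _ (not_le.1 fun h1 => hx' ⟨⟨hx.2, hz.an h0⟩, h1⟩), zero_mul, zero_mul]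

theorem lima_d2 (hU : Cone U) {ε δ C Cz K : ℝ} {W G : V d → ℝ} (hχ : Chi χ ε δ C)
    (hz : Rc z a b) (hn : ∀ s, 0 ≤ z s) (hC : ∀ s, |z s| ≤ Cz) (hK : 0 ≤ K)
    (hG : IntegrableOn G (Ly U a b (2 * δ))) (hG0 : ∀ x ∈ Ly U a b (2 * δ), 0 ≤ G x)
    (hW : ∀ x, 0 ≤ W x) (hR : ∀ x ∈ Ly U a b (2 * δ), W x ≤ K * (U x * G x)) :
    ∫ x in Om U, deriv (deriv χ) (U x) * z (‖x‖ ^ 2) * W x ≤
      C / ε * Cz * K * ∫ x in Ly U a b (2 * δ), G x := by
  have hm := hU.ly_meas (b := b) hz.pos (2 * δ)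
  have h2 := (abs_nonneg _).trans (hχ.d1 0)
  have h3 := (abs_nonneg _).trans (hC 0)
  have h4 : 0 ≤ C / ε * Cz * K := mul_nonneg (mul_nonneg h2 h3) hK
  by_cases hi : IntegrableOn (fun x => deriv (deriv χ) (U x) * z (‖x‖ ^ 2) * W x) (Om U)
  · have e : ∫ x in Om U, (Ly U a b (2 * δ)).indicator (fun x => C / ε * Cz * K * G x) x =
        C / ε * Cz * K * ∫ x in Ly U a b (2 * δ), G x := by
      rw [setIntegral_indicator hm, inter_eq_right.2 (lima_sub hz.pos _), integral_const_mul]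
    rw [← e]
    refine setIntegral_mono_on hi
      (((integrable_indicator_iff hm).2 (hG.const_mul _)).integrableOn) hU.op.measurableSet
      fun x hx => ?_
    have h5 := mul_nonneg (hn (‖x‖ ^ 2)) (hW x)
    by_cases hx' : x ∈ Ly U a b (2 * δ)
    · rw [indicator_of_mem hx', mul_assoc]
      rcases le_total (deriv (deriv χ) (U x)) 0 with h6 | h6
      · exact (mul_nonpos_of_nonpos_of_nonneg h6 h5).trans (mul_nonneg h4 (hG0 x hx'))
      · have h7 : z (‖x‖ ^ 2) * W x ≤ Cz * (K * (U x * G x)) :=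
          mul_le_mul ((le_abs_self _).trans (hC _)) (hR x hx') (hW x) h3
        have h8 := mul_le_mul_of_nonneg_right (hχ.d2 _ hx.2)
          (mul_nonneg (mul_nonneg h3 hK) (hG0 x hx'))
        have h9 := mul_le_mul_of_nonneg_left h7 h6
        linarith
    · rw [indicator_of_notMem hx', mul_assoc]
      by_cases h0 : z (‖x‖ ^ 2) = 0
      · rw [h0, zero_mul, mul_zero]
      · exact mul_nonpos_of_nonpos_of_nonneg
          (hχ.d2z _ (not_le.1 fun h1 => hx' ⟨⟨hx.2, hz.an h0⟩, h1⟩)) h5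
  · rw [integral_undef hi]
    exact mul_nonneg h4 (setIntegral_nonneg hm hG0)

theorem lima_step (hU : Cone U) (hh : Hr U h) (hg : Gd U h g) (hz : Rc z a b)
    (hn : ∀ s, 0 ≤ z s) : ∃ C K B : ℝ, ∀ l : ℝ, 0 < l → ∃ (χ : ℝ → ℝ) (ε δ : ℝ),
      0 < δ ∧ ε ≤ l ∧ Chi χ ε δ C ∧
      (∫ x in Om U, deriv (deriv χ) (U x) * z (‖x‖ ^ 2) *
        (dot h h x * dot U U x - dot h U x ^ 2) ≤ K * l) ∧
      (|∫ x in Om U, deriv χ (U x) * z (‖x‖ ^ 2) * hes U h h x| ≤ B) ∧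
      (|∫ x in Om U, 4 * deriv χ (U x) * deriv z (‖x‖ ^ 2) * (U x * dot h h x)| ≤ K * l) ∧
      |∫ x in Om U, deriv χ (U x) * z (‖x‖ ^ 2) *
        (dot h h x * dot U (dot U U) x / 2 - hes U h h x)| ≤ K * l := by
  have ha := hz.pos
  obtain ⟨C, hC, hχ⟩ := exists_chi
  obtain ⟨Cz, hCz, hz1⟩ := hz.bd
  obtain ⟨Cy, hCy, hz2⟩ := hz.der.bd
  obtain ⟨η₁, C₁, hη₁, hC₁, hw⟩ := pt_wedge hU hg ha b
  obtain ⟨η₂, C₂, hη₂, hC₂, hb⟩ := pt_bd hU hg ha b
  obtain ⟨Cv, hCv, hv⟩ := vol_ly hU ha b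
  have hI := hg.int a b ha
  have hI0 : ∀ x ∈ An U a b, 0 ≤ U x * dot g g x := fun x hx =>
    mul_nonneg hx.1.le (dot_nonneg _ _)
  have hs : ∀ ε, Ly U a b ε ⊆ An U a b := fun ε x hx => hx.1
  have c3 : ContinuousOn (fun x => U x * dot h h x) (Om U) :=
    (hU.smO.mul (dot_sm hU.op hh.sm hh.sm)).continuousOn
  have c4 : ContinuousOn (fun x => dot h h x * dot U (dot U U) x / 2 - hes U h h x) (Om U) :=
    ((((dot_sm hU.op hh.sm hh.sm).mul (dot_sm hU.op hU.smO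
      (dot_sm hU.op hU.smO hU.smO))).div_const 2).sub (hes_sm hU.op hU.smO hh.sm hh.sm)).continuousOn
  refine ⟨C, C * Cz * C₁ + 4 * C * Cy + C * Cz,
    C * Cz * (C₂ * (2 * Cv) + C₂ * 2 * ∫ x in An U a b, U x * dot g g x), fun l hl => ?_⟩
  obtain ⟨η₃, hη₃, h3⟩ := layer hU hg ha c3 (pt_uw hU hg ha b) hl
  obtain ⟨η₄, hη₄, h4⟩ := layer hU hg ha c4 (pt_rem hU hg ha b) hl
  obtain ⟨ε, hε, e0, e1, e2, e3, e4⟩ :
      ∃ ε, 0 < ε ∧ ε ≤ l ∧ 2 * ε ≤ η₁ ∧ 2 * ε ≤ η₂ ∧ ε ≤ η₃ ∧ ε ≤ η₄ := by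
    refine ⟨min (min l (η₁ / 2)) (min (η₂ / 2) (min η₃ η₄)), by positivity, ?_, ?_, ?_, ?_, ?_⟩
    · exact (min_le_left _ _).trans (min_le_left _ _)
    · linarith [(min_le_left (min l (η₁ / 2)) (min (η₂ / 2) (min η₃ η₄))).trans (min_le_right _ _)]
    · linarith [(min_le_right (min l (η₁ / 2)) (min (η₂ / 2) (min η₃ η₄))).trans (min_le_left _ _)]
    · exact (min_le_right _ _).trans ((min_le_right _ _).trans (min_le_left _ _))
    · exact (min_le_right _ _).trans ((min_le_right _ _).trans (min_le_right _ _))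
  obtain ⟨η₅, hη₅, h5⟩ := tail hU ha hI (l := l * ε) (by positivity)
  obtain ⟨δ, hδ, d1, d2⟩ : ∃ δ, 0 < δ ∧ δ ≤ ε ∧ 2 * δ ≤ η₅ :=
    ⟨min ε (η₅ / 2), by positivity, min_le_left _ _, by linarith [min_le_right ε (η₅ / 2)]⟩
  obtain ⟨χ, hχ'⟩ := hχ ε δ hδ d1
  have p1 : 0 < C * Cz * C₁ * l := by positivity
  have p2 : 0 < 4 * C * Cy * l := by positivity
  have p3 : 0 < C * Cz * l := by positivity
  refine ⟨χ, ε, δ, hδ, e0, hχ', ?_, ?_, ?_, ?_⟩
  · have h6 := lima_d2 hU (G := fun x => |U x * dot g g x|)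
      (W := fun x => dot h h x * dot U U x - dot h U x ^ 2) hχ' hz hn hz1 hC₁.le
      (hI.mono_set (hs _)).abs (fun _ _ => abs_nonneg _)
      (fun x => sub_nonneg.2 (dot_sq_le _ _ _)) fun x hx => by
        rw [abs_of_nonneg (hI0 x hx.1)]
        have := hw x ⟨hx.1, by linarith [hx.2]⟩
        linarith
    have h7 := mul_le_mul_of_nonneg_left (h5 _ d2)
      (show 0 ≤ C / ε * Cz * C₁ by positivity)
    have e : C / ε * Cz * C₁ * (l * ε) = C * Cz * C₁ * l := by field_simp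
    linarith
  · have hfin : volume (Ly U a b (2 * ε)) ≠ ⊤ :=
      ne_top_of_le_ne_top (an_fin U a b) (measure_mono (hs _))
    have i1 : IntegrableOn (fun _ => C₂) (Ly U a b (2 * ε)) := integrableOn_const hfin
    have i2 : IntegrableOn (fun x => C₂ * (2 * ε) * (U x * dot g g x)) (Ly U a b (2 * ε)) :=
      (hI.mono_set (hs _)).const_mul _
    have h6 := lima_d1 hU (R := hes U h h)
      (G := fun x => C₂ + C₂ * (2 * ε) * (U x * dot g g x)) hχ' hz hz1 (i1.add i2) fun x hx => by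
        have h7 := hb x ⟨hx.1, by linarith [hx.2]⟩
        have h8 := mul_le_mul_of_nonneg_right hx.2 (mul_nonneg hC₂.le (hI0 x hx.1))
        linarith
    rw [integral_add i1 i2, integral_const_mul, setIntegral_const, smul_eq_mul] at h6
    have h7 := hv (2 * ε) (by positivity)
    have h8 : ∫ x in Ly U a b (2 * ε), U x * dot g g x ≤ ∫ x in An U a b, U x * dot g g x :=
      setIntegral_mono_set hI ((ae_restrict_iff' (hU.an_meas ha)).2 (ae_of_all _ hI0))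
        (hs _).eventuallyLE
    refine h6.trans ?_
    have e : C * Cz * (C₂ * (2 * Cv) + C₂ * 2 * ∫ x in An U a b, U x * dot g g x) =
        C / ε * Cz * (Cv * (2 * ε) * C₂ + C₂ * (2 * ε) * ∫ x in An U a b, U x * dot g g x) := by
      field_simp
    rw [e]
    gcongr
  · obtain ⟨i3, j3⟩ := h3 ε hε e3
    have h6 := lima_d1 hU (R := fun x => U x * dot h h x) hχ' hz.der hz2 i3.abs fun _ _ => le_rfl
    have h7 := mul_le_mul_of_nonneg_left j3 (show 0 ≤ C / ε * Cy by positivity)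
    have e : C / ε * Cy * (l * ε) = C * Cy * l := by field_simp
    simp only [mul_assoc (4 : ℝ)]
    rw [integral_const_mul, abs_mul, abs_of_pos (show (0 : ℝ) < 4 by norm_num)]
    linarith
  · obtain ⟨i4, j4⟩ := h4 ε hε e4
    have h6 := lima_d1 hU (R := fun x => dot h h x * dot U (dot U U) x / 2 - hes U h h x)
      hχ' hz hz1 i4.abs fun _ _ => le_rfl
    have h7 := mul_le_mul_of_nonneg_left j4 (show 0 ≤ C / ε * Cz by positivity)
    have e : C / ε * Cz * (l * ε) = C * Cz * l := by field_simp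
    linarith

theorem exists_seq (hU : Cone U) (hh : Hr U h) (hg : Gd U h g) (hz : Rc z a b)
    (hn : ∀ s, 0 ≤ z s) : ∃ (χ : ℕ → ℝ → ℝ) (e : ℕ → ℝ) (B : ℝ),
      (∀ n, ContDiff ℝ ∞ (χ n) ∧ (∀ s, 0 ≤ χ n s ∧ χ n s ≤ 1) ∧
        ∃ δ : ℝ, 0 < δ ∧ ∀ s, s ≤ δ → χ n s = 0) ∧
      (∀ s, 0 < s → ∀ᶠ n in atTop, χ n s = 1) ∧ Tendsto e atTop (𝓝 0) ∧
      (∀ n, ∫ x in Om U, deriv (deriv (χ n)) (U x) * z (‖x‖ ^ 2) *
        (dot h h x * dot U U x - dot h U x ^ 2) ≤ e n) ∧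
      (∀ n, |∫ x in Om U, deriv (χ n) (U x) * z (‖x‖ ^ 2) * hes U h h x| ≤ B) ∧
      (∀ n, |∫ x in Om U, 4 * deriv (χ n) (U x) * deriv z (‖x‖ ^ 2) * (U x * dot h h x)| ≤ e n) ∧
      ∀ n, |∫ x in Om U, deriv (χ n) (U x) * z (‖x‖ ^ 2) *
        (dot h h x * dot U (dot U U) x / 2 - hes U h h x)| ≤ e n := by
  obtain ⟨C, K, B, H⟩ := lima_step hU hh hg hz hn
  choose χ ε δ h1 h2 h3 h4 h5 h6 h7 using
    fun n : ℕ => H (1 / ((n : ℝ) + 1)) Nat.one_div_pos_of_nat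
  have ht := tendsto_one_div_add_atTop_nhds_zero_nat (𝕜 := ℝ)
  refine ⟨χ, fun n => K * (1 / ((n : ℝ) + 1)), B,
    fun n => ⟨(h3 n).sm, fun s => ⟨(h3 n).nn s, (h3 n).le s⟩, δ n, h1 n, (h3 n).zero⟩,
    fun s hs => ?_, by simpa using ht.const_mul K, h4, h5, h6, h7⟩
  filter_upwards [ht.eventually (eventually_lt_nhds (half_pos hs))] with n hn'
  exact (h3 n).one s (by linarith [h2 n])

end Vale.Agent.P098
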