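import Vale.Agent.P098.LimA

/-! The Bochner inequality up to the boundary. -/

open MeasureTheory Set Filter Topology Metric
open scoped ContDiff RealInnerProductSpace

noncomputable section

namespace Vale.Agent.P098

variable {d : ℕ} {S : Set (V d)} {U f g h k m F θ φ : V d → ℝ} {x : V d} {a b : ℝ}
  {z χ : ℝ → ℝ}

theorem limb_der {δ : ℝ} (h0 : ∀ s, s < δ → χ s = 0) (s : ℝ) (hs : s < δ) : deriv χ s = 0 := by
  have e : χ =ᶠ[𝓝 s] fun _ => 0 := (eventually_lt_nhds hs).mono h0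
  rw [e.deriv_eq, deriv_const]

theorem limb_cs (hU : Cone U) (hz : Rc z a b) {δ : ℝ} (hδ : 0 < δ) (h0 : ∀ s, s < δ → χ s = 0) :
    Cs (Om U) fun x => χ (U x) * rz z x :=
  hU.cs hz.pos hδ fun _ _ h => ⟨not_lt.1 fun h1 => left_ne_zero_of_mul h (h0 _ h1),
    hz.an (right_ne_zero_of_mul h)⟩

theorem limb_int (hU : Cone U) (hz : Rc z a b) {δ : ℝ} (hδ : 0 < δ) (hχ : ContDiff ℝ ∞ χ)
    (h0 : ∀ s, s < δ → χ s = 0) (hF : ContDiffOn ℝ ∞ F (Om U)) :
    IntegrableOn (fun x => χ (U x) * z (‖x‖ ^ 2) * F x) (Om U) :=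
  ((limb_cs hU hz hδ h0).mul F).int hU.op
    (((hχ.comp_contDiffOn hU.smO).mul (rz_sm hz.sm).contDiffOn).mul hF).continuousOn

theorem limb_an (hU : Cone U) (ha : 0 < a) (hk : ContinuousOn k {0}ᶜ)
    (hF : IntegrableOn F (An U a b)) : IntegrableOn (fun x => k x * F x) (An U a b) := by
  obtain ⟨C, -, hC⟩ := bd_an hk ha b
  exact Integrable.bdd_mul (c := C) hF
    ((hk.mono ((an_sub ha).trans (om_sub U))).aestronglyMeasurable (hU.an_meas ha))
    ((ae_restrict_iff' (hU.an_meas ha)).2 (ae_of_all _ fun x hx => hC x hx.2.1 hx.2.2))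

theorem limb_mul (hU : Cone U) (hz : Rc z a b) (hk : ContinuousOn k {0}ᶜ)
    (hF : IntegrableOn F (An U a b)) :
    IntegrableOn (fun x => z (‖x‖ ^ 2) * k x * F x) (Om U) :=
  int_om hU hz.pos (fun _ _ h => hz.an (left_ne_zero_of_mul (left_ne_zero_of_mul h)))
    (limb_an hU hz.pos ((rz_sm hz.sm).continuous.continuousOn.mul hk) hF)

theorem limb_Q (hU : Cone U) (hh : Hr U h) (hg : Gd U h g) (hz : Rc z a b) :
    IntegrableOn (fun x => dot h h x * (4 * ‖x‖ ^ 2 * deriv (deriv z) (‖x‖ ^ 2) +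
      (2 * d - 2) * deriv z (‖x‖ ^ 2))) (Om U) := by
  have h1 := limb_mul (k := fun x => 4 * ‖x‖ ^ 2) hU hz.der.der (by fun_prop)
    (w_int hU hh hg hz.pos b)
  have h2 := limb_mul (k := fun _ => 2 * d - 2) hU hz.der continuousOn_const
    (w_int hU hh hg hz.pos b)
  refine (h1.add h2).congr (ae_of_all _ fun x => ?_)
  simp only [Pi.add_apply]
  ring

theorem limb_dom (hU : Cone U) {χ : ℕ → ℝ → ℝ} (hc : ∀ n, ContDiff ℝ ∞ (χ n))
    (h01 : ∀ n s, 0 ≤ χ n s ∧ χ n s ≤ 1) (h1 : ∀ s, 0 < s → ∀ᶠ n in atTop, χ n s = 1)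
    (hF : IntegrableOn F (Om U)) : (∀ n, IntegrableOn (fun x => χ n (U x) * F x) (Om U)) ∧
      Tendsto (fun n => ∫ x in Om U, χ n (U x) * F x) atTop (𝓝 (∫ x in Om U, F x)) := by
  have hb : ∀ n s, ‖χ n s‖ ≤ 1 := fun n s => by
    rw [Real.norm_of_nonneg (h01 n s).1]
    exact (h01 n s).2
  have hi : ∀ n, IntegrableOn (fun x => χ n (U x) * F x) (Om U) := fun n =>
    Integrable.bdd_mul (c := 1) hF (((hc n).comp_contDiffOn hU.smO).continuousOn.aestronglyMeasurable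
      hU.op.measurableSet) (ae_of_all _ fun x => hb n _)
  refine ⟨hi, tendsto_integral_of_dominated_convergence _ (fun n => (hi n).1) hF.norm
    (fun n => ae_of_all _ fun x => ?_)
    ((ae_restrict_iff' hU.op.measurableSet).2 (ae_of_all _ fun x hx => ?_))⟩
  · rw [norm_mul]
    exact mul_le_of_le_one_left (norm_nonneg _) (hb n _)
  · exact tendsto_const_nhds.congr' ((h1 _ hx.2).mono fun n hn => by simp only [hn, one_mul])

theorem limb_id (hU : Cone U) (hh : Hr U h) (hz : Rc z a b) {δ : ℝ} (hδ : 0 < δ)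
    (hχ : ContDiff ℝ ∞ χ) (h0 : ∀ s, s < δ → χ s = 0)
    (hQ : IntegrableOn (fun x => χ (U x) * (dot h h x * (4 * ‖x‖ ^ 2 * deriv (deriv z) (‖x‖ ^ 2) +
      (2 * d - 2) * deriv z (‖x‖ ^ 2)))) (Om U)) :
    ∫ x in Om U, χ (U x) * z (‖x‖ ^ 2) * hsq h x =
      (∫ x in Om U, deriv (deriv χ) (U x) * z (‖x‖ ^ 2) *
        (dot h h x * dot U U x - dot h U x ^ 2)) -
      (∫ x in Om U, deriv χ (U x) * z (‖x‖ ^ 2) * hes U h h x) +
      (∫ x in Om U, 4 * deriv χ (U x) * deriv z (‖x‖ ^ 2) * (U x * dot h h x)) +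
      ∫ x in Om U, χ (U x) * (dot h h x * (4 * ‖x‖ ^ 2 * deriv (deriv z) (‖x‖ ^ 2) +
        (2 * d - 2) * deriv z (‖x‖ ^ 2))) := by
  have o := hU.op
  have c1 : ContDiff ℝ ∞ (deriv χ) := (contDiff_infty_iff_deriv.1 hχ).2
  have c2 : ContDiff ℝ ∞ (deriv (deriv χ)) := (contDiff_infty_iff_deriv.1 c1).2
  have w := dot_sm o hh.sm hh.sm
  have i1 := limb_int hU hz hδ c2 (limb_der (limb_der h0))
    ((w.mul (dot_sm o hU.smO hU.smO)).sub ((dot_sm o hh.sm hU.smO).pow 2))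
  have i2 := limb_int hU hz hδ c1 (limb_der h0) (hes_sm o hU.smO hh.sm hh.sm)
  have i3 := limb_int (χ := fun s => 4 * deriv χ s) hU hz.der hδ (contDiff_const.mul c1)
    (fun s hs => by rw [limb_der h0 s hs, mul_zero]) (hU.smO.mul w)
  refine Eq.trans ?_ ((integral_add ((i1.sub i2).add i3) hQ).trans (congrArg₂ (· + ·)
    ((integral_add (i1.sub i2) i3).trans (congrArg₂ (· + ·) (integral_sub i1 i2) rfl)) rfl))
  refine (bochner o hh.sm hh.har (limb_cs hU hz hδ h0)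
    ((hχ.comp_contDiffOn hU.smO).mul (rz_sm hz.sm).contDiffOn)).trans ?_
  exact setIntegral_congr_fun o.measurableSet fun x hx => expand hU hh hχ hz.sm hx

theorem limb_fatou (hU : Cone U) (hh : Hr U h) (hz : Rc z a b) (hn : ∀ s, 0 ≤ z s)
    {χ : ℕ → ℝ → ℝ} (hc : ∀ n, ContDiff ℝ ∞ (χ n) ∧ (∀ s, 0 ≤ χ n s ∧ χ n s ≤ 1) ∧
      ∃ δ : ℝ, 0 < δ ∧ ∀ s, s ≤ δ → χ n s = 0) (h1 : ∀ s, 0 < s → ∀ᶠ n in atTop, χ n s = 1)
    {c : ℕ → ℝ} {C : ℝ} (hb : ∀ n, ∫ x in Om U, χ n (U x) * z (‖x‖ ^ 2) * hsq h x ≤ c n)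
    (hC : Tendsto c atTop (𝓝 C)) : IntegrableOn (fun x => z (‖x‖ ^ 2) * hsq h x) (Om U) ∧
      ∫ x in Om U, z (‖x‖ ^ 2) * hsq h x ≤ C := by
  refine fatou (fun n => ?_) (fun n => ae_of_all _ fun x => ?_)
    ((ae_restrict_iff' hU.op.measurableSet).2 (ae_of_all _ fun x hx => ?_)) hb hC
  · obtain ⟨c1, -, δ, hδ, c2⟩ := hc n
    exact limb_int hU hz hδ c1 (fun s hs => c2 s hs.le) (hsq_sm hU.op hh.sm)
  · exact mul_nonneg (mul_nonneg ((hc n).2.1 _).1 (hn _)) (hsq_nonneg _ _)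
  · exact tendsto_const_nhds.congr' ((h1 _ hx.2).mono fun n hn => by simp only [hn, one_mul])

theorem limb_green (hU : Cone U) (hh : Hr U h) (hz : Rc z a b) {δ : ℝ} (hδ : 0 < δ)
    (hχ : ContDiff ℝ ∞ χ) (h0 : ∀ s, s < δ → χ s = 0)
    (i1 : IntegrableOn (fun x => χ (U x) * dot (fun y => rz z y * dot h h y) (dot U U) x) (Om U)) :
    ∫ x in Om U, deriv χ (U x) * z (‖x‖ ^ 2) * (dot h h x * dot U (dot U U) x / 2 - hes U h h x) =
      -(1 / 2 * ∫ x in Om U, χ (U x) * dot (fun y => rz z y * dot h h y) (dot U U) x) -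
      (1 / 2 * ∫ x in Om U, χ (U x) * (z (‖x‖ ^ 2) * dot h h x * lap (dot U U) x)) -
      ∫ x in Om U, deriv χ (U x) * z (‖x‖ ^ 2) * hes U h h x := by
  have o := hU.op
  have c1 : ContDiff ℝ ∞ (deriv χ) := (contDiff_infty_iff_deriv.1 hχ).2
  have w := dot_sm o hh.sm hh.sm
  have P := dot_sm o hU.smO hU.smO
  have cU := hχ.comp_contDiffOn hU.smO
  have zw : ContDiffOn ℝ ∞ (fun y => rz z y * dot h h y) (Om U) := (rz_sm hz.sm).contDiffOn.mul w
  have i2 := limb_int hU hz hδ c1 (limb_der h0) (hes_sm o hU.smO hh.sm hh.sm)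
  have i3 := limb_int hU hz hδ c1 (limb_der h0) (w.mul (dot_sm o hU.smO P))
  have g1 := green (f := fun y => χ (U y) * (rz z y * dot h h y)) o
    (by simpa only [mul_assoc] using (limb_cs hU hz hδ h0).mul (dot h h)) (cU.mul zw) P
  have g2 : ∫ x in Om U, dot (fun y => χ (U y) * (rz z y * dot h h y)) (dot U U) x =
      (∫ x in Om U, χ (U x) * dot (fun y => rz z y * dot h h y) (dot U U) x) +
        ∫ x in Om U, deriv χ (U x) * z (‖x‖ ^ 2) * (dot h h x * dot U (dot U U) x) := by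
    rw [← integral_add i1 i3]
    refine setIntegral_congr_fun o.measurableSet fun x hx => ?_
    rw [dot_mul (f := fun y => χ (U y)) (cd_at o cU hx) (cd_at o zw hx),
      dot_comp (hχ.differentiable (by simp) _) (cd_at o hU.smO hx), rz]
    ring
  have g3 : ∫ x in Om U, deriv χ (U x) * z (‖x‖ ^ 2) *
      (dot h h x * dot U (dot U U) x / 2 - hes U h h x) =
      1 / 2 * (∫ x in Om U, deriv χ (U x) * z (‖x‖ ^ 2) * (dot h h x * dot U (dot U U) x)) -
        ∫ x in Om U, deriv χ (U x) * z (‖x‖ ^ 2) * hes U h h x := by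
    rw [← integral_const_mul, ← integral_sub (i3.const_mul _) i2]
    exact integral_congr_ae (ae_of_all _ fun x => by ring)
  have g4 : ∫ x in Om U, χ (U x) * (rz z x * dot h h x) * lap (dot U U) x =
      ∫ x in Om U, χ (U x) * (z (‖x‖ ^ 2) * dot h h x * lap (dot U U) x) :=
    integral_congr_ae (ae_of_all _ fun x => mul_assoc _ _ _)
  rw [g2, g4] at g1
  rw [g3]
  linarith

theorem hsq_int (hU : Cone U) (hh : Hr U h) (hg : Gd U h g) (ha : 0 < a) (b : ℝ) :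
    IntegrableOn (hsq h) (An U a b) := by
  rcases lt_or_ge b a with hab | hab
  · have e : An U a b = ∅ := eq_empty_of_forall_notMem fun x hx =>
      (hx.2.1.trans hx.2.2).not_gt hab
    rw [e]
    exact integrableOn_empty
  obtain ⟨z, hz, z0, -, z1⟩ := exists_rc ha hab
  obtain ⟨χ, e, B, c1, c2, c3, c4, c5, c6, -⟩ := exists_seq hU hh hg hz z0
  obtain ⟨q1, q2⟩ := limb_dom hU (fun n => (c1 n).1) (fun n => (c1 n).2.1) c2 (limb_Q hU hh hg hz)
  have h1 := (limb_fatou hU hh hz z0 c1 c2 (fun n => ?_)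
    (((c3.add_const B).add c3).add q2)).1
  · refine (h1.mono_set (an_sub ha)).congr_fun (fun x hx => ?_) (hU.an_meas ha)
    simp only [z1 _ (pow_le_pow_left₀ ha.le hx.2.1 2) (pow_le_pow_left₀ (norm_nonneg _) hx.2.2 2),
      one_mul]
  · obtain ⟨k1, -, δ, hδ, k2⟩ := c1 n
    rw [limb_id hU hh hz hδ k1 (fun s hs => k2 s hs.le) (q1 n)]
    linarith [c4 n, (abs_le.1 (c5 n)).1, (abs_le.1 (c6 n)).2]

theorem lim_int (hU : Cone U) (hh : Hr U h) (hg : Gd U h g) (hz : Rc z a b) :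
    IntegrableOn (dot (fun y => rz z y * dot h h y) (dot U U)) (Om U) ∧
      IntegrableOn (fun x => z (‖x‖ ^ 2) * dot h h x * lap (dot U U) x) (Om U) := by
  have o := hU.op
  have o' : IsOpen ({0}ᶜ : Set (V d)) := cn_compl.op
  have P := dot_sm o' hU.sm hU.sm
  have w := dot_sm o hh.sm hh.sm
  have iw := w_int hU hh hg hz.pos b
  have h1 : IntegrableOn (dot (dot h h) (dot U U)) (An U a b) := by
    refine Integrable.mono' ((hsq_int hU hh hg hz.pos b).add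
      (limb_an hU hz.pos (dot_sm o' P P).continuousOn iw))
      (((dot_sm o w (P.mono (om_sub U))).continuousOn.mono
        (an_sub hz.pos)).aestronglyMeasurable (hU.an_meas hz.pos))
      ((ae_restrict_iff' (hU.an_meas hz.pos)).2 (ae_of_all _ fun x hx => ?_))
    have k1 := dot_sq_le (dot h h) (dot U U) x
    have k2 := mul_le_mul_of_nonneg_right (dot_w_le o hh.sm (an_sub hz.pos hx))
      (dot_nonneg (dot U U) x)
    refine abs_le_of_sq_le_sq' ?_ (add_nonneg (hsq_nonneg _ _)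
      (mul_nonneg (dot_nonneg _ _) (dot_nonneg _ _))) |> abs_le.2
    simp only [Pi.add_apply]
    nlinarith [sq_nonneg (hsq h x - dot (dot U U) (dot U U) x * dot h h x)]
  have h2 : ContinuousOn (fun x => 2 * rad (dot U U) x) {0}ᶜ :=
    continuousOn_const.mul (continuousOn_finsetSum _ fun i _ =>
      ContinuousOn.mul (by fun_prop) (D_sm o' P i).continuousOn)
  constructor
  · refine ((limb_mul (k := fun _ => 1) hU hz continuousOn_const h1).add
      (limb_mul hU hz.der h2 iw)).congr_fun (fun x hx => ?_) o.measurableSet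
    rw [dot_mul ((rz_sm hz.sm).differentiable (by simp) x) (cd_at o w hx),
      dot_rz (hz.sm.differentiable (by simp) _), rz]
    simp only [Pi.add_apply]
    ring
  · refine (limb_mul hU hz (lap_sm o' P).continuousOn iw).congr (ae_of_all _ fun x => ?_)
    exact mul_right_comm _ _ _

theorem boch_lim (hU : Cone U) (hh : Hr U h) (hg : Gd U h g) (hz : Rc z a b)
    (hn : ∀ s, 0 ≤ z s) : ∫ x in Om U, z (‖x‖ ^ 2) * hsq h x ≤
      1 / 2 * (∫ x in Om U, dot (fun y => rz z y * dot h h y) (dot U U) x) +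
      1 / 2 * (∫ x in Om U, z (‖x‖ ^ 2) * dot h h x * lap (dot U U) x) +
      ∫ x in Om U, dot h h x * (4 * ‖x‖ ^ 2 * deriv (deriv z) (‖x‖ ^ 2) +
        (2 * d - 2) * deriv z (‖x‖ ^ 2)) := by
  obtain ⟨χ, e, B, c1, c2, c3, c4, -, c6, c7⟩ := exists_seq hU hh hg hz hn
  obtain ⟨l1, l2⟩ := lim_int hU hh hg hz
  obtain ⟨q1, q2⟩ := limb_dom hU (fun n => (c1 n).1) (fun n => (c1 n).2.1) c2 (limb_Q hU hh hg hz)
  obtain ⟨p1, p2⟩ := limb_dom hU (fun n => (c1 n).1) (fun n => (c1 n).2.1) c2 l1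
  obtain ⟨-, r2⟩ := limb_dom hU (fun n => (c1 n).1) (fun n => (c1 n).2.1) c2 l2
  have h1 := (limb_fatou hU hh hz hn c1 c2 (fun n => ?_)
    ((c3.const_mul 3).add (((p2.const_mul (1 / 2)).add (r2.const_mul (1 / 2))).add q2))).2
  · rwa [mul_zero, zero_add] at h1
  · obtain ⟨k1, -, δ, hδ, k2⟩ := c1 n
    have g := limb_green hU hh hz hδ k1 (fun s hs => k2 s hs.le) (p1 n)
    rw [limb_id hU hh hz hδ k1 (fun s hs => k2 s hs.le) (q1 n)]
    linarith [c4 n, (abs_le.1 (c6 n)).2, (abs_le.1 (c7 n)).2]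

end Vale.Agent.P098
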