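import Vale.Agent.P098.Green

/-!
From the statement to the classical problem.
-/

open MeasureTheory Set Filter Topology Metric
open scoped ContDiff RealInnerProductSpace

noncomputable section

namespace Vale.Agent.P098

variable {d : ℕ} {S : Set (V d)} {U f g h k m F θ φ : V d → ℝ} {x : V d} {a b : ℝ}
  {z χ : ℝ → ℝ}

theorem min_l2 (ht : Tst S m) (B : Set (V d)) : MemLp m 2 (volume.restrict B) :=
  (ht.1.continuous.memLp_of_hasCompactSupport ht.2.1).restrict B

theorem min_der (ht : Tst S m) (e : V d) : Tst S fun x => fderiv ℝ m x e :=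
  ⟨(ht.1.fderiv_right (m := ∞) (by simp)).clm_apply contDiff_const,
    ht.2.1.of_isClosed_subset (isClosed_tsupport _) (tsupport_fderiv_apply_subset ℝ e),
    (tsupport_fderiv_apply_subset ℝ e).trans ht.2.2⟩

theorem min_zero (ht : Tst S m) (hx : x ∉ S) : m x = 0 :=
  image_eq_zero_of_notMem_tsupport fun h => hx (ht.2.2 h)

theorem min_grad (ht : Tst S m) (B : Set (V d)) : MemLp (gradient m) 2 (volume.restrict B) := by
  refine MemLp.restrict B (Continuous.memLp_of_hasCompactSupport ?_ ?_)
  · exact (InnerProductSpace.toDual ℝ (V d)).symm.continuous.comp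
      (ht.1.continuous_fderiv (by simp))
  · exact (ht.2.1.fderiv (𝕜 := ℝ)).comp_left (g := (InnerProductSpace.toDual ℝ (V d)).symm)
      (map_zero _)

theorem min_inner (m : V d → ℝ) (x e : V d) : ⟪gradient m x, e⟫ = fderiv ℝ m x e := by
  simp [gradient]

theorem min_h1 {u : V d → ℝ} {G : V d → V d} (hu : InH1 S u G) (ht : Tst S m) :
    InH1 S (fun x => u x - m x) fun x => G x - gradient m x := by
  refine ⟨hu.1.sub (min_l2 ht S), hu.2.1.sub (min_grad ht S), fun ψ hψ e => ?_⟩
  have i1 : IntegrableOn (fun x => u x * fderiv ℝ ψ x e) S :=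
    hu.1.integrable_mul (min_l2 (min_der hψ e) S)
  have i2 : IntegrableOn (fun x => ψ x * ⟪G x, e⟫) S :=
    (min_l2 hψ S).integrable_mul (hu.2.1.inner_const e)
  have l2 : ∀ {p : V d → ℝ}, Tst S p → MemLp p 2 := fun hp =>
    hp.1.continuous.memLp_of_hasCompactSupport hp.2.1
  have i3 : Integrable fun x => m x * fderiv ℝ ψ x e := (l2 ht).integrable_mul (l2 (min_der hψ e))
  have i4 : Integrable fun x => fderiv ℝ m x e * ψ x := (l2 (min_der ht e)).integrable_mul (l2 hψ)
  have h1 := integral_mul_fderiv_eq_neg_fderiv_mul_of_integrable i4 i3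
    ((l2 ht).integrable_mul (l2 hψ)) (fun x _ => ht.1.differentiable (by simp) x)
    fun x _ => hψ.1.differentiable (by simp) x
  rw [← setIntegral_eq_integral_of_forall_compl_eq_zero (s := S) fun x hx => by
    rw [min_zero ht hx, zero_mul], ← setIntegral_eq_integral_of_forall_compl_eq_zero (s := S)
    (f := fun x => fderiv ℝ m x e * ψ x) fun x hx => by rw [min_zero hψ hx, mul_zero]] at h1
  have h2 : (fun x => ψ x * ⟪G x - gradient m x, e⟫)
      = fun x => ψ x * ⟪G x, e⟫ - fderiv ℝ m x e * ψ x := by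
    funext x
    rw [inner_sub_left, min_inner]
    ring
  simp only [sub_mul]
  rw [h2, integral_sub i1 i3.integrableOn, integral_sub i2 i4.integrableOn, hu.2.2 ψ hψ e, h1]
  ring

theorem min_h10 (u : V d → ℝ) (G : V d → V d) (ht : Tst S m) :
    InH10 S (fun x => (u x - m x) - u x) fun x => (G x - gradient m x) - G x := by
  refine ⟨fun _ x => -m x, fun _ => ⟨ht.1.neg, ht.2.1.neg, ?_⟩, ?_, ?_⟩
  · exact (tsupport_neg m).trans_subset ht.2.2
  · simp
  · have h1 : ∀ x, gradient (fun x => -m x) x = -gradient m x := fun x => by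
      simp [gradient, fderiv_fun_neg]
    simp [h1]

theorem min_dir {u : V d → ℝ} {G : V d → V d} (hu : InH1 S u G) (ht : Tst S m) :
    ∫ x in S, ‖G x - gradient m x‖ ^ 2
      = (∫ x in S, ‖G x‖ ^ 2) + 2 * (∫ x in S, u x * lap m x) + ∫ x in S, dot m m x := by
  have t1 : ∀ i, Tst S (D i m) := fun i => min_der ht (ee i)
  have i1 : ∀ i, IntegrableOn (fun x => u x * D i (D i m) x) S := fun i =>
    hu.1.integrable_mul (min_l2 (min_der (t1 i) (ee i)) S)
  have i2 : ∀ i, IntegrableOn (fun x => D i m x * ⟪G x, ee i⟫) S := fun i =>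
    (min_l2 (t1 i) S).integrable_mul (hu.2.1.inner_const (ee i))
  have i3 : IntegrableOn (fun x => ‖G x‖ ^ 2) S := hu.2.1.integrable_norm_pow (by simp)
  have i4 : IntegrableOn (fun x => ‖gradient m x‖ ^ 2) S :=
    (min_grad ht S).integrable_norm_pow (by simp)
  have i5 := integrable_finsetSum Finset.univ fun i _ => i2 i
  have h1 : (fun x => ‖G x - gradient m x‖ ^ 2)
      = fun x => ‖G x‖ ^ 2 - 2 * ∑ i, D i m x * ⟪G x, ee i⟫ + ‖gradient m x‖ ^ 2 := by
    funext x
    rw [norm_sub_sq_real, real_inner_comm, min_inner, fderiv_eq_sum]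
    simp only [inner_ee, mul_comm]
  have h2 : ∫ x in S, u x * lap m x = -∫ x in S, ∑ i, D i m x * ⟪G x, ee i⟫ := by
    simp only [lap, Finset.mul_sum]
    rw [integral_finsetSum _ fun i _ => i1 i, integral_finsetSum _ fun i _ => i2 i,
      ← Finset.sum_neg_distrib]
    exact Finset.sum_congr rfl fun i _ => hu.2.2 _ (t1 i) (ee i)
  have i6 : IntegrableOn (fun x => ‖G x‖ ^ 2 - 2 * ∑ i, D i m x * ⟪G x, ee i⟫) S :=
    i3.sub (i5.const_mul 2)
  rw [h1, integral_add i6 i4, integral_sub i3 (i5.const_mul 2), integral_const_mul, h2]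
  simp only [dot_self]
  ring

theorem min_op {u : V d → ℝ} (hU : SmoothFB u U) : IsOpen (Om U) :=
  hU.1.continuousOn.isOpen_inter_preimage isOpen_compl_singleton isOpen_Ioi

theorem min_ineq {u : V d → ℝ} {G : V d → V d} (hd : 0 < d) (hm : IsMin u G) (hU : SmoothFB u U)
    (ht : Tst (Om U) m) (hle : ∀ x ∈ Om U, m x ≤ U x) :
    volume.real {x | x ∈ Om U ∧ m x = U x} ≤
      (∫ x in Om U, dot m m x) + 2 * ∫ x in Om U, U x * lap m x := by
  have : Nontrivial (V d) := Module.nontrivial_of_finrank_pos (R := ℝ) (by simpa using hd)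
  obtain ⟨R, hR, hB⟩ := ht.2.1.isCompact.isBounded.subset_ball_lt 0 (0 : V d)
  have tB : Tst (ball 0 R) m := ⟨ht.1, ht.2.1, hB⟩
  obtain ⟨h1, h2⟩ := hm.2 0 R hR
  have hO := min_op hU
  have a0 : ∀ᵐ x : V d, x ≠ 0 := Measure.ae_ne _ _
  have h3 := h2 _ _ (ae_restrict_of_ae (hU.2.2.mono fun x hx => by
    by_cases hs : x ∈ Om U
    · rw [hx, max_eq_left hs.2.le]
      exact sub_nonneg.2 (hle x hs)
    · rw [hx, min_zero ht hs, sub_zero]
      exact le_max_right _ _)) (min_h1 h1 tB) (min_h10 u G tB)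
  have hz : ∀ {T : Set (V d)}, Tst T m → ∀ x, x ∉ T → lap m x = 0 ∧ dot m m x = 0 :=
    fun hT x hx => ⟨Finset.sum_eq_zero fun i _ => min_zero (min_der (min_der hT (ee i)) (ee i)) hx,
      Finset.sum_eq_zero fun i _ => mul_eq_zero_of_left (min_zero (min_der hT (ee i)) hx) _⟩
  have e1 : ∫ x in ball 0 R, dot m m x = ∫ x in Om U, dot m m x := by
    rw [setIntegral_eq_integral_of_forall_compl_eq_zero fun x hx => (hz tB x hx).2,
      setIntegral_eq_integral_of_forall_compl_eq_zero fun x hx => (hz ht x hx).2]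
  have e2 : ∫ x in ball 0 R, u x * lap m x = ∫ x in Om U, U x * lap m x := by
    rw [setIntegral_eq_integral_of_forall_compl_eq_zero fun x hx => by
      rw [(hz tB x hx).1, mul_zero], ← setIntegral_eq_integral_of_forall_compl_eq_zero
      (s := Om U) fun x hx => by rw [(hz ht x hx).1, mul_zero]]
    refine setIntegral_congr_ae hO.measurableSet (hU.2.2.mono fun x hx hs => ?_)
    rw [hx, max_eq_left hs.2.le]
  have hW : IsOpen (Om U ∩ (fun x => m x - U x) ⁻¹' {0}ᶜ) :=
    (ht.1.continuous.continuousOn.sub (hU.1.continuousOn.mono (om_sub U))).isOpen_inter_preimage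
      hO isOpen_compl_singleton
  have hA : MeasurableSet {x | x ∈ Om U ∧ m x = U x} := by
    have e : {x | x ∈ Om U ∧ m x = U x} = Om U \ (Om U ∩ (fun x => m x - U x) ⁻¹' {0}ᶜ) := by
      ext x
      simp [sub_eq_zero]
    rw [e]
    exact hO.measurableSet.diff hW.measurableSet
  have sA : {x | x ∈ Om U ∧ m x = U x} ⊆ ball 0 R ∩ Om U := fun x hx =>
    ⟨not_not.1 fun hn => hx.1.2.ne' (hx.2.symm.trans (min_zero tB hn)), hx.1⟩
  have e3 : volume.real {x | x ∈ ball (0 : V d) R ∧ 0 < u x} = volume.real (ball 0 R ∩ Om U) := by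
    refine measureReal_congr (eventuallyEq_set.2 ?_)
    filter_upwards [a0, hU.2.2] with x b1 b2
    simp [Om, b1, b2]
  have e4 : volume.real {x | x ∈ ball (0 : V d) R ∧ 0 < u x - m x}
      = volume.real ((ball 0 R ∩ Om U) \ {x | x ∈ Om U ∧ m x = U x}) := by
    refine measureReal_congr (eventuallyEq_set.2 ?_)
    filter_upwards [a0, hU.2.2] with x b1 b2
    by_cases hs : x ∈ Om U
    · rw [max_eq_left hs.2.le] at b2
      have b3 : m x < U x ↔ ¬m x = U x := (hle x hs).lt_iff_ne
      simp [hs, b2, b3]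
    · have b3 : U x ≤ 0 := not_lt.1 fun h0 => hs ⟨b1, h0⟩
      simp [hs, b2, min_zero ht hs, b3]
  rw [measureReal_sdiff sA hA
    (measure_ne_top_of_subset inter_subset_left measure_ball_lt_top.ne)] at e4
  rw [J, J, min_dir h1 tB, e1, e2, e3, e4] at h3
  linarith only [h3]

theorem cone_of {u : V d → ℝ} {G : V d → V d} (hd : 0 < d) (hm : IsMin u G) (hh : Homog u)
    (hU : SmoothFB u U) : Cone U := by
  have hO := min_op hU
  have hs : ContDiffOn ℝ ∞ U (Om U) := hU.1.mono (om_sub U)
  refine ⟨hU.1, fun t ht => ?_, fun x hx => ?_, fun x h0 h1 => ?_⟩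
  · have h1 := (Measure.quasiMeasurePreserving_smul (volume : Measure (V d)) ht.ne').ae hU.2.2
    refine Measure.eqOn_open_of_ae_eq (μ := volume) (f := fun x => max (U (t • x)) 0)
      (g := fun x => t * max (U x) 0) (ae_restrict_of_ae ?_) isOpen_compl_singleton ?_ ?_
    · filter_upwards [h1, hU.2.2, hh t ht] with x b1 b2 b3
      rw [← b1, ← b2, b3]
    · exact (hU.1.continuousOn.comp (continuous_const_smul t).continuousOn
        fun x hx => smul_ne_zero ht.ne' hx).sup continuousOn_const
    · exact continuousOn_const.mul (hU.1.continuousOn.sup continuousOn_const)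
  · refine zero_of_tst hO (lap_sm hO hs).continuousOn (fun ψ hψ => ?_) hx
    rw [green2 hO hψ.cs hψ.1.contDiffOn hs]
    obtain ⟨C, hC⟩ := hψ.2.1.isCompact.exists_bound_of_continuousOn (f := fun x => ψ x / U x)
      (hψ.1.continuous.continuousOn.div (hs.continuousOn.mono hψ.2.2)
        fun x hx => (hψ.2.2 hx).2.ne')
    have h1 : ∀ᶠ s in 𝓝 (0 : ℝ), |s| * C < 1 :=
      ((continuous_abs.mul continuous_const).tendsto 0).eventually_lt_const (by simp)
    have h2 : IsLocalMin (fun s : ℝ => s * s * (∫ x in Om U, dot ψ ψ x)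
        + 2 * (s * ∫ x in Om U, U x * lap ψ x)) 0 := by
      filter_upwards [h1] with s hs
      have b1 := min_ineq (m := fun y => s * ψ y) hd hm hU
        ⟨contDiff_const.mul hψ.1, hψ.2.1.mul_left, tsupport_mul_subset_right.trans hψ.2.2⟩
        fun x hx => by
          by_cases hK : x ∈ tsupport ψ
          · have c1 := hC x hK
            rw [Real.norm_eq_abs, abs_div, abs_of_pos hx.2, div_le_iff₀ hx.2] at c1
            calc s * ψ x ≤ |s| * |ψ x| := (le_abs_self _).trans_eq (abs_mul _ _)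
              _ ≤ |s| * (C * U x) := by gcongr
              _ = |s| * C * U x := by ring
              _ ≤ 1 * U x := mul_le_mul_of_nonneg_right hs.le hx.2.le
              _ = U x := one_mul _
          · rw [image_eq_zero_of_notMem_tsupport hK, mul_zero]
            exact hx.2.le
      have b2 : ∀ x, dot (fun y => s * ψ y) (fun y => s * ψ y) x = s * s * dot ψ ψ x := fun x => by
        rw [dot_cmul, dot_comm, dot_cmul, mul_assoc]
      simp only [b2, lap_cmul, mul_left_comm _ s, integral_const_mul] at b1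
      have b3 := measureReal_nonneg.trans b1
      simp only [zero_mul, mul_zero, add_zero]
      linarith only [b3]
    have h3 := h2.hasDerivAt_eq_zero ((((hasDerivAt_id' (0 : ℝ)).mul (hasDerivAt_id' 0)).mul_const
      _).add (((hasDerivAt_id' 0).mul_const _).const_mul 2))
    linarith only [h3]
  · rw [dot_self, hU.2.1 x h0 h1, one_pow]

theorem stab_of {u : V d → ℝ} {G : V d → V d} (hd : 0 < d) (hm : IsMin u G) (hh : Homog u)
    (hU : SmoothFB u U) : Stab U := by
  intro m ht hle
  have hC := cone_of hd hm hh hU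
  have h1 := min_ineq hd hm hU ht hle
  rw [← green2 hC.op ht.cs ht.1.contDiffOn hC.smO, setIntegral_congr_fun (f := fun x => m x * lap U x)
    (g := fun _ => 0) hC.op.measurableSet fun x hx => by simp [hC.har x hx]] at h1
  simpa using h1

end Vale.Agent.P098
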