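import Vale.Agent.P098.Vol
import Vale.Agent.P098.Boch

/-! Pointwise estimates in the boundary layer. -/

open MeasureTheory Set Filter Topology Metric
open scoped ContDiff RealInnerProductSpace

noncomputable section

namespace Vale.Agent.P098

variable {d : ℕ} {S : Set (V d)} {U f g h k m F θ φ : V d → ℝ} {x : V d} {a b : ℝ}
  {z χ : ℝ → ℝ}

theorem pt_am {y K T l : ℝ} (hl : 0 < l) (h : y ^ 2 ≤ K * T) : |y| ≤ l + K / l * T := by
  have h0 : 0 ≤ K * T := (sq_nonneg y).trans h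
  rw [div_mul_eq_mul_div]
  by_cases e : |y| ≤ l
  · exact e.trans (le_add_of_nonneg_right (div_nonneg h0 hl.le))
  · have h1 : |y| ≤ K * T / l := by
      rw [le_div_iff₀ hl]
      nlinarith [sq_abs y, abs_nonneg y]
    linarith

theorem pt_dot (e : ∀ i, D i h x = g x * D i U x + U x * D i g x) (k : V d → ℝ) :
    dot h k x = g x * dot U k x + U x * dot g k x := by
  simp only [dot, e, Finset.mul_sum, ← Finset.sum_add_distrib]
  exact Finset.sum_congr rfl fun i _ => by ring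

theorem pt_hes (e : ∀ i, D i h x = g x * D i U x + U x * D i g x) :
    hes U h h x = g x ^ 2 * hes U U U x + g x * (U x * hes U U g x + U x * hes U g U x) +
      U x ^ 2 * hes U g g x := by
  simp only [hes, e, mul_add, Finset.mul_sum, ← Finset.sum_add_distrib]
  exact Finset.sum_congr rfl fun i _ => Finset.sum_congr rfl fun j _ => by ring

theorem pt_main (hU : Cone U) (hg : Gd U h g) (ha : 0 < a) (b : ℝ) :
    ∃ η K : ℝ, 0 < η ∧ 1 ≤ K ∧ ∀ x ∈ Ly U a b η, ∃ γ s A B E P T : ℝ,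
      dot U U x = P ∧ U x ^ 2 * dot g g x = T ∧ 0 ≤ T ∧ 0 ≤ P ∧ P ≤ K ∧ |γ| ≤ K ∧ s ^ 2 ≤ K * T ∧
      |A| ≤ K ^ 2 ∧ B ^ 2 ≤ 4 * K ^ 2 * T ∧ |E| ≤ K * T ∧ dot h h x = γ ^ 2 * P + 2 * γ * s + T ∧
      dot h U x = γ * P + s ∧ hes U h h x = γ ^ 2 * A + γ * B + E ∧
      dot U (dot U U) x = 2 * A := by
  have ho : IsOpen ({0}ᶜ : Set (V d)) := isOpen_compl_singleton
  obtain ⟨C₁, -, h1⟩ := bd_an (dot_sm ho hU.sm hU.sm).continuousOn ha b
  obtain ⟨C₂, -, h2⟩ := bd_an (hsq_sm ho hU.sm).continuousOn ha b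
  obtain ⟨C₃, h3⟩ := hg.bd
  obtain ⟨η, hη, h4⟩ := hg.eq
  set K := max (max C₁ C₂) (max (|C₃| / a) 1) with hK
  have hK1 : 1 ≤ K := le_max_of_le_right (le_max_right _ _)
  refine ⟨η * a / 2, K, by positivity, hK1, fun x hx => ?_⟩
  obtain ⟨hx1, hx2⟩ := hx
  have hxo := an_sub ha hx1
  obtain ⟨hx0, hxa, hxb⟩ := hx1
  have e := h4 x hxo (by nlinarith [mul_pos hη ha])
  have hP : dot U U x ≤ K :=
    ((le_abs_self _).trans (h1 x hxa hxb)).trans (le_max_of_le_left (le_max_left _ _))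
  have hH : hsq U x ≤ K :=
    ((le_abs_self _).trans (h2 x hxa hxb)).trans (le_max_of_le_left (le_max_right _ _))
  have hγ : |g x| ≤ K := ((h3 x hxo).trans (div_le_div₀ (abs_nonneg _) (le_abs_self _) ha hxa)).trans
    (le_max_of_le_right (le_max_left _ _))
  have hP0 := dot_nonneg U x
  have hG0 := dot_nonneg g x
  have hH0 := hsq_nonneg U x
  have hu := sq_nonneg (U x)
  have hT := mul_nonneg hu hG0
  have hK0 : 0 ≤ K := by linarith
  have hHP : hsq U x * dot U U x ≤ K ^ 2 := by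
    rw [sq]
    exact mul_le_mul hH hP hP0 hK0
  refine ⟨g x, U x * dot g U x, hes U U U x, U x * hes U U g x + U x * hes U g U x,
    U x ^ 2 * hes U g g x, _, _, rfl, rfl, hT, hP0, hP, hγ, ?_, ?_, ?_, ?_, ?_, ?_, pt_hes e, ?_⟩
  · rw [mul_pow]
    refine (mul_le_mul_of_nonneg_left (dot_sq_le g U x) hu).trans ?_
    rw [← mul_assoc, mul_comm K]
    exact mul_le_mul_of_nonneg_left hP hT
  · refine abs_le_of_sq_le_sq ((hes_sq_le U U U x).trans ?_) (by positivity)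
    rw [sq (K ^ 2)]
    exact mul_le_mul hHP (hP.trans (by nlinarith)) hP0 (by positivity)
  · have h5 := mul_le_mul_of_nonneg_left (hes_sq_le U U g x) hu
    have h6 := mul_le_mul_of_nonneg_left (hes_sq_le U g U x) hu
    have h7 := mul_le_mul_of_nonneg_right hHP hT
    nlinarith [sq_nonneg (U x * hes U U g x - U x * hes U g U x)]
  · refine abs_le_of_sq_le_sq ?_ (by positivity)
    have h5 := mul_le_mul_of_nonneg_left (hes_sq_le U g g x) (sq_nonneg (U x ^ 2))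
    have h6 : hsq U x ≤ K ^ 2 := hH.trans (by nlinarith)
    have h7 := mul_le_mul_of_nonneg_right h6 (sq_nonneg (U x ^ 2 * dot g g x))
    nlinarith
  · rw [pt_dot e, dot_comm U h, dot_comm g h, pt_dot e, pt_dot e, dot_comm U g]
    ring
  · exact pt_dot e U
  · rw [dot_comm, dot_dot ho hU.sm hU.sm hxo.1]
    ring

theorem pt_wedge (hU : Cone U) (hg : Gd U h g) (ha : 0 < a) (b : ℝ) : ∃ η C : ℝ, 0 < η ∧ 0 < C ∧
    ∀ x ∈ Ly U a b η, dot h h x * dot U U x - dot h U x ^ 2 ≤ C * (U x ^ 2 * dot g g x) := by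
  obtain ⟨η, K, hη, hK, H⟩ := pt_main hU hg ha b
  refine ⟨η, K, hη, by linarith, fun x hx => ?_⟩
  obtain ⟨γ, s, A, B, E, P, T, e1, e2, hT, -, hP, -, -, -, -, -, e3, e4, -⟩ := H x hx
  rw [e1, e2, e3, e4]
  nlinarith [mul_le_mul_of_nonneg_right hP hT, sq_nonneg s]

theorem pt_bd (hU : Cone U) (hg : Gd U h g) (ha : 0 < a) (b : ℝ) : ∃ η C : ℝ, 0 < η ∧ 0 < C ∧
    ∀ x ∈ Ly U a b η, |hes U h h x| ≤ C + C * (U x ^ 2 * dot g g x) := by
  obtain ⟨η, K, hη, hK, H⟩ := pt_main hU hg ha b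
  have hK0 : 0 < K := by linarith
  refine ⟨η, K ^ 4 + 4 * K ^ 3 + K, hη, by positivity, fun x hx => ?_⟩
  obtain ⟨γ, s, A, B, E, P, T, -, e2, hT, -, -, hγ, -, hA, hB, hE, -, -, e3, -⟩ := H x hx
  have h1 : |γ ^ 2 * A| ≤ K ^ 2 * K ^ 2 := by
    rw [abs_mul, abs_pow]
    gcongr
  have h2 : |γ * B| ≤ K * (1 + 4 * K ^ 2 / 1 * T) := by
    rw [abs_mul]
    exact mul_le_mul hγ (pt_am one_pos hB) (abs_nonneg _) hK0.le
  rw [e2, e3]
  refine (abs_add_three _ _ _).trans ?_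
  nlinarith [mul_nonneg (pow_pos hK0 4).le hT, pow_pos hK0 3]

theorem pt_ly {η η' : ℝ} (hx : x ∈ Ly U a b η) (h : η ≤ η') : x ∈ Ly U a b η' :=
  ⟨hx.1, hx.2.trans h⟩

theorem pt_uw (hU : Cone U) (hg : Gd U h g) (ha : 0 < a) (b : ℝ) :
    Sml U g (fun x => U x * dot h h x) a b := by
  obtain ⟨η, K, hη, hK, H⟩ := pt_main hU hg ha b
  have hK0 : 0 < K := by linarith
  intro l hl
  have h0 : 0 < K ^ 3 + 2 * K := by positivity
  refine ⟨min η (l / (K ^ 3 + 2 * K)), η * (2 * K ^ 2 + 1), by positivity, fun x hx => ?_⟩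
  obtain ⟨γ, s, A, B, E, P, T, -, e2, hT, hP0, hP, hγ, hs, -, -, -, e3, -⟩ :=
    H x (pt_ly hx (min_le_left _ _))
  have h1 : |γ ^ 2 * P| ≤ K ^ 2 * K := by
    rw [abs_mul, abs_pow, abs_of_nonneg hP0]
    gcongr
  have h2 : |2 * γ * s| ≤ 2 * K * (1 + K / 1 * T) := by
    rw [abs_mul, abs_mul, abs_two]
    exact mul_le_mul (by linarith) (pt_am one_pos hs) (abs_nonneg _) (by linarith)
  have h3 : |dot h h x| ≤ (K ^ 3 + 2 * K) + (2 * K ^ 2 + 1) * T := by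
    rw [e3]
    refine (abs_add_three _ _ _).trans ?_
    rw [abs_of_nonneg hT]
    nlinarith
  have h4 : U x * (K ^ 3 + 2 * K) ≤ l := (le_div_iff₀ h0).1 (hx.2.trans (min_le_right _ _))
  have h5 : U x * ((2 * K ^ 2 + 1) * T) ≤ η * ((2 * K ^ 2 + 1) * T) :=
    mul_le_mul_of_nonneg_right (hx.2.trans (min_le_left _ _)) (by positivity)
  have h6 := mul_le_mul_of_nonneg_left h3 hx.1.1.le
  simp only
  rw [e2, abs_mul, abs_of_pos hx.1.1]
  nlinarith

theorem pt_rem (hU : Cone U) (hg : Gd U h g) (ha : 0 < a) (b : ℝ) :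
    Sml U g (fun x => dot h h x * dot U (dot U U) x / 2 - hes U h h x) a b := by
  obtain ⟨η, K, hη, hK, H⟩ := pt_main hU hg ha b
  have hK0 : 0 < K := by linarith
  intro l hl
  have hl3 : 0 < l / 3 := by positivity
  obtain ⟨η', hη', H'⟩ := small0 (f := fun x => dot U U x - 1) hU
    ((dot_sm isOpen_compl_singleton hU.sm hU.sm).continuousOn.sub continuousOn_const)
    (fun x h1 h2 => by rw [hU.fb x h1 h2, sub_self]) ha b (l := l / 3 / K ^ 4) (by positivity)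
  refine ⟨min η η', 4 * K ^ 7 / (l / 3) + K ^ 2 + (4 * K ^ 4 / (l / 3) + K), by positivity,
    fun x hx => ?_⟩
  obtain ⟨γ, s, A, B, E, P, T, e1, e2, hT, -, -, hγ, hs, hA, hB, hE, e3, -, e4, e5⟩ :=
    H x (pt_ly hx (min_le_left _ _))
  have h0 := H' x (pt_ly hx (min_le_right _ _))
  simp only [e1] at h0
  have hγ2 : γ ^ 2 ≤ K ^ 2 := by
    rw [← sq_abs γ]
    gcongr
  have hA2 : A ^ 2 ≤ (K ^ 2) ^ 2 := by
    rw [← sq_abs A]
    gcongr
  have h1 : |γ ^ 2 * A * (P - 1)| ≤ l / 3 := by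
    have h2 : |γ ^ 2 * A * (P - 1)| ≤ K ^ 2 * K ^ 2 * (l / 3 / K ^ 4) := by
      rw [abs_mul, abs_mul, abs_pow]
      gcongr
    refine h2.trans_eq ?_
    field_simp
  have h2 : |2 * γ * s * A| ≤ l / 3 + 4 * K ^ 7 / (l / 3) * T := pt_am hl3 (by
    calc (2 * γ * s * A) ^ 2 = 4 * (γ ^ 2 * s ^ 2 * A ^ 2) := by ring
      _ ≤ 4 * (K ^ 2 * (K * T) * (K ^ 2) ^ 2) := by gcongr
      _ = 4 * K ^ 7 * T := by ring)
  have h3 : |γ * B| ≤ l / 3 + 4 * K ^ 4 / (l / 3) * T := pt_am hl3 (by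
    calc (γ * B) ^ 2 = γ ^ 2 * B ^ 2 := by ring
      _ ≤ K ^ 2 * (4 * K ^ 2 * T) := by gcongr
      _ = 4 * K ^ 4 * T := by ring)
  have h4 : |T * A| ≤ T * K ^ 2 := by
    rw [abs_mul, abs_of_nonneg hT]
    gcongr
  have e : (γ ^ 2 * P + 2 * γ * s + T) * (2 * A) / 2 - (γ ^ 2 * A + γ * B + E) =
      γ ^ 2 * A * (P - 1) + 2 * γ * s * A + T * A - (γ * B + E) := by ring
  simp only
  rw [e2, e3, e4, e5, e]
  refine (abs_sub _ _).trans ((add_le_add (abs_add_three _ _ _) (abs_add_le _ _)).trans ?_)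
  rw [add_mul, add_mul, add_mul]
  linarith

end Vale.Agent.P098
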