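import Vale.Agent.P098.Homg

/-! Sets and bounds. -/

open MeasureTheory Set Filter Topology Metric
open scoped ContDiff RealInnerProductSpace

noncomputable section

namespace Vale.Agent.P098

variable {d : ℕ} {S : Set (V d)} {U f g h k m F θ φ : V d → ℝ} {x : V d} {a b : ℝ}
  {z χ : ℝ → ℝ}

theorem cn_compl : Cn ({0}ᶜ : Set (V d)) := ⟨isOpen_compl_singleton, fun _ hx => hx,
  fun _ ht _ hx => smul_ne_zero ht.ne' hx⟩

theorem om_sub (U : V d → ℝ) : Om U ⊆ {0}ᶜ := fun _ hx => hx.1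

theorem Cone.op (hU : Cone U) : IsOpen (Om U) := by
  have := hU.sm.continuousOn.isOpen_inter_preimage isOpen_compl_singleton (isOpen_Ioi (a := 0))
  exact this

theorem Cone.cn (hU : Cone U) : Cn (Om U) := by
  refine ⟨hU.op, fun _ hx => hx.1, fun t ht x hx => ⟨smul_ne_zero ht.ne' hx.1, ?_⟩⟩
  have h1 := hU.hom t ht x hx.1
  rw [max_eq_left hx.2.le] at h1
  have h2 := mul_pos ht hx.2
  by_contra hn
  rw [max_eq_right (not_lt.1 hn)] at h1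
  linarith

theorem Cone.smO (hU : Cone U) : ContDiffOn ℝ ∞ U (Om U) := hU.sm.mono (om_sub U)

theorem Cone.hom1 (hU : Cone U) : Hom (Om U) 1 U := fun t ht x hx => by
  have h1 := hU.hom t ht x hx.1
  rw [max_eq_left hx.2.le, max_eq_left (hU.cn.smul t ht x hx).2.le] at h1
  simpa using h1

theorem Cone.radU (hU : Cone U) (hx : x ∈ Om U) : rad U x = U x := by
  simpa using Hom.euler hU.cn hU.smO hU.hom1 hx

theorem Cone.zp (hU : Cone U) (hx : x ∈ Zp U) {t : ℝ} (ht : 0 < t) : t • x ∈ Zp U := by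
  refine ⟨smul_ne_zero ht.ne' hx.1, ?_⟩
  have h1 := hU.hom t ht x hx.1
  rw [max_eq_right hx.2, mul_zero] at h1
  exact (le_max_left _ _).trans h1.le

theorem an_sub (ha : 0 < a) : An U a b ⊆ Om U := fun _ hx =>
  ⟨norm_pos_iff.1 (ha.trans_le hx.2.1), hx.1⟩

theorem sets_closed (a b : ℝ) : IsClosed {x : V d | a ≤ ‖x‖ ∧ ‖x‖ ≤ b} :=
  (isClosed_le continuous_const continuous_norm).inter
    (isClosed_le continuous_norm continuous_const)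

theorem sets_cpt (a b : ℝ) : IsCompact {x : V d | a ≤ ‖x‖ ∧ ‖x‖ ≤ b} :=
  (isCompact_closedBall (0 : V d) b).of_isClosed_subset (sets_closed a b)
    fun _ hx => mem_closedBall_zero_iff.2 hx.2

theorem sets_sub (ha : 0 < a) (b : ℝ) : {x : V d | a ≤ ‖x‖ ∧ ‖x‖ ≤ b} ⊆ {0}ᶜ :=
  fun _ hx => norm_pos_iff.1 (ha.trans_le hx.1)

theorem Cone.an_meas (hU : Cone U) (ha : 0 < a) : MeasurableSet (An U a b) := by
  have : An U a b = Om U ∩ {x : V d | a ≤ ‖x‖ ∧ ‖x‖ ≤ b} :=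
    Set.ext fun x => ⟨fun hx => ⟨an_sub ha hx, hx.2⟩, fun hx => ⟨hx.1.2, hx.2⟩⟩
  rw [this]
  exact hU.op.measurableSet.inter (sets_closed a b).measurableSet

theorem Cone.ly_meas (hU : Cone U) (ha : 0 < a) (ε : ℝ) : MeasurableSet (Ly U a b ε) := by
  have h1 := hU.sm.continuousOn.isOpen_inter_preimage isOpen_compl_singleton (isOpen_Ioi (a := ε))
  have : Ly U a b ε = An U a b \ ({0}ᶜ ∩ U ⁻¹' Ioi ε) :=
    Set.ext fun x => ⟨fun hx => ⟨hx.1, fun h => absurd hx.2 (not_le.2 h.2)⟩,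
      fun hx => ⟨hx.1, not_lt.1 fun h => hx.2 ⟨(an_sub ha hx.1).1, h⟩⟩⟩
  rw [this]
  exact (hU.an_meas ha).diff h1.measurableSet

theorem an_fin (U : V d → ℝ) (a b : ℝ) : volume (An U a b) ≠ ⊤ := 
  ((measure_mono (fun _ hx => hx.2 : An U a b ⊆ {x : V d | a ≤ ‖x‖ ∧ ‖x‖ ≤ b})).trans_lt
    (sets_cpt a b).measure_lt_top).ne

theorem Cone.cpt (hU : Cone U) (ha : 0 < a) (δ : ℝ) :
    IsCompact {x | δ ≤ U x ∧ a ≤ ‖x‖ ∧ ‖x‖ ≤ b} := by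
  have h1 := (hU.sm.continuousOn.mono (sets_sub ha b)).preimage_isClosed_of_isClosed
    (sets_closed a b) (isClosed_Ici (a := δ))
  refine (sets_cpt a b).of_isClosed_subset ?_ fun _ hx => hx.2
  have : {x | δ ≤ U x ∧ a ≤ ‖x‖ ∧ ‖x‖ ≤ b} = {x : V d | a ≤ ‖x‖ ∧ ‖x‖ ≤ b} ∩ U ⁻¹' Ici δ :=
    Set.ext fun x => ⟨fun hx => ⟨hx.2, hx.1⟩, fun hx => ⟨hx.2, hx.1⟩⟩
  rw [this]
  exact h1

theorem bd_an (hf : ContinuousOn f {0}ᶜ) (ha : 0 < a) (b : ℝ) :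
    ∃ C : ℝ, 0 < C ∧ ∀ x, a ≤ ‖x‖ → ‖x‖ ≤ b → |f x| ≤ C := by
  obtain ⟨C, hC⟩ := (sets_cpt a b).exists_bound_of_continuousOn (hf.mono (sets_sub ha b))
  exact ⟨max C 1, lt_max_of_lt_right one_pos, fun x h1 h2 =>
    (hC x ⟨h1, h2⟩).trans (le_max_left _ _)⟩

theorem Cone.cs (hU : Cone U) (ha : 0 < a) {δ : ℝ} (hδ : 0 < δ)
    (hF : ∀ x ∈ Om U, F x ≠ 0 → δ ≤ U x ∧ a ≤ ‖x‖ ∧ ‖x‖ ≤ b) : Cs (Om U) F := 
  ⟨_, hU.cpt (b := b) ha δ, fun _ hx => ⟨norm_pos_iff.1 (ha.trans_le hx.2.1), hδ.trans_le hx.1⟩,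
    fun x hx hn => by_contra fun h0 => hn (hF x hx h0)⟩

end Vale.Agent.P098
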