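import Vale.Agent.P098.Green
import Vale.Agent.P098.Chi

/-! The competitor at a fixed scale. -/

open MeasureTheory Set Filter Topology Metric
open scoped ContDiff RealInnerProductSpace

noncomputable section

namespace Vale.Agent.P098

variable {d : ℕ} {S : Set (V d)} {U f g h k m F θ φ : V d → ℝ} {x : V d} {a b : ℝ}
  {z χ : ℝ → ℝ}

/-- the truncation -/
def stabaF (c s : ℝ) : ℝ := s * bt (c * s)

theorem staba_sm (c : ℝ) : ContDiff ℝ ∞ (stabaF c) :=
  contDiff_id.mul (bt_sm.comp (contDiff_const.mul contDiff_id))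

theorem staba_der (c s : ℝ) : deriv (stabaF c) s = bt (c * s) + c * s * deriv bt (c * s) := by
  have h1 : HasDerivAt bt (deriv bt (c * s)) (c * s) :=
    (bt_sm.differentiable (by simp) _).hasDerivAt
  have h2 := (hasDerivAt_id s).mul (h1.comp s ((hasDerivAt_id s).const_mul c))
  refine (HasDerivAt.deriv h2).trans ?_
  simp only [id, Function.comp]
  ring

theorem staba_lo {c s : ℝ} (h : c * s < 1) : stabaF c s = 0 ∧ deriv (stabaF c) s = 0 := by
  rw [staba_der, stabaF, bt_zero h.le, (bt_dz (Or.inl h)).1]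
  simp

theorem staba_hi {c s : ℝ} (h : 2 < c * s) : stabaF c s = s ∧ deriv (stabaF c) s = 1 := by
  rw [staba_der, stabaF, bt_one h.le, (bt_dz (Or.inr h)).1]
  simp

theorem staba_dbd : ∃ C : ℝ, 0 < C ∧ ∀ c s, |deriv (stabaF c) s| ≤ C := by
  obtain ⟨C, hC, h⟩ := bt_bd
  refine ⟨1 + 2 * C, by positivity, fun c s => ?_⟩
  rcases lt_or_ge (c * s) 1 with h1 | h1
  · rw [(staba_lo h1).2, abs_zero]
    positivity
  rcases lt_or_ge 2 (c * s) with h2 | h2
  · rw [(staba_hi h2).2, abs_one]
    linarith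
  rw [staba_der]
  refine (abs_add_le _ _).trans (add_le_add ?_ ?_)
  · rw [abs_of_nonneg (bt_nn _)]
    exact bt_le _
  · rw [abs_mul, abs_of_nonneg (by linarith)]
    exact mul_le_mul h2 (h _).1 (abs_nonneg _) zero_le_two

theorem staba_ev {s : ℝ} (hs : 0 < s) : ∀ᶠ n : ℕ in atTop, 2 < ((n : ℝ) + 1) * s :=
  ((tendsto_natCast_atTop_atTop.atTop_add tendsto_const_nhds).atTop_mul_const
    hs).eventually_gt_atTop 2

theorem staba_m (hU : Cone U) (hφ : Adm U φ a b) : ∃ (C : ℝ) (m : ℕ → V d → ℝ), 0 < C ∧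
    (∀ n, ContDiffOn ℝ ∞ (m n) (Om U)) ∧ (∀ n, Cs (Om U) (m n)) ∧
    (∀ n, ∀ x ∈ Om U, m n x ≤ U x ∧ |m n x| ≤ C * φ x ∧ ∃ α β : ℝ, |α| ≤ C ∧ |β| ≤ C ∧
      (φ x = 0 → α = 0) ∧ ∀ k, dot (m n) k x = α * dot U k x + β * dot φ k x) ∧
    ∀ x ∈ Om U, ∀ᶠ n in atTop, m n x = min (U x) (φ x) ∧
      ∀ k, dot (m n) k x = if U x ≤ φ x then dot U k x else dot φ k x := by
  obtain ⟨C, hC, h⟩ := staba_dbd
  have hd : ∀ c, Differentiable ℝ (stabaF c) := fun c => (staba_sm c).differentiable (by simp)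
  have e : ∀ (c : ℝ), ∀ x ∈ Om U, ∀ k, dot (fun y => stabaF c (U y) - stabaF c (U y - φ y)) k x =
      (deriv (stabaF c) (U x) - deriv (stabaF c) (U x - φ x)) * dot U k x +
        deriv (stabaF c) (U x - φ x) * dot φ k x := fun c x hx k => by
    have h1 := cd_at hU.op hU.smO hx
    have h2 := cd_at hU.op hφ.sm hx
    have h3 : DifferentiableAt ℝ (fun y => U y - φ y) x := h1.sub h2
    have h4 : DifferentiableAt ℝ (fun y => stabaF c (U y)) x := (hd c _).comp x h1
    have h5 : DifferentiableAt ℝ (fun y => stabaF c (U y - φ y)) x := (hd c _).comp x h3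
    rw [dot_sub h4 h5, dot_comp (hd c _) h1,
      dot_comp (f := fun y => U y - φ y) (hd c _) h3, dot_sub h1 h2]
    ring
  refine ⟨2 * C, fun n y => stabaF (n + 1) (U y) - stabaF (n + 1) (U y - φ y), by positivity,
    fun n => ((staba_sm _).comp_contDiffOn hU.smO).sub
      ((staba_sm _).comp_contDiffOn (hU.smO.sub hφ.sm)), fun n => ?_, fun n x hx => ?_,
    fun x hx => ?_⟩
  · have hn : (0 : ℝ) < n + 1 := by positivity
    refine hU.cs (b := b) hφ.pos (one_div_pos.2 hn) fun x hx h0 => ⟨?_, hφ.supp x hx fun h1 => ?_⟩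
    · by_contra h1
      rw [not_le, lt_div_iff₀' hn] at h1
      have h2 : ((n : ℝ) + 1) * (U x - φ x) < 1 := by nlinarith [hφ.nn x hx]
      exact h0 (by dsimp only; rw [(staba_lo h1).1, (staba_lo h2).1, sub_zero])
    · exact h0 (by dsimp only; rw [h1, sub_zero, sub_self])
  · have hn : (0 : ℝ) < n + 1 := by positivity
    refine ⟨?_, ?_, _, _, ?_, (h _ _).trans (by linarith), fun h0 => ?_, e _ x hx⟩
    · have h1 : stabaF (n + 1) (U x) ≤ U x := mul_le_of_le_one_right hx.2.le (bt_le _)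
      have h2 : 0 ≤ stabaF (n + 1) (U x - φ x) := by
        rcases le_total (U x - φ x) 0 with h3 | h3
        · exact (staba_lo (by nlinarith)).1.ge
        · exact mul_nonneg h3 (bt_nn _)
      dsimp only
      linarith
    · have h1 := convex_univ.norm_image_sub_le_of_norm_deriv_le (f := stabaF (n + 1)) (C := C)
        (fun s _ => hd _ s) (fun s _ => h _ s) (mem_univ (U x - φ x)) (mem_univ (U x))
      rw [sub_sub_cancel, Real.norm_of_nonneg (hφ.nn x hx)] at h1
      exact h1.trans (mul_le_mul_of_nonneg_right (by linarith) (hφ.nn x hx))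
    · exact (abs_sub _ _).trans (by linarith [h (n + 1) (U x), h (n + 1) (U x - φ x)])
    · rw [h0, sub_zero, sub_self]
  · by_cases h1 : U x ≤ φ x
    · filter_upwards [staba_ev hx.2] with n hn
      have h2 : ((n : ℝ) + 1) * (U x - φ x) < 1 := by
        have : (0 : ℝ) < n + 1 := by positivity
        nlinarith
      refine ⟨by rw [(staba_hi hn).1, (staba_lo h2).1, sub_zero, min_eq_left h1], fun k => ?_⟩
      rw [e _ x hx, (staba_hi hn).2, (staba_lo h2).2, if_pos h1]
      ring
    · filter_upwards [staba_ev hx.2, staba_ev (sub_pos.2 (not_le.1 h1))] with n hn hn'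
      refine ⟨by rw [(staba_hi hn).1, (staba_hi hn').1, sub_sub_cancel,
        min_eq_right (not_le.1 h1).le], fun k => ?_⟩
      rw [e _ x hx, (staba_hi hn).2, (staba_hi hn').2, if_neg h1]
      ring

theorem staba_meas (hS : IsOpen S) (hf : ContinuousOn f S) {Z : Set ℝ} (hZ : IsClosed Z) :
    MeasurableSet (S ∩ f ⁻¹' Z) := by
  have e : S ∩ f ⁻¹' Z = S \ (S ∩ f ⁻¹' Zᶜ) := by
    ext y
    simp only [mem_inter_iff, mem_preimage, Set.mem_sdiff, mem_compl_iff]
    tauto
  rw [e]
  exact hS.measurableSet.diff (hf.isOpen_inter_preimage hS hZ.isOpen_compl).measurableSet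

theorem staba_ite (hU : Cone U) (hφ : Adm U φ a b) (hf : ContinuousOn f (Om U))
    (hg : ContinuousOn g (Om U)) : AEStronglyMeasurable
      (fun x => if U x ≤ φ x then f x else g x) (volume.restrict (Om U)) := by
  have hS := staba_meas (f := fun x => φ x - U x) hU.op
    (hφ.sm.continuousOn.sub hU.smO.continuousOn) (isClosed_Ici (a := (0 : ℝ)))
  have hm := hU.op.measurableSet
  refine (((hf.aestronglyMeasurable hm).indicator hS).add
    ((hg.aestronglyMeasurable hm).indicator hS.compl)).congr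
      (ae_restrict_of_forall_mem hm fun x hx => ?_)
  by_cases h : U x ≤ φ x <;> simp [indicator, h, hx]

/-- the dominating function -/
def stabaB (U φ : V d → ℝ) (a b : ℝ) (x : V d) : ℝ :=
  (An U a b).indicator 1 x + dot φ φ x + φ x ^ 2

theorem staba_B (hU : Cone U) (hφ : Adm U φ a b) : IntegrableOn (stabaB U φ a b) (Om U) := by
  have h : Integrable ((An U a b).indicator (1 : V d → ℝ)) :=
    (integrable_indicator_iff (hU.an_meas hφ.pos)).2 (integrableOn_const (an_fin U a b))
  exact (h.integrableOn.add hφ.i1).add hφ.i0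

theorem staba_dom (hφ : Adm U φ a b) (hx : x ∈ Om U) {C t : ℝ} (hC : 0 ≤ C)
    (h0 : φ x = 0 → |t| ≤ C * dot φ φ x)
    (h1 : a ≤ ‖x‖ → ‖x‖ ≤ b → |t| ≤ C * (1 + dot φ φ x + φ x ^ 2)) :
    |t| ≤ C * stabaB U φ a b x := by
  by_cases h : φ x = 0
  · refine (h0 h).trans (mul_le_mul_of_nonneg_left ?_ hC)
    have : 0 ≤ (An U a b).indicator (1 : V d → ℝ) x := indicator_nonneg (fun _ _ => zero_le_one) x
    rw [stabaB]
    nlinarith
  · have h2 := hφ.supp x hx h
    rw [stabaB, indicator_of_mem (show x ∈ An U a b from ⟨hx.2, h2⟩)]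
    exact h1 h2.1 h2.2

theorem staba_int (hU : Cone U) (hφ : Adm U φ a b)
    (hF : AEStronglyMeasurable F (volume.restrict (Om U))) {C : ℝ}
    (h : ∀ x ∈ Om U, |F x| ≤ C * stabaB U φ a b x) : IntegrableOn F (Om U) :=
  ((staba_B hU hφ).const_mul C).mono' hF (ae_restrict_of_forall_mem hU.op.measurableSet h)

theorem staba_lim (hU : Cone U) (hφ : Adm U φ a b) {G : ℕ → V d → ℝ}
    (hG : ∀ n, AEStronglyMeasurable (G n) (volume.restrict (Om U))) {C : ℝ}
    (h : ∀ n, ∀ x ∈ Om U, |G n x| ≤ C * stabaB U φ a b x)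
    (hl : ∀ x ∈ Om U, ∀ᶠ n in atTop, G n x = F x) :
    Tendsto (fun n => ∫ x in Om U, G n x) atTop (𝓝 (∫ x in Om U, F x)) :=
  tendsto_integral_of_dominated_convergence _ hG ((staba_B hU hφ).const_mul C)
    (fun n => ae_restrict_of_forall_mem hU.op.measurableSet (h n))
    (ae_restrict_of_forall_mem hU.op.measurableSet fun x hx =>
      tendsto_const_nhds.congr' ((hl x hx).mono fun _ e => e.symm))

theorem staba_top (hU : Cone U) (hφ : Adm U φ a b) (hf : ContinuousOn f {0}ᶜ) :
    IntegrableOn (fun x => if U x ≤ φ x then f x else 0) (Om U) := by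
  obtain ⟨K, hK, h⟩ := bd_an hf hφ.pos b
  refine staba_int hU hφ (staba_ite hU hφ (hf.mono (om_sub U)) continuousOn_const) (C := K)
    fun x hx => staba_dom hφ hx hK.le (fun h0 => ?_) fun h1 h2 => ?_
  · rw [if_neg (by rw [h0]; exact not_le.2 hx.2), abs_zero]
    exact mul_nonneg hK.le (dot_nonneg _ _)
  · have h3 : K ≤ K * (1 + dot φ φ x + φ x ^ 2) :=
      le_mul_of_one_le_right hK.le (by nlinarith [dot_nonneg φ x])
    split_ifs
    · exact (h x h1 h2).trans h3
    · rw [abs_zero]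
      linarith

theorem stabA0 (hU : Cone U) (hs : Stab U) (hφ : Adm U φ a b) :
    ∫ x in Om U, (if U x ≤ φ x then 1 - dot U U x else 0) ≤
      ∫ x in Om U, (if U x ≤ φ x then 0 else dot φ φ x) := by
  obtain ⟨C, m, hC, m1, m2, m3, m4⟩ := staba_m hU hφ
  have hm := hU.op.measurableSet
  have cU := (dot_sm cn_compl.op hU.sm hU.sm).continuousOn
  obtain ⟨K, hK, hK'⟩ := bd_an cU hφ.pos b
  have hT : ∀ n, MeasurableSet (Om U ∩ (fun x => m n x - U x) ⁻¹' {0}) := fun n =>
    staba_meas hU.op ((m1 n).continuousOn.sub hU.smO.continuousOn) isClosed_singleton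
  have i1 : ∀ n, IntegrableOn (dot (m n) (m n)) (Om U) := fun n =>
    ((m2 n).dotC hU.op _).int hU.op (dot_sm hU.op (m1 n) (m1 n)).continuousOn
  have i2 : ∀ n, IntegrableOn ((Om U ∩ (fun x => m n x - U x) ⁻¹' {0}).indicator (1 : V d → ℝ))
      (Om U) := fun n => staba_int hU hφ (aestronglyMeasurable_const.indicator (hT n)) (C := 1)
    fun x hx => staba_dom hφ hx zero_le_one (fun h0 => by
      have h1 := (m3 n x hx).2.1
      rw [h0, mul_zero, abs_nonpos_iff] at h1
      rw [indicator_of_notMem (by simp [h1, hx.2.ne']), abs_zero, one_mul]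
      exact dot_nonneg _ _) fun _ _ => by
      have := dot_nonneg φ x
      rw [indicator]
      split_ifs <;> simp <;> nlinarith
  have l := staba_lim hU hφ (G := fun n x => dot (m n) (m n) x -
      (Om U ∩ (fun x => m n x - U x) ⁻¹' {0}).indicator (1 : V d → ℝ) x)
    (F := fun x => (if U x ≤ φ x then 0 else dot φ φ x) - if U x ≤ φ x then 1 - dot U U x else 0)
    (fun n => ((i1 n).sub (i2 n)).aestronglyMeasurable) (C := 2 * C ^ 2 * K + 2 * C ^ 2 + 1)
    (fun n x hx => ?_) fun x hx => ?_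
  · have i3 : IntegrableOn (fun x => if U x ≤ φ x then 0 else dot φ φ x) (Om U) :=
      hφ.i1.mono' (staba_ite hU hφ continuousOn_const (dot_sm hU.op hφ.sm hφ.sm).continuousOn)
        (Eventually.of_forall fun x => by
          split_ifs
          · simpa using dot_nonneg φ x
          · exact (Real.norm_of_nonneg (dot_nonneg φ x)).le)
    rw [integral_sub i3 (staba_top (f := fun x => 1 - dot U U x) hU hφ (continuousOn_const.sub cU))] at l
    refine sub_nonneg.1 (ge_of_tendsto' l fun n => ?_)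
    rw [integral_sub (i1 n) (i2 n), integral_indicator_one (hT n), sub_nonneg,
      measureReal_restrict_apply (hT n)]
    have h1 := hs _ ((m2 n).tst hU.op (m1 n)) fun x hx => by
      rw [indicator_of_mem hx]
      exact (m3 n x hx).1
    refine le_trans (le_of_eq ?_) (h1.trans (le_of_eq (setIntegral_congr_fun hm fun x hx => ?_)))
    · congr 1
      ext x
      by_cases hx : x ∈ Om U <;> simp [hx, sub_eq_zero]
    · have e : (Om U).indicator (m n) =ᶠ[𝓝 x] m n :=
        (hU.op.eventually_mem hx).mono fun y hy => indicator_of_mem hy _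
      rw [dot_congr e, dot_comm, dot_congr e]
  · obtain ⟨-, h1, α, β, hα, hβ, h0, h2⟩ := m3 n x hx
    have e : dot (m n) (m n) x = α ^ 2 * dot U U x + 2 * (α * β * dot U φ x) + β ^ 2 * dot φ φ x := by
      rw [h2, dot_comm U (m n), dot_comm φ (m n), h2, h2, dot_comm φ U]
      ring
    have p1 := dot_nonneg φ x
    have p2 := dot_nonneg U x
    have p3 := dot_nonneg (m n) x
    have a2 : α ^ 2 ≤ C ^ 2 := sq_le_sq' (abs_le.1 hα).1 (abs_le.1 hα).2
    have b2 : β ^ 2 ≤ C ^ 2 := sq_le_sq' (abs_le.1 hβ).1 (abs_le.1 hβ).2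
    have b3 := mul_le_mul_of_nonneg_right b2 p1
    have q1 : 0 ≤ C ^ 2 * K := by positivity
    refine staba_dom hφ hx (by positivity) (fun h3 => ?_) fun h3 h4 => ?_
    · rw [h3, mul_zero, abs_nonpos_iff] at h1
      rw [indicator_of_notMem (by simp [h1, hx.2.ne']), sub_zero, abs_of_nonneg p3, e, h0 h3]
      nlinarith [mul_nonneg q1 p1, mul_nonneg (sq_nonneg C) p1]
    · have k1 := (le_abs_self _).trans (hK' x h3 h4)
      have k2 : α * β * dot U φ x ≤ C * C * |dot U φ x| := by
        refine (le_abs_self _).trans ?_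
        rw [abs_mul, abs_mul]
        gcongr
      have k3 := mul_le_mul_of_nonneg_left (abs_dot_le U φ x) (sq_nonneg C)
      have k4 := mul_le_mul a2 k1 p2 (sq_nonneg C)
      have k5 := mul_le_mul_of_nonneg_left k1 (sq_nonneg C)
      have k6 : |(Om U ∩ (fun x => m n x - U x) ⁻¹' {0}).indicator (1 : V d → ℝ) x| ≤ 1 := by
        rw [indicator]
        split_ifs <;> simp
      refine (abs_sub _ _).trans ?_
      rw [abs_of_nonneg p3, e]
      nlinarith [mul_nonneg q1 p1, mul_nonneg q1 (sq_nonneg (φ x)), sq_nonneg (C * φ x),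
        sq_nonneg (φ x), sq_nonneg C]
  · filter_upwards [m4 x hx] with n hn
    rw [hn.2, dot_comm U, dot_comm φ, hn.2, hn.2]
    by_cases h1 : U x ≤ φ x
    · rw [indicator_of_mem (by simp [hx, hn.1, h1])]
      simp [h1]
    · rw [indicator_of_notMem (by simp [hn.1, sub_eq_zero, h1])]
      simp [h1]

theorem stabA1 (hU : Cone U) (hφ : Adm U φ a b) (hk : ContDiffOn ℝ ∞ k {0}ᶜ) :
    2 * (∫ x in Om U, (if U x ≤ φ x then U x * dot U k x else 0)) +
      2 * (∫ x in Om U, (if U x ≤ φ x then 0 else φ x * dot φ k x)) +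
      ∫ x in Om U, min (U x) (φ x) ^ 2 * lap k x = 0 := by
  obtain ⟨C, m, hC, m1, m2, m3, m4⟩ := staba_m hU hφ
  have hm := hU.op.measurableSet
  have hk' := hk.mono (om_sub U)
  have c1 := (dot_sm cn_compl.op hU.sm hk).continuousOn
  have c2 := (lap_sm cn_compl.op hk).continuousOn
  obtain ⟨K₁, hK₁, b1⟩ := bd_an c1 hφ.pos b
  obtain ⟨K₂, hK₂, b2⟩ := bd_an c2 hφ.pos b
  obtain ⟨K₃, hK₃, b3⟩ := bd_an (dot_sm cn_compl.op hk hk).continuousOn hφ.pos b
  have b4 : ∀ x ∈ Om U, a ≤ ‖x‖ → ‖x‖ ≤ b →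
      2 * (φ x * |dot φ k x|) ≤ φ x ^ 2 + K₃ * dot φ φ x := fun x hx h1 h2 => by
    have h3 := (dot_sq_le φ k x).trans (mul_le_mul_of_nonneg_left
      ((le_abs_self _).trans (b3 x h1 h2)) (dot_nonneg φ x))
    nlinarith [sq_nonneg (φ x - |dot φ k x|), sq_abs (dot φ k x)]
  have s2 : ∀ n, ContDiffOn ℝ ∞ (fun x => m n x * m n x) (Om U) := fun n => (m1 n).mul (m1 n)
  have i1 : ∀ n, IntegrableOn (dot (fun x => m n x * m n x) k) (Om U) := fun n =>
    (((m2 n).mul _).dotC hU.op _).int hU.op (dot_sm hU.op (s2 n) hk').continuousOn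
  have i2 : ∀ n, IntegrableOn (fun x => m n x * m n x * lap k x) (Om U) := fun n =>
    (((m2 n).mul _).mul _).int hU.op ((s2 n).continuousOn.mul (c2.mono (om_sub U)))
  have e : ∀ n, ∀ x ∈ Om U, dot (fun x => m n x * m n x) k x = 2 * (m n x * dot (m n) k x) :=
    fun n x hx => by
    rw [dot_mul (cd_at hU.op (m1 n) hx) (cd_at hU.op (m1 n) hx)]
    ring
  have l := staba_lim hU hφ
    (G := fun n x => dot (fun x => m n x * m n x) k x + m n x * m n x * lap k x)
    (F := fun x => 2 * (if U x ≤ φ x then U x * dot U k x else 0) +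
      2 * (if U x ≤ φ x then 0 else φ x * dot φ k x) + min (U x) (φ x) ^ 2 * lap k x)
    (fun n => ((i1 n).add (i2 n)).aestronglyMeasurable) (C := C ^ 2 * (K₁ + K₂ + K₃ + 1))
    (fun n x hx => ?_) fun x hx => ?_
  · have j1 := staba_top (f := fun x => U x * dot U k x) hU hφ (hU.sm.continuousOn.mul c1)
    have j2 : IntegrableOn (fun x => if U x ≤ φ x then 0 else φ x * dot φ k x) (Om U) := by
      refine staba_int hU hφ (staba_ite hU hφ continuousOn_const
        (hφ.sm.continuousOn.mul (dot_sm hU.op hφ.sm hk').continuousOn)) (C := K₃ + 1)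
        fun x hx => staba_dom hφ hx (by positivity) (fun h0 => ?_) fun h1 h2 => ?_
      · rw [h0, zero_mul, ite_self, abs_zero]
        exact mul_nonneg (by positivity) (dot_nonneg _ _)
      · have p1 := dot_nonneg φ x
        split_ifs
        · rw [abs_zero]
          positivity
        · rw [abs_mul, abs_of_nonneg (hφ.nn x hx)]
          nlinarith [b4 x hx h1 h2, mul_nonneg hK₃.le p1, mul_nonneg hK₃.le (sq_nonneg (φ x)),
            sq_nonneg (φ x)]
    have j3 : IntegrableOn (fun x => min (U x) (φ x) ^ 2 * lap k x) (Om U) := by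
      refine staba_int hU hφ ((((hU.smO.continuousOn.inf hφ.sm.continuousOn).pow 2).mul
        (c2.mono (om_sub U))).aestronglyMeasurable hm) (C := K₂)
        fun x hx => staba_dom hφ hx hK₂.le (fun h0 => ?_) fun h1 h2 => ?_
      · rw [h0, min_eq_right hx.2.le, zero_pow two_ne_zero, zero_mul, abs_zero]
        exact mul_nonneg hK₂.le (dot_nonneg _ _)
      · have h3 : min (U x) (φ x) ^ 2 ≤ φ x ^ 2 :=
          pow_le_pow_left₀ (le_min hx.2.le (hφ.nn x hx)) (min_le_right _ _) 2
        have h4 := mul_le_mul h3 (b2 x h1 h2) (abs_nonneg _) (sq_nonneg _)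
        rw [abs_mul, abs_of_nonneg (sq_nonneg _)]
        nlinarith [mul_nonneg hK₂.le (dot_nonneg φ x)]
    have j4 : IntegrableOn (fun x => 2 * (if U x ≤ φ x then U x * dot U k x else 0) +
        2 * (if U x ≤ φ x then 0 else φ x * dot φ k x)) (Om U) :=
      (j1.const_mul 2).add (j2.const_mul 2)
    rw [integral_add j4 j3,
      integral_add (j1.const_mul 2) (j2.const_mul 2), integral_const_mul, integral_const_mul] at l
    refine tendsto_nhds_unique l (tendsto_const_nhds.congr fun n => ?_)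
    rw [integral_add (i1 n) (i2 n), green hU.op ((m2 n).mul _) (s2 n) hk', neg_add_cancel]
  · obtain ⟨-, h1, α, β, hα, hβ, -, h2⟩ := m3 n x hx
    have p0 := hφ.nn x hx
    have p1 := dot_nonneg φ x
    rw [e n x hx, h2]
    refine staba_dom hφ hx (by positivity) (fun h3 => ?_) fun h3 h4 => ?_
    · rw [h3, mul_zero, abs_nonpos_iff] at h1
      rw [h1]
      simp only [zero_mul, mul_zero, add_zero, abs_zero]
      positivity
    · have k1 : |α * dot U k x + β * dot φ k x| ≤ C * K₁ + C * |dot φ k x| := by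
        refine (abs_add_le _ _).trans ?_
        rw [abs_mul, abs_mul]
        gcongr
        exact b1 x h3 h4
      have k2 := mul_le_mul h1 k1 (abs_nonneg _) (by positivity)
      have k3 := mul_le_mul (mul_le_mul h1 h1 (abs_nonneg _) (by positivity)) (b2 x h3 h4)
        (abs_nonneg _) (by positivity)
      have k4 : 2 * (φ x * (K₁ + |dot φ k x|)) + φ x ^ 2 * K₂ ≤
          (K₁ + K₂ + K₃ + 1) * (1 + dot φ φ x + φ x ^ 2) := by
        nlinarith [b4 x hx h3 h4, mul_nonneg hK₁.le (sq_nonneg (φ x - 1)), mul_nonneg hK₁.le p1,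
          mul_nonneg hK₂.le p1, mul_nonneg hK₃.le (sq_nonneg (φ x))]
      have k5 := mul_le_mul_of_nonneg_left k4 (sq_nonneg C)
      refine (abs_add_le _ _).trans ?_
      rw [abs_mul, abs_mul, abs_mul, abs_mul, abs_two]
      linarith
  · filter_upwards [m4 x hx] with n hn
    rw [e n x hx, hn.2, hn.1]
    by_cases h1 : U x ≤ φ x
    · simp only [h1, if_true, min_eq_left h1]
      ring
    · simp only [h1, if_false, min_eq_right (not_le.1 h1).le]
      ring

end Vale.Agent.P098
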