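import Mathlib

open MeasureTheory Set Filter Topology Metric
open scoped ContDiff RealInnerProductSpace

noncomputable section

namespace Vale.Agent.P098

/-- Euclidean space -/
abbrev V (d : ℕ) : Type := EuclideanSpace ℝ (Fin d)

variable {d : ℕ}

/-- smooth functions with compact support in `B` -/
def Tst (B : Set (V d)) (φ : V d → ℝ) : Prop :=
  ContDiff ℝ ∞ φ ∧ HasCompactSupport φ ∧ tsupport φ ⊆ B

/-- `v` lies in the Sobolev space of `B`, with weak gradient `G` -/
def InH1 (B : Set (V d)) (v : V d → ℝ) (G : V d → V d) : Prop :=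
  MemLp v 2 (volume.restrict B) ∧ MemLp G 2 (volume.restrict B) ∧
    ∀ φ, Tst B φ → ∀ e : V d, ∫ x in B, v x * fderiv ℝ φ x e = -∫ x in B, φ x * ⟪G x, e⟫

/-- `w`, with gradient `G`, is a limit of test functions in the Sobolev norm of `B` -/
def InH10 (B : Set (V d)) (w : V d → ℝ) (G : V d → V d) : Prop :=
  ∃ φ : ℕ → V d → ℝ, (∀ k, Tst B (φ k)) ∧
    Tendsto (fun k => eLpNorm (fun x => φ k x - w x) 2 (volume.restrict B)) atTop (𝓝 0) ∧
    Tendsto (fun k => eLpNorm (fun x => gradient (φ k) x - G x) 2 (volume.restrict B)) atTop (𝓝 0)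

/-- the one-phase energy -/
def J (B : Set (V d)) (v : V d → ℝ) (G : V d → V d) : ℝ :=
  (∫ x in B, ‖G x‖ ^ 2) + volume.real {x | x ∈ B ∧ 0 < v x}

/-- global minimizers, with weak gradient `G` -/
def IsMin (u : V d → ℝ) (G : V d → V d) : Prop :=
  (∀ᵐ x, 0 ≤ u x) ∧ ∀ (c : V d) (R : ℝ), 0 < R → InH1 (ball c R) u G ∧
    ∀ (v : V d → ℝ) (H : V d → V d), (∀ᵐ x ∂(volume.restrict (ball c R)), 0 ≤ v x) →
      InH1 (ball c R) v H → InH10 (ball c R) (fun x => v x - u x) (fun x => H x - G x) →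
        J (ball c R) u G ≤ J (ball c R) v H

/-- one-homogeneous -/
def Homog (u : V d → ℝ) : Prop := ∀ r : ℝ, 0 < r → ∀ᵐ x, u (r • x) = r * u x

/-- `u` is the positive part of `U`, which is smooth away from the origin and has a unit
gradient on its zero set -/
def SmoothFB (u U : V d → ℝ) : Prop :=
  ContDiffOn ℝ ∞ U {0}ᶜ ∧ (∀ x, x ≠ 0 → U x = 0 → ‖gradient U x‖ = 1) ∧ ∀ᵐ x, u x = max (U x) 0

/-- the zero phase without the origin -/
def Zp (U : V d → ℝ) : Set (V d) := {x | x ≠ 0 ∧ U x ≤ 0}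

end Vale.Agent.P098
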