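import Vale.Agent.P098.Seg
import Vale.Agent.P098.Chi

open MeasureTheory Set Filter Topology Metric
open scoped ContDiff RealInnerProductSpace

noncomputable section

namespace Vale.Agent.P098

variable {d : ℕ} {S : Set (V d)} {U f g h k m F θ φ : V d → ℝ} {x : V d} {a b : ℝ}
  {z χ : ℝ → ℝ}

theorem vol_gam {ρ δ : ℝ} (hρ : 0 < ρ) (hδ : 0 < δ) : ∃ γ : ℝ → ℝ, ContDiff ℝ ∞ γ ∧
    (∀ s, s ≤ ρ → γ s = 0) ∧ (∀ s, 0 < s → |γ s| ≤ 1 ∧ 0 ≤ deriv γ s) ∧
    ∀ s, 2 * ρ ≤ s → s ≤ δ → 1 / (3 * δ) ≤ deriv γ s := by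
  have hd : ∀ s, HasDerivAt (fun s => bt (s / ρ) * (1 - Real.exp (-(s / δ))))
      (deriv bt (s / ρ) * (1 / ρ) * (1 - Real.exp (-(s / δ))) +
        bt (s / ρ) * (Real.exp (-(s / δ)) * (1 / δ))) s := fun s => by
    have h1 : HasDerivAt (fun s => bt (s / ρ)) (deriv bt (s / ρ) * (1 / ρ)) s :=
      HasDerivAt.comp (h₂ := bt) (h := fun s => s / ρ) s
        ((bt_sm.differentiable (by simp)) (s / ρ)).hasDerivAt ((hasDerivAt_id s).div_const ρ)
    have h2 : HasDerivAt (fun s => 1 - Real.exp (-(s / δ)))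
        (Real.exp (-(s / δ)) * (1 / δ)) s := by
      have := (((hasDerivAt_id s).div_const δ).neg.exp).const_sub 1
      refine this.congr_deriv ?_
      simp
    exact h1.mul h2
  have he : ∀ s, 0 < s → Real.exp (-(s / δ)) ≤ 1 := fun s hs =>
    Real.exp_le_one_iff.2 (neg_nonpos.2 (div_pos hs hδ).le)
  refine ⟨fun s => bt (s / ρ) * (1 - Real.exp (-(s / δ))), ?_, ?_, ?_, ?_⟩
  · exact (bt_sm.comp (contDiff_id.div_const ρ)).mul
      (contDiff_const.sub (contDiff_id.div_const δ).neg.exp)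
  · intro s hs
    simp only [bt_zero ((div_le_one hρ).2 hs), zero_mul]
  · intro s hs
    have h1 := he s hs
    have h2 := Real.exp_pos (-(s / δ))
    have h3 := bt_nn (s / ρ)
    have h4 := bt_le (s / ρ)
    have h5 := bt_d_nn (s / ρ)
    have h6 : 0 ≤ 1 - Real.exp (-(s / δ)) := by linarith
    refine ⟨?_, ?_⟩
    · rw [abs_of_nonneg (mul_nonneg h3 h6)]
      nlinarith
    · rw [(hd s).deriv]
      positivity
  · intro s hs hs'
    have h0 : 0 < s := by linarith
    have h1 := he s h0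
    have h5 := bt_d_nn (s / ρ)
    have h6 : 0 ≤ 1 - Real.exp (-(s / δ)) := by linarith
    have h7 : 1 / 3 ≤ Real.exp (-(s / δ)) := by
      have h8 : Real.exp (-1) ≤ Real.exp (-(s / δ)) :=
        Real.exp_le_exp.2 (neg_le_neg ((div_le_one hδ).2 hs'))
      have h9 := Real.exp_neg_one_gt_d9
      linarith
    rw [(hd s).deriv, bt_one ((le_div_iff₀ hρ).2 hs), one_mul]
    have h10 : 0 ≤ deriv bt (s / ρ) * (1 / ρ) * (1 - Real.exp (-(s / δ))) := by positivity
    have h11 : 1 / (3 * δ) = 1 / 3 * (1 / δ) := by field_simp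
    have h12 : 1 / 3 * (1 / δ) ≤ Real.exp (-(s / δ)) * (1 / δ) :=
      mul_le_mul_of_nonneg_right h7 (by positivity)
    linarith

theorem vol_fin (U : V d → ℝ) (a b δ : ℝ) : volume (Ly U a b δ) ≠ ⊤ :=
  ne_top_of_le_ne_top (an_fin U a b) (measure_mono fun _ hx => hx.1)

theorem vol_small (hU : Cone U) (ha : 0 < a) (hab : a ≤ b) :
    ∃ C η : ℝ, 0 < C ∧ 0 < η ∧ ∀ δ ρ : ℝ, 0 < δ → δ ≤ η → 0 < ρ →
      volume.real (Ly U a b δ \ Ly U a b (2 * ρ)) ≤ C * δ := by
  obtain ⟨z, hz, hz0, -, hz1⟩ := exists_rc ha hab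
  obtain ⟨Cz, hCz, hzb⟩ := hz.der.bd
  have ha2 : 0 < a / 2 := by positivity
  obtain ⟨CU, hCU, hUb⟩ := bd_an hU.sm.continuousOn ha2 (2 * b)
  have hdd := (dot_sm isOpen_compl_singleton hU.sm hU.sm).continuousOn
  obtain ⟨η, hη, hs⟩ := small0 (f := fun x => dot U U x - 1) hU (hdd.sub continuousOn_const)
    (fun x h0 h1 => by rw [hU.fb x h0 h1, sub_self]) ha b (l := 1 / 2) (by norm_num)
  set M := volume.real (An U (a / 2) (2 * b)) with hM
  have hM0 : 0 ≤ M := measureReal_nonneg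
  refine ⟨6 * (2 * Cz * CU * M) + 1, η, by positivity, hη, fun δ ρ hδ hδη hρ => ?_⟩
  obtain ⟨γ, hγ, hγ0, hγ1, hγ2⟩ := vol_gam hρ hδ
  set A := Ly U a b δ \ Ly U a b (2 * ρ) with hA
  have hAm : MeasurableSet A := (hU.ly_meas ha δ).diff (hU.ly_meas ha _)
  have hAf : volume A ≠ ⊤ := ne_top_of_le_ne_top (vol_fin U a b δ) (measure_mono sdiff_subset)
  have hBm : MeasurableSet (An U (a / 2) (2 * b)) := hU.an_meas ha2
  have hsm : ContDiffOn ℝ ∞ (fun x => γ (U x) * rz z x) (Om U) :=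
    (hγ.comp_contDiffOn hU.smO).mul (rz_sm hz.sm).contDiffOn
  have hcs : Cs (Om U) fun x => γ (U x) * rz z x := by
    refine hU.cs (b := 2 * b) ha2 hρ fun x _ hx => ?_
    refine ⟨?_, hz.an (right_ne_zero_of_mul hx)⟩
    by_contra hc
    exact left_ne_zero_of_mul hx (hγ0 _ (not_le.1 hc).le)
  have hg := green hU.op hcs hsm hU.smO
  rw [setIntegral_congr_fun hU.op.measurableSet (g := fun _ => (0 : ℝ))
    (f := fun x => γ (U x) * rz z x * lap U x) (fun x hx => by simp [hU.har x hx])] at hg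
  simp only [integral_zero, neg_zero] at hg
  have hi : IntegrableOn (dot (fun x => γ (U x) * rz z x) U) (Om U) :=
    (hcs.dotC hU.op U).int hU.op (dot_sm hU.op hsm hU.smO).continuousOn
  have hiA : Integrable (A.indicator fun _ => 1 / (6 * δ)) :=
    (integrable_indicator_iff hAm).2 (integrableOn_const hAf)
  have hiB : Integrable ((An U (a / 2) (2 * b)).indicator fun _ => 2 * Cz * CU) :=
    (integrable_indicator_iff hBm).2 (integrableOn_const (an_fin _ _ _))
  have key : ∀ x, A.indicator (fun _ => 1 / (6 * δ)) x ≤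
      (Om U).indicator (dot (fun x => γ (U x) * rz z x) U) x +
        (An U (a / 2) (2 * b)).indicator (fun _ => 2 * Cz * CU) x := by
    intro x
    by_cases hx : x ∈ Om U
    · have hUd := cd_at hU.op hU.smO hx
      have hzd : DifferentiableAt ℝ z (‖x‖ ^ 2) := hz.sm.differentiable (by simp) _
      have hγd : DifferentiableAt ℝ γ (U x) := hγ.differentiable (by simp) _
      have e : dot (fun x => γ (U x) * rz z x) U x =
          γ (U x) * (2 * deriv z (‖x‖ ^ 2) * U x) +
            z (‖x‖ ^ 2) * (deriv γ (U x) * dot U U x) := by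
        rw [dot_mul (f := fun x => γ (U x)) (hγd.comp x hUd)
          ((rz_sm hz.sm).differentiable (by simp) x), dot_rz hzd, hU.radU hx, dot_comp hγd hUd]
        rfl
      have h1 : -(An U (a / 2) (2 * b)).indicator (fun _ => 2 * Cz * CU) x ≤
          γ (U x) * (2 * deriv z (‖x‖ ^ 2) * U x) := by
        by_cases h0 : deriv z (‖x‖ ^ 2) = 0
        · rw [h0]
          have : 0 ≤ (An U (a / 2) (2 * b)).indicator (fun _ => 2 * Cz * CU) x :=
            indicator_nonneg (fun _ _ => by positivity) x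
          simpa using this
        · have h2 := hz.der.an h0
          rw [indicator_of_mem (show x ∈ An U (a / 2) (2 * b) from ⟨hx.2, h2⟩)]
          refine (neg_le_neg ?_).trans (neg_abs_le _)
          rw [abs_mul, abs_mul, abs_mul, abs_two]
          have h3 := (hγ1 _ hx.2).1
          have h4 := hzb (‖x‖ ^ 2)
          have h5 := hUb x h2.1 h2.2
          calc _ ≤ 1 * (2 * Cz * CU) := by gcongr
            _ = _ := one_mul _
      have h2 : A.indicator (fun _ => 1 / (6 * δ)) x ≤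
          z (‖x‖ ^ 2) * (deriv γ (U x) * dot U U x) := by
        by_cases h0 : x ∈ A
        · have h3 := h0.1.1.2
          have h4 : 2 * ρ ≤ U x := by
            by_contra hc
            exact h0.2 ⟨h0.1.1, (not_le.1 hc).le⟩
          have h5 := hγ2 _ h4 h0.1.2
          have h6 := (abs_le.1 (hs x ⟨h0.1.1, h0.1.2.trans hδη⟩)).1
          rw [indicator_of_mem h0, hz1 _ (by gcongr; exact h3.1) (by gcongr; exact h3.2), one_mul]
          have h7 : 1 / (6 * δ) = 1 / (3 * δ) * (1 / 2) := by field_simp; norm_num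
          rw [h7]
          exact mul_le_mul h5 (by linarith) (by norm_num) (hγ1 _ hx.2).2
        · rw [indicator_of_notMem h0]
          exact mul_nonneg (hz0 _) (mul_nonneg (hγ1 _ hx.2).2 (dot_nonneg _ _))
      rw [indicator_of_mem hx, e]
      linarith
    · rw [indicator_of_notMem hx, indicator_of_notMem fun h0 : x ∈ A => hx (an_sub ha h0.1.1),
        zero_add]
      exact indicator_nonneg (fun _ _ => by positivity) x
  have hio := (integrable_indicator_iff hU.op.measurableSet).2 hi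
  have h1 := integral_mono hiA (hio.add hiB) key
  rw [integral_add' hio hiB, integral_indicator hU.op.measurableSet, hg,
    integral_indicator_const _ hAm, integral_indicator_const _ hBm, ← hM, smul_eq_mul,
    smul_eq_mul, zero_add, mul_one_div, div_le_iff₀ (by positivity)] at h1
  nlinarith

theorem vol_ly (hU : Cone U) (ha : 0 < a) (b : ℝ) :
    ∃ C : ℝ, 0 < C ∧ ∀ δ : ℝ, 0 < δ → volume.real (Ly U a b δ) ≤ C * δ := by
  rcases lt_or_ge b a with hab | hab
  · refine ⟨1, one_pos, fun δ hδ => ?_⟩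
    have : Ly U a b δ = ∅ := eq_empty_of_forall_notMem fun x hx => by
      linarith [hx.1.2.1, hx.1.2.2]
    rw [this, measureReal_empty]
    positivity
  obtain ⟨C, η, hC, hη, H⟩ := vol_small hU ha hab
  have hM0 : 0 ≤ volume.real (An U a b) := measureReal_nonneg
  refine ⟨C + volume.real (An U a b) / η, by positivity, fun δ hδ => ?_⟩
  rcases le_total δ η with hδη | hδη
  · have e : Ly U a b δ = ⋃ n : ℕ, Ly U a b δ \ Ly U a b (2 * (1 / ((n : ℝ) + 1))) := by
      refine Subset.antisymm (fun x hx => ?_) (iUnion_subset fun _ => sdiff_subset)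
      obtain ⟨n, hn⟩ := exists_nat_one_div_lt (half_pos hx.1.1)
      exact mem_iUnion.2 ⟨n, hx, fun h0 => by linarith [h0.2]⟩
    have hm : Monotone fun n : ℕ => Ly U a b δ \ Ly U a b (2 * (1 / ((n : ℝ) + 1))) := by
      intro n n' hn
      refine sdiff_subset_sdiff_right fun x hx => ⟨hx.1, hx.2.trans ?_⟩
      have := Nat.one_div_le_one_div (α := ℝ) hn
      linarith
    have h1 : volume (Ly U a b δ) ≤ ENNReal.ofReal (C * δ) := by
      rw [e, hm.measure_iUnion]
      refine iSup_le fun n => ?_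
      exact (ENNReal.le_ofReal_iff_toReal_le
        (ne_top_of_le_ne_top (vol_fin U a b δ) (measure_mono sdiff_subset)) (by positivity)).2
        (H δ _ hδ hδη Nat.one_div_pos_of_nat)
    have h2 : volume.real (Ly U a b δ) ≤ C * δ := ENNReal.toReal_le_of_le_ofReal (by positivity) h1
    have h3 : 0 ≤ volume.real (An U a b) / η * δ := by positivity
    linarith
  · have h1 : volume.real (Ly U a b δ) ≤ volume.real (An U a b) :=
      measureReal_mono (fun _ hx => hx.1) (an_fin U a b)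
    have h2 : volume.real (An U a b) / η * η ≤ volume.real (An U a b) / η * δ := by gcongr
    rw [div_mul_cancel₀ _ hη.ne'] at h2
    have h3 : 0 ≤ C * δ := by positivity
    linarith

theorem tail (hU : Cone U) (ha : 0 < a) (hi : IntegrableOn F (An U a b)) {l : ℝ} (hl : 0 < l) :
    ∃ η : ℝ, 0 < η ∧ ∀ δ : ℝ, δ ≤ η → ∫ x in Ly U a b δ, |F x| ≤ l := by
  have hi' : ∀ δ, IntegrableOn (fun x => |F x|) (Ly U a b δ) := fun δ =>
    IntegrableOn.mono_set (t := An U a b) hi.abs fun _ hx => hx.1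
  have hm : Antitone fun n : ℕ => Ly U a b (1 / ((n : ℝ) + 1)) := fun n n' hn x hx =>
    ⟨hx.1, hx.2.trans (Nat.one_div_le_one_div hn)⟩
  have h1 := tendsto_setIntegral_of_antitone (μ := volume) (f := fun x => |F x|)
    (fun n : ℕ => hU.ly_meas (b := b) ha (1 / ((n : ℝ) + 1))) hm ⟨0, hi' _⟩
  have e : ⋂ n : ℕ, Ly U a b (1 / ((n : ℝ) + 1)) = ∅ := eq_empty_of_forall_notMem fun x hx => by
    obtain ⟨n, hn⟩ := exists_nat_one_div_lt (mem_iInter.1 hx 0).1.1
    exact absurd (mem_iInter.1 hx n).2 (not_le.2 hn)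
  rw [e, setIntegral_empty] at h1
  obtain ⟨n, hn⟩ := (h1.eventually (gt_mem_nhds hl)).exists
  refine ⟨_, Nat.one_div_pos_of_nat (n := n), fun δ hδ => le_trans ?_ hn.le⟩
  exact setIntegral_mono_set (hi' _) (Eventually.of_forall fun _ => abs_nonneg _)
    (LE.le.eventuallyLE fun x hx => ⟨hx.1, hx.2.trans hδ⟩)

theorem layer {R : V d → ℝ} (hU : Cone U) (hg : Gd U h g) (ha : 0 < a)
    (hc : ContinuousOn R (Om U)) (hR : Sml U g R a b) {l : ℝ} (hl : 0 < l) :
    ∃ η : ℝ, 0 < η ∧ ∀ ε : ℝ, 0 < ε → ε ≤ η → IntegrableOn R (Ly U a b (2 * ε)) ∧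
      ∫ x in Ly U a b (2 * ε), |R x| ≤ l * ε := by
  obtain ⟨C, hC, hv⟩ := vol_ly hU ha b
  obtain ⟨η, C', hη, hb⟩ := hR (l / (4 * C)) (by positivity)
  have hC' : 0 < |C'| + 1 := by positivity
  obtain ⟨η', hη', ht⟩ := tail hU ha (hg.int a b ha) (l := l / (4 * (|C'| + 1))) (by positivity)
  refine ⟨min η η' / 2, by positivity, fun ε hε hεη => ?_⟩
  have h1 : 2 * ε ≤ η := by linarith [min_le_left η η']
  have h2 : 2 * ε ≤ η' := by linarith [min_le_right η η']
  have hm := hU.ly_meas (b := b) ha (2 * ε)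
  have hi1 : IntegrableOn (fun _ => l / (4 * C)) (Ly U a b (2 * ε)) :=
    integrableOn_const (vol_fin _ _ _ _)
  have hi2 : IntegrableOn (fun x => (|C'| + 1) * (2 * ε) * |U x * dot g g x|)
      (Ly U a b (2 * ε)) :=
    (IntegrableOn.mono_set (t := An U a b) (hg.int a b ha).abs fun _ hx => hx.1).const_mul _
  have key : ∀ x ∈ Ly U a b (2 * ε),
      |R x| ≤ l / (4 * C) + (|C'| + 1) * (2 * ε) * |U x * dot g g x| := fun x hx => by
    refine (hb x ⟨hx.1, hx.2.trans h1⟩).trans (add_le_add_right ?_ _)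
    have h3 := hx.1.1
    have h4 := dot_nonneg g x
    have h5 := hx.2
    have h6 : C' ≤ |C'| + 1 := by linarith [le_abs_self C']
    rw [abs_of_nonneg (mul_nonneg h3.le h4)]
    calc C' * (U x ^ 2 * dot g g x) ≤ (|C'| + 1) * (U x ^ 2 * dot g g x) := by gcongr
      _ = (|C'| + 1) * U x * (U x * dot g g x) := by ring
      _ ≤ _ := by gcongr
  have hiR : IntegrableOn R (Ly U a b (2 * ε)) :=
    Integrable.mono' (hi1.add hi2)
      ((hc.mono fun _ hx => an_sub ha hx.1).aestronglyMeasurable hm)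
      (ae_restrict_of_forall_mem hm key)
  refine ⟨hiR, (setIntegral_mono_on hiR.abs (hi1.add hi2) hm key).trans ?_⟩
  rw [integral_add' hi1 hi2, setIntegral_const, integral_const_mul, smul_eq_mul]
  have h3 : volume.real (Ly U a b (2 * ε)) * (l / (4 * C)) ≤ C * (2 * ε) * (l / (4 * C)) :=
    mul_le_mul_of_nonneg_right (hv _ (by positivity)) (by positivity)
  have h4 : (|C'| + 1) * (2 * ε) * ∫ x in Ly U a b (2 * ε), |U x * dot g g x| ≤
      (|C'| + 1) * (2 * ε) * (l / (4 * (|C'| + 1))) :=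
    mul_le_mul_of_nonneg_left (ht _ h2) (by positivity)
  have h5 : C * (2 * ε) * (l / (4 * C)) = l * ε / 2 := by field_simp; norm_num
  have h6 : (|C'| + 1) * (2 * ε) * (l / (4 * (|C'| + 1))) = l * ε / 2 := by field_simp; norm_num
  linarith

theorem w_int (hU : Cone U) (hh : Hr U h) (hg : Gd U h g) (ha : 0 < a) (b : ℝ) :
    IntegrableOn (dot h h) (An U a b) := by
  obtain ⟨C, hC⟩ := hg.bd
  obtain ⟨η, hη, he⟩ := hg.eq
  obtain ⟨C', hC', hb⟩ := bd_an (dot_sm isOpen_compl_singleton hU.sm hU.sm).continuousOn ha b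
  have hc := (dot_sm hU.op hh.sm hh.sm).continuousOn
  obtain ⟨M, hM⟩ := (hU.cpt (b := b) ha (η * a)).exists_bound_of_continuousOn
    (hc.mono fun x hx => an_sub ha ⟨lt_of_lt_of_le (by positivity) hx.1, hx.2⟩)
  have hm := hU.an_meas (b := b) ha
  have hi1 : IntegrableOn (fun _ => |M| + 2 * (|C| / a) ^ 2 * C') (An U a b) :=
    integrableOn_const (an_fin _ _ _)
  refine Integrable.mono' (hi1.add ((hg.int a b ha).const_mul (2 * (η * a))))
    ((hc.mono (an_sub ha)).aestronglyMeasurable hm) (ae_restrict_of_forall_mem hm fun x hx => ?_)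
  have h1 := hx.1
  have h2 := dot_nonneg g x
  have h3 := abs_nonneg M
  simp only [Pi.add_apply]
  rcases le_or_gt (η * a) (U x) with h0 | h0
  · have h4 := (hM x ⟨h0, hx.2⟩).trans (le_abs_self M)
    have h5 : 0 ≤ 2 * (|C| / a) ^ 2 * C' := by positivity
    have h6 : 0 ≤ 2 * (η * a) * (U x * dot g g x) := by positivity
    linarith
  · have h4 := he x (an_sub ha hx) (h0.trans_le (by gcongr; exact hx.2.1))
    have h5 : dot h h x ≤ 2 * g x ^ 2 * dot U U x + 2 * U x * (U x * dot g g x) := by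
      simp only [dot, h4, Finset.mul_sum, ← Finset.sum_add_distrib]
      refine Finset.sum_le_sum fun i _ => ?_
      nlinarith [sq_nonneg (g x * D i U x - U x * D i g x)]
    have h6 : |g x| ≤ |C| / a := (hC x (an_sub ha hx)).trans
      (by gcongr; exacts [le_abs_self C, hx.2.1])
    have h7 : g x ^ 2 ≤ (|C| / a) ^ 2 := by
      rw [← sq_abs]
      gcongr
    have h8 := (le_abs_self _).trans (hb x hx.2.1 hx.2.2)
    have h9 := dot_nonneg U x
    have h10 : 2 * g x ^ 2 * dot U U x ≤ 2 * (|C| / a) ^ 2 * C' := by gcongr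
    have h11 : 2 * U x * (U x * dot g g x) ≤ 2 * (η * a) * (U x * dot g g x) := by gcongr
    rw [Real.norm_eq_abs, abs_of_nonneg (dot_nonneg h x)]
    linarith

end Vale.Agent.P098
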